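import Mathlib
import Crest.Prelude.Def_MultiMarginal

/-! # S0175 auxiliary: the abstract (purely measure theoretic) part

`Setup` collects everything the geometry has to deliver.  Three theorems:
* `Setup.pi0_coupling`, `Setup.pi0_cost`, `Setup.pi0_min` : the explicit plan is optimal (weak duality),
* `Setup.no_monge` : no Monge pair attains the minimum (density doubling / parity argument),
* `Setup.approx` : Monge pairs approach the minimum.
-/

set_option autoImplicit false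
open MeasureTheory
open scoped ENNReal
open Crest.AnalysisR.OT

namespace Crest.Agent.S0175Aux

variable {X : Type*} [MeasurableSpace X] [AddGroup X] [MeasurableSingletonClass X] [MeasurableSub₂ X]

/-- All the data and properties delivered by the geometric part. -/
structure Setup (μ α β : Measure X) (N P : Set X) (yp ym : X → X) (c : X × X × X → ℝ≥0∞)
    (u ψ : X → ℝ) (B : ℝ) : Prop where
  probα : IsProbabilityMeasure α
  probβ : IsProbabilityMeasure β
  hμ : μ = (1 / 3 : ℝ≥0∞) • α + (2 / 3 : ℝ≥0∞) • β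
  mN : MeasurableSet N
  mP : MeasurableSet P
  disj : Disjoint N P
  αN : α Nᶜ = 0
  βP : β Pᶜ = 0
  myp : Measurable yp
  mym : Measurable ym
  pushp : α.map yp = β
  pushm : α.map ym = β
  injp : Set.InjOn yp N
  injm : Set.InjOn ym N
  mapsp : ∀ x ∈ N, yp x ∈ P
  mapsm : ∀ x ∈ N, ym x ∈ P
  mc : Measurable c
  csymm₁ : ∀ x y z, c (x, y, z) = c (y, x, z)
  csymm₂ : ∀ x y z, c (x, y, z) = c (x, z, y)
  mu : Measurable u
  bu : ∀ x, |u x| ≤ B
  mψ : Measurable ψ
  bψ : ∀ x, |ψ x| ≤ B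
  /-- the Kantorovich potential inequality (shifted by `3 B` to live in `ℝ≥0∞`) -/
  ineq : ∀ x ∈ N ∪ P, ∀ y ∈ N ∪ P, ∀ z ∈ N ∪ P,
    ENNReal.ofReal (u x + u y + u z + 3 * B) ≤ c (x, y, z) + ENNReal.ofReal (3 * B)
  /-- equality on the explicit triples -/
  contact : ∀ x ∈ N,
    c (x, yp x, ym x) + ENNReal.ofReal (3 * B) = ENNReal.ofReal (u x + u (yp x) + u (ym x) + 3 * B)
  /-- the auxiliary second-moment function has integral zero -/
  ψint : ∫ x, ψ x ∂μ = 0
  /-- on the contact set the `ψ`-sum is nonnegative -/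
  ψnonneg : ∀ x ∈ N ∪ P, ∀ y ∈ N ∪ P, ∀ z ∈ N ∪ P,
    c (x, y, z) + ENNReal.ofReal (3 * B) ≤ ENNReal.ofReal (u x + u y + u z + 3 * B) →
      0 ≤ ψ x + ψ y + ψ z
  /-- rigidity: contact and vanishing `ψ`-sum force the explicit structure -/
  rigid : ∀ x ∈ N ∪ P, ∀ y ∈ N ∪ P, ∀ z ∈ N ∪ P,
    c (x, y, z) + ENNReal.ofReal (3 * B) ≤ ENNReal.ofReal (u x + u y + u z + 3 * B) →
      ψ x + ψ y + ψ z ≤ 0 → y ∈ N → (x = yp y ∨ x = ym y)

/-- the explicit optimal plan: cyclic symmetrisation of `x ↦ (x, y₊ x, y₋ x)` -/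
noncomputable def pi0 (α : Measure X) (yp ym : X → X) : Measure (X × X × X) :=
  (1 / 3 : ℝ≥0∞) • α.map (fun x => (x, yp x, ym x)) +
  (1 / 3 : ℝ≥0∞) • α.map (fun x => (yp x, ym x, x)) +
  (1 / 3 : ℝ≥0∞) • α.map (fun x => (ym x, x, yp x))

end Crest.Agent.S0175Aux
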