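import Mathlib
import Crest.Prelude.Def_MultiMarginal
import Crest.Agent.S0175Aux.Abstract

/-! # S0175 auxiliary: abstract weak duality -/

set_option autoImplicit false
set_option linter.unusedSectionVars false
open MeasureTheory
open scoped ENNReal
open Crest.AnalysisR.OT

namespace Crest.Agent.S0175Aux

variable {X : Type*} [MeasurableSpace X] [AddGroup X] [MeasurableSingletonClass X] [MeasurableSub₂ X]

variable {μ α β : Measure X} {N P : Set X} {yp ym : X → X} {c : X × X × X → ℝ≥0∞}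
  {u ψ : X → ℝ} {B : ℝ}

theorem a1_third_add : (1 / 3 : ℝ≥0∞) + 1 / 3 + 1 / 3 = 1 := by
  have h : (1 / 3 : ℝ≥0∞) + 1 / 3 + 1 / 3 = 3 * (1 / 3) := by ring
  rw [h, one_div]
  exact ENNReal.mul_inv_cancel (by norm_num) (by norm_num)

theorem a1_third_add_two : (1 / 3 : ℝ≥0∞) + 1 / 3 = 2 / 3 := by
  rw [ENNReal.div_add_div_same]; norm_num

theorem a1_third_two_third : (1 / 3 : ℝ≥0∞) + 2 / 3 = 1 := by
  rw [← a1_third_add_two, ← add_assoc]; exact a1_third_add

theorem Setup.a1_m1 (S : Setup μ α β N P yp ym c u ψ B) :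
    Measurable (fun x => (x, yp x, ym x)) :=
  measurable_id.prodMk (S.myp.prodMk S.mym)

theorem Setup.a1_m2 (S : Setup μ α β N P yp ym c u ψ B) :
    Measurable (fun x => (yp x, ym x, x)) :=
  S.myp.prodMk (S.mym.prodMk measurable_id)

theorem Setup.a1_m3 (S : Setup μ α β N P yp ym c u ψ B) :
    Measurable (fun x => (ym x, x, yp x)) :=
  S.mym.prodMk (measurable_id.prodMk S.myp)

/-- push-forward of `pi0` under a measurable map -/
theorem Setup.a1_map_pi0 (S : Setup μ α β N P yp ym c u ψ B) {Y : Type*} [MeasurableSpace Y]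
    (g : X × X × X → Y) (hg : Measurable g) :
    (pi0 α yp ym).map g =
      (1 / 3 : ℝ≥0∞) • α.map (fun x => g (x, yp x, ym x)) +
      (1 / 3 : ℝ≥0∞) • α.map (fun x => g (yp x, ym x, x)) +
      (1 / 3 : ℝ≥0∞) • α.map (fun x => g (ym x, x, yp x)) := by
  unfold pi0
  rw [Measure.map_add _ _ hg, Measure.map_add _ _ hg, Measure.map_smul, Measure.map_smul,
    Measure.map_smul, Measure.map_map hg S.a1_m1, Measure.map_map hg S.a1_m2,
    Measure.map_map hg S.a1_m3]
  rfl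

theorem Setup.pi0_coupling (S : Setup μ α β N P yp ym c u ψ B) :
    IsCoupling₃ μ (pi0 α yp ym) := by
  have hid : α.map (fun x => x) = α := Measure.map_id
  refine ⟨?_, ?_, ?_⟩
  · rw [S.a1_map_pi0 _ measurable_fst]
    simp only []
    rw [hid, S.pushp, S.pushm, S.hμ, add_assoc, ← add_smul, a1_third_add_two]
  · rw [S.a1_map_pi0 (fun p : X × X × X => p.2.1) (measurable_fst.comp measurable_snd)]
    simp only []
    rw [hid, S.pushp, S.pushm, S.hμ, add_comm ((1 / 3 : ℝ≥0∞) • β) _, add_comm _ ((1 / 3 : ℝ≥0∞) • α),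
      ← add_smul, a1_third_add_two]
  · rw [S.a1_map_pi0 (fun p : X × X × X => p.2.2) (measurable_snd.comp measurable_snd)]
    simp only []
    rw [hid, S.pushp, S.pushm, S.hμ, add_comm ((1 / 3 : ℝ≥0∞) • β) _, add_assoc, ← add_smul,
      a1_third_add_two]

/-- integral of a symmetric function against `pi0` -/
theorem Setup.a1_lintegral_pi0 (S : Setup μ α β N P yp ym c u ψ B) (F : X × X × X → ℝ≥0∞)
    (hF : Measurable F) (h₁ : ∀ x y z, F (x, y, z) = F (y, x, z))
    (h₂ : ∀ x y z, F (x, y, z) = F (x, z, y)) :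
    ∫⁻ p, F p ∂(pi0 α yp ym) = ∫⁻ x, F (x, yp x, ym x) ∂α := by
  unfold pi0
  rw [lintegral_add_measure, lintegral_add_measure, lintegral_smul_measure, lintegral_smul_measure,
    lintegral_smul_measure, lintegral_map hF S.a1_m1, lintegral_map hF S.a1_m2,
    lintegral_map hF S.a1_m3]
  have e2 : ∀ x, F (yp x, ym x, x) = F (x, yp x, ym x) := fun x => by
    rw [h₂ (yp x) (ym x) x, h₁ (yp x) x (ym x)]
  have e3 : ∀ x, F (ym x, x, yp x) = F (x, yp x, ym x) := fun x => by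
    rw [h₁ (ym x) x (yp x), h₂ x (ym x) (yp x)]
  simp only [e2, e3, smul_eq_mul]
  rw [← add_mul, ← add_mul, a1_third_add, one_mul]

theorem Setup.pi0_cost_eq (S : Setup μ α β N P yp ym c u ψ B) :
    ∫⁻ p, c p ∂(pi0 α yp ym) = ∫⁻ x, c (x, yp x, ym x) ∂α :=
  S.a1_lintegral_pi0 c S.mc S.csymm₁ S.csymm₂

theorem Setup.a1_ae_N (S : Setup μ α β N P yp ym c u ψ B) : ∀ᵐ x ∂α, x ∈ N := by
  have := S.αN
  rw [ae_iff]
  exact this

theorem Setup.pi0_cost_lt_top (S : Setup μ α β N P yp ym c u ψ B) :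
    ∫⁻ p, c p ∂(pi0 α yp ym) < ⊤ := by
  have := S.probα
  rw [S.pi0_cost_eq]
  have hle : ∀ᵐ x ∂α, c (x, yp x, ym x) ≤ ENNReal.ofReal (6 * B) := by
    filter_upwards [S.a1_ae_N] with x hx
    calc c (x, yp x, ym x) ≤ c (x, yp x, ym x) + ENNReal.ofReal (3 * B) := le_self_add
      _ = ENNReal.ofReal (u x + u (yp x) + u (ym x) + 3 * B) := S.contact x hx
      _ ≤ ENNReal.ofReal (6 * B) := by
        apply ENNReal.ofReal_le_ofReal
        have h1 := (abs_le.mp (S.bu x)).2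
        have h2 := (abs_le.mp (S.bu (yp x))).2
        have h3 := (abs_le.mp (S.bu (ym x))).2
        linarith
  calc ∫⁻ x, c (x, yp x, ym x) ∂α ≤ ∫⁻ _x, ENNReal.ofReal (6 * B) ∂α := lintegral_mono_ae hle
    _ = ENNReal.ofReal (6 * B) := by simp
    _ < ⊤ := ENNReal.ofReal_lt_top

theorem Setup.a1_probμ (S : Setup μ α β N P yp ym c u ψ B) : IsProbabilityMeasure μ := by
  have := S.probα
  have := S.probβ
  constructor
  rw [S.hμ]
  simp only [Measure.coe_add, Measure.coe_smul, Pi.add_apply, Pi.smul_apply, measure_univ,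
    smul_eq_mul, mul_one]
  exact a1_third_two_third

theorem Setup.a1_μ_compl (S : Setup μ α β N P yp ym c u ψ B) : μ (N ∪ P)ᶜ = 0 := by
  rw [S.hμ]
  simp only [Measure.coe_add, Measure.coe_smul, Pi.add_apply, Pi.smul_apply, smul_eq_mul]
  have h1 : α (N ∪ P)ᶜ = 0 :=
    measure_mono_null (Set.compl_subset_compl.mpr Set.subset_union_left) S.αN
  have h2 : β (N ∪ P)ᶜ = 0 :=
    measure_mono_null (Set.compl_subset_compl.mpr Set.subset_union_right) S.βP
  rw [h1, h2]; simp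

theorem Setup.a1_probπ (S : Setup μ α β N P yp ym c u ψ B) (π : Measure (X × X × X))
    (hπ : IsCoupling₃ μ π) : IsProbabilityMeasure π := by
  have := S.a1_probμ
  constructor
  have h : (π.map (fun p => p.1)) Set.univ = 1 := by rw [hπ.1]; exact measure_univ
  rwa [Measure.map_apply measurable_fst MeasurableSet.univ, Set.preimage_univ] at h

theorem Setup.a1_ae_mem (S : Setup μ α β N P yp ym c u ψ B) (π : Measure (X × X × X))
    (hπ : IsCoupling₃ μ π) :
    ∀ᵐ p ∂π, p.1 ∈ N ∪ P ∧ p.2.1 ∈ N ∪ P ∧ p.2.2 ∈ N ∪ P := by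
  have hm : MeasurableSet (N ∪ P)ᶜ := (S.mN.union S.mP).compl
  have h1 : ∀ᵐ p ∂π, p.1 ∈ N ∪ P := by
    have h : (π.map (fun p => p.1)) (N ∪ P)ᶜ = 0 := by rw [hπ.1]; exact S.a1_μ_compl
    rw [Measure.map_apply measurable_fst hm] at h
    rw [ae_iff]; exact h
  have h2 : ∀ᵐ p ∂π, p.2.1 ∈ N ∪ P := by
    have h : (π.map (fun p => p.2.1)) (N ∪ P)ᶜ = 0 := by rw [hπ.2.1]; exact S.a1_μ_compl
    rw [Measure.map_apply (f := fun p : X × X × X => p.2.1) (measurable_fst.comp measurable_snd) hm] at h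
    rw [ae_iff]; exact h
  have h3 : ∀ᵐ p ∂π, p.2.2 ∈ N ∪ P := by
    have h : (π.map (fun p => p.2.2)) (N ∪ P)ᶜ = 0 := by rw [hπ.2.2]; exact S.a1_μ_compl
    rw [Measure.map_apply (f := fun p : X × X × X => p.2.2) (measurable_snd.comp measurable_snd) hm] at h
    rw [ae_iff]; exact h
  filter_upwards [h1, h2, h3] with p a b d using ⟨a, b, d⟩

/-- integral of a bounded "separable sum" against a coupling -/
theorem Setup.a1_integral_sum (S : Setup μ α β N P yp ym c u ψ B) (π : Measure (X × X × X))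
    (hπ : IsCoupling₃ μ π) (v : X → ℝ) (hv : Measurable v) (bv : ∀ x, |v x| ≤ B) :
    Integrable (fun p : X × X × X => v p.1 + v p.2.1 + v p.2.2) π ∧
    ∫ p, (v p.1 + v p.2.1 + v p.2.2) ∂π = 3 * ∫ x, v x ∂μ := by
  have := S.a1_probπ π hπ
  have m1 : Measurable (fun p : X × X × X => p.1) := measurable_fst
  have m2 : Measurable (fun p : X × X × X => p.2.1) := measurable_fst.comp measurable_snd
  have m3 : Measurable (fun p : X × X × X => p.2.2) := measurable_snd.comp measurable_snd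
  have i1 : Integrable (fun p : X × X × X => v p.1) π :=
    Integrable.of_bound (hv.comp m1).aestronglyMeasurable B
      (Filter.Eventually.of_forall fun p => by simpa using bv p.1)
  have i2 : Integrable (fun p : X × X × X => v p.2.1) π :=
    Integrable.of_bound (hv.comp m2).aestronglyMeasurable B
      (Filter.Eventually.of_forall fun p => by simpa using bv p.2.1)
  have i3 : Integrable (fun p : X × X × X => v p.2.2) π :=
    Integrable.of_bound (hv.comp m3).aestronglyMeasurable B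
      (Filter.Eventually.of_forall fun p => by simpa using bv p.2.2)
  refine ⟨(i1.add i2).add i3, ?_⟩
  have e1 : ∫ p, v p.1 ∂π = ∫ x, v x ∂μ := by
    rw [← hπ.1, integral_map m1.aemeasurable hv.aestronglyMeasurable]
  have e2 : ∫ p, v p.2.1 ∂π = ∫ x, v x ∂μ := by
    conv_rhs => rw [← hπ.2.1]
    rw [integral_map m2.aemeasurable hv.aestronglyMeasurable]
  have e3 : ∫ p, v p.2.2 ∂π = ∫ x, v x ∂μ := by
    conv_rhs => rw [← hπ.2.2]
    rw [integral_map m3.aemeasurable hv.aestronglyMeasurable]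
  have i12 : Integrable (fun p : X × X × X => v p.1 + v p.2.1) π := i1.add i2
  rw [integral_add i12 i3, integral_add i1 i2, e1, e2, e3]; ring

/-- the dual value of any coupling -/
theorem Setup.a1_dual_value (S : Setup μ α β N P yp ym c u ψ B) (π : Measure (X × X × X))
    (hπ : IsCoupling₃ μ π) :
    ∫⁻ p, ENNReal.ofReal (u p.1 + u p.2.1 + u p.2.2 + 3 * B) ∂π =
      ENNReal.ofReal (3 * ∫ x, u x ∂μ + 3 * B) := by
  have := S.a1_probπ π hπ
  obtain ⟨hi, he⟩ := S.a1_integral_sum π hπ u S.mu S.bu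
  have hi' : Integrable (fun p : X × X × X => u p.1 + u p.2.1 + u p.2.2 + 3 * B) π :=
    hi.add (integrable_const _)
  rw [← ofReal_integral_eq_lintegral_ofReal hi', integral_add hi (integrable_const _), he]
  · simp
  · refine Filter.Eventually.of_forall fun p => ?_
    have h1 := (abs_le.mp (S.bu p.1)).1
    have h2 := (abs_le.mp (S.bu p.2.1)).1
    have h3 := (abs_le.mp (S.bu p.2.2)).1
    simp only [Pi.zero_apply]
    linarith

theorem Setup.a1_measurable_g (S : Setup μ α β N P yp ym c u ψ B) :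
    Measurable (fun p : X × X × X => ENNReal.ofReal (u p.1 + u p.2.1 + u p.2.2 + 3 * B)) := by
  have m1 : Measurable (fun p : X × X × X => p.1) := measurable_fst
  have m2 : Measurable (fun p : X × X × X => p.2.1) := measurable_fst.comp measurable_snd
  have m3 : Measurable (fun p : X × X × X => p.2.2) := measurable_snd.comp measurable_snd
  exact ENNReal.measurable_ofReal.comp
    ((((S.mu.comp m1).add (S.mu.comp m2)).add (S.mu.comp m3)).add measurable_const)

/-- the cost of `pi0` equals the dual value -/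
theorem Setup.a1_pi0_value (S : Setup μ α β N P yp ym c u ψ B) :
    ∫⁻ p, c p ∂(pi0 α yp ym) + ENNReal.ofReal (3 * B) =
      ENNReal.ofReal (3 * ∫ x, u x ∂μ + 3 * B) := by
  have := S.probα
  rw [← S.a1_dual_value _ S.pi0_coupling, S.pi0_cost_eq,
    S.a1_lintegral_pi0 _ S.a1_measurable_g (fun x y z => by simp only []; congr 1; ring)
      (fun x y z => by simp only []; congr 1; ring)]
  have h : ∫⁻ x, c (x, yp x, ym x) ∂α + ENNReal.ofReal (3 * B) =
      ∫⁻ x, (c (x, yp x, ym x) + ENNReal.ofReal (3 * B)) ∂α := by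
    rw [lintegral_add_right _ measurable_const]; simp
  rw [h]
  apply lintegral_congr_ae
  filter_upwards [S.a1_ae_N] with x hx
  exact S.contact x hx

theorem Setup.a1_ae_ineq (S : Setup μ α β N P yp ym c u ψ B) (π : Measure (X × X × X))
    (hπ : IsCoupling₃ μ π) :
    ∀ᵐ p ∂π, ENNReal.ofReal (u p.1 + u p.2.1 + u p.2.2 + 3 * B) ≤ c p + ENNReal.ofReal (3 * B) := by
  filter_upwards [S.a1_ae_mem π hπ] with p hp
  exact S.ineq p.1 hp.1 p.2.1 hp.2.1 p.2.2 hp.2.2

theorem Setup.a1_lintegral_add_const (S : Setup μ α β N P yp ym c u ψ B) (π : Measure (X × X × X))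
    (hπ : IsCoupling₃ μ π) :
    ∫⁻ p, (c p + ENNReal.ofReal (3 * B)) ∂π = ∫⁻ p, c p ∂π + ENNReal.ofReal (3 * B) := by
  have := S.a1_probπ π hπ
  rw [lintegral_add_right _ measurable_const]; simp

theorem Setup.pi0_min (S : Setup μ α β N P yp ym c u ψ B) (π : Measure (X × X × X))
    (hπ : IsCoupling₃ μ π) : ∫⁻ p, c p ∂(pi0 α yp ym) ≤ ∫⁻ p, c p ∂π := by
  have h : ∫⁻ p, c p ∂(pi0 α yp ym) + ENNReal.ofReal (3 * B) ≤
      ∫⁻ p, c p ∂π + ENNReal.ofReal (3 * B) := by
    rw [S.a1_pi0_value, ← S.a1_dual_value π hπ, ← S.a1_lintegral_add_const π hπ]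
    exact lintegral_mono_ae (S.a1_ae_ineq π hπ)
  exact (ENNReal.add_le_add_iff_right ENNReal.ofReal_ne_top).mp h

/-- equality case of weak duality -/
theorem Setup.ae_contact (S : Setup μ α β N P yp ym c u ψ B) (π : Measure (X × X × X))
    (hπ : IsCoupling₃ μ π) (hle : ∫⁻ p, c p ∂π ≤ ∫⁻ p, c p ∂(pi0 α yp ym)) :
    ∀ᵐ p ∂π, p.1 ∈ N ∪ P ∧ p.2.1 ∈ N ∪ P ∧ p.2.2 ∈ N ∪ P ∧
      c p + ENNReal.ofReal (3 * B) ≤ ENNReal.ofReal (u p.1 + u p.2.1 + u p.2.2 + 3 * B) ∧
      ψ p.1 + ψ p.2.1 + ψ p.2.2 ≤ 0 := by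
  have := S.a1_probπ π hπ
  have hfin : ∫⁻ p, ENNReal.ofReal (u p.1 + u p.2.1 + u p.2.2 + 3 * B) ∂π ≠ ⊤ := by
    rw [S.a1_dual_value π hπ]; exact ENNReal.ofReal_ne_top
  have hint : ∫⁻ p, (c p + ENNReal.ofReal (3 * B)) ∂π ≤
      ∫⁻ p, ENNReal.ofReal (u p.1 + u p.2.1 + u p.2.2 + 3 * B) ∂π := by
    rw [S.a1_lintegral_add_const π hπ, S.a1_dual_value π hπ, ← S.a1_pi0_value]
    gcongr
  have heq := ae_eq_of_ae_le_of_lintegral_le (S.a1_ae_ineq π hπ) hfin
    (S.mc.add measurable_const).aemeasurable hint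
  have hcontact : ∀ᵐ p ∂π, p.1 ∈ N ∪ P ∧ p.2.1 ∈ N ∪ P ∧ p.2.2 ∈ N ∪ P ∧
      c p + ENNReal.ofReal (3 * B) ≤ ENNReal.ofReal (u p.1 + u p.2.1 + u p.2.2 + 3 * B) := by
    filter_upwards [S.a1_ae_mem π hπ, heq] with p hp he
    exact ⟨hp.1, hp.2.1, hp.2.2, he.symm.le⟩
  obtain ⟨hi, he⟩ := S.a1_integral_sum π hπ ψ S.mψ S.bψ
  have hnn : 0 ≤ᵐ[π] fun p : X × X × X => ψ p.1 + ψ p.2.1 + ψ p.2.2 := by
    filter_upwards [hcontact] with p hp
    exact S.ψnonneg p.1 hp.1 p.2.1 hp.2.1 p.2.2 hp.2.2.1 hp.2.2.2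
  have hz : ∫ p, (ψ p.1 + ψ p.2.1 + ψ p.2.2) ∂π = 0 := by rw [he, S.ψint]; ring
  have hzero := (integral_eq_zero_iff_of_nonneg_ae hnn hi).mp hz
  filter_upwards [hcontact, hzero] with p hp h0
  exact ⟨hp.1, hp.2.1, hp.2.2.1, hp.2.2.2, le_of_eq h0⟩

end Crest.Agent.S0175Aux
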