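import Mathlib
import Crest.Prelude.Def_MultiMarginal
import Crest.Agent.S0175Aux.AbstractA1

/-! # S0175 auxiliary: abstract non-existence of Monge minimisers -/

set_option autoImplicit false
open MeasureTheory
open scoped ENNReal
open Crest.AnalysisR.OT

namespace Crest.Agent.S0175Aux

variable {X : Type*} [MeasurableSpace X] [AddGroup X] [MeasurableSingletonClass X] [MeasurableSub₂ X]

variable {μ α β : Measure X} {N P : Set X} {yp ym : X → X} {c : X × X × X → ℝ≥0∞}
  {u ψ : X → ℝ} {B : ℝ}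

namespace A2

/-- `μ` of a subset of `P` -/
theorem mu_of_subset_P (S : Setup μ α β N P yp ym c u ψ B) {E : Set X} (hE : E ⊆ P) :
    μ E = (2 / 3 : ℝ≥0∞) * β E := by
  have h0 : α E = 0 := by
    refine measure_mono_null (fun x hx => ?_) S.αN
    exact fun hxN => Set.disjoint_left.mp S.disj hxN (hE hx)
  rw [S.hμ]
  simp [h0]

/-- `μ` of a subset of `N` -/
theorem mu_of_subset_N (S : Setup μ α β N P yp ym c u ψ B) {E : Set X} (hE : E ⊆ N) :
    μ E = (1 / 3 : ℝ≥0∞) * α E := by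
  have h0 : β E = 0 := by
    refine measure_mono_null (fun x hx => ?_) S.βP
    exact fun hxP => Set.disjoint_left.mp S.disj (hE hx) hxP
  rw [S.hμ]
  simp [h0]

/-- the density doubling identity, stated for a general branch `y` (to be used with `yp`, `ym`) -/
theorem doubling (S : Setup μ α β N P yp ym c u ψ B) (y : X → X) (my : Measurable y)
    (push : α.map y = β) (inj : Set.InjOn y N) (maps : ∀ x ∈ N, y x ∈ P)
    (T : X → X) (hT : Measurable T) (A : Set X) (mA : MeasurableSet A) (hA : A ⊆ N) :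
    μ (T ⁻¹' A ∩ {x | T x ∈ N ∧ x = y (T x)}) = 2 * μ (A ∩ {x | x ∈ N ∧ T (y x) = x}) := by
  have mQ : MeasurableSet {x | T x ∈ N ∧ x = y (T x)} :=
    (hT S.mN).inter (measurableSet_eq_fun measurable_id (my.comp hT))
  have mE : MeasurableSet (T ⁻¹' A ∩ {x | T x ∈ N ∧ x = y (T x)}) := (hT mA).inter mQ
  have hsub : T ⁻¹' A ∩ {x | T x ∈ N ∧ x = y (T x)} ⊆ P := by
    rintro x ⟨-, hxN, hx⟩
    rw [hx]
    exact maps _ hxN
  have hsub' : A ∩ {x | x ∈ N ∧ T (y x) = x} ⊆ N := fun x hx => hA hx.1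
  rw [mu_of_subset_P S hsub, mu_of_subset_N S hsub', ← push, Measure.map_apply my mE]
  have hae : α (y ⁻¹' (T ⁻¹' A ∩ {x | T x ∈ N ∧ x = y (T x)})) =
      α (A ∩ {x | x ∈ N ∧ T (y x) = x}) := by
    apply measure_congr
    have hN : ∀ᵐ x ∂α, x ∈ N := by
      have : α {x | ¬ x ∈ N} = 0 := S.αN
      exact this
    filter_upwards [hN] with x hx
    apply propext
    constructor
    · rintro ⟨h1, h2, h3⟩
      have h4 : x = T (y x) := inj hx h2 h3
      refine ⟨?_, hx, h4.symm⟩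
      have h1' : T (y x) ∈ A := h1
      rwa [← h4] at h1'
    · rintro ⟨h1, -, h3⟩
      refine ⟨?_, ?_, ?_⟩
      · show T (y x) ∈ A
        rwa [h3]
      · show T (y x) ∈ N
        rwa [h3]
      · show y x = y (T (y x))
        rw [h3]
  rw [hae, ← mul_assoc]
  congr 1
  rw [ENNReal.div_eq_inv_mul, ENNReal.div_eq_inv_mul, mul_one, mul_comm]

/-- the "fixed" set of a branch is `μ`-null -/
theorem null_branch (S : Setup μ α β N P yp ym c u ψ B) (y : X → X) (my : Measurable y)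
    (push : α.map y = β) (inj : Set.InjOn y N) (maps : ∀ x ∈ N, y x ∈ P)
    (T : X → X) (hT : Measurable T) (pT : μ.map T = μ) :
    μ {x | x ∈ N ∧ T (y x) = x} = 0 := by
  have : IsProbabilityMeasure α := S.probα
  have : IsProbabilityMeasure β := S.probβ
  have hfin : IsFiniteMeasure μ := by
    refine ⟨?_⟩
    rw [S.hμ]
    simp only [Measure.add_apply, Measure.smul_apply, measure_univ, smul_eq_mul, mul_one]
    exact ENNReal.add_lt_top.mpr
      ⟨ENNReal.div_lt_top (by norm_num) (by norm_num), ENNReal.div_lt_top (by norm_num) (by norm_num)⟩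
  set Np : Set X := {x | x ∈ N ∧ T (y x) = x} with hNp
  have mNp : MeasurableSet Np :=
    S.mN.inter (measurableSet_eq_fun (hT.comp my) measurable_id)
  have hsub : Np ⊆ N := fun x hx => hx.1
  have h1 := doubling S y my push inj maps T hT Np mNp hsub
  rw [Set.inter_self] at h1
  have h2 : μ Np = μ (T ⁻¹' Np) := by
    conv_lhs => rw [← pT]
    rw [Measure.map_apply hT mNp]
  have h3 : 2 * μ Np ≤ μ Np := by
    rw [← h1]
    conv_rhs => rw [h2]
    exact measure_mono Set.inter_subset_left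
  have hfin' : μ Np ≠ ⊤ := measure_ne_top μ Np
  rw [two_mul] at h3
  have h4 : μ Np + μ Np ≤ μ Np + 0 := by rwa [add_zero]
  have h5 : μ Np ≤ 0 := (ENNReal.add_le_add_iff_left hfin').mp h4
  exact le_antisymm h5 bot_le

end A2

theorem Setup.no_monge (S : Setup μ α β N P yp ym c u ψ B) (T₂ T₃ : X → X)
    (h₂ : Measurable T₂) (h₃ : Measurable T₃) (p₂ : μ.map T₂ = μ) (p₃ : μ.map T₃ = μ) :
    ∫⁻ p, c p ∂(pi0 α yp ym) < ∫⁻ x, c (x, T₂ x, T₃ x) ∂μ := by
  by_contra hcon
  rw [not_lt] at hcon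
  have : IsProbabilityMeasure α := S.probα
  have mF : Measurable (fun x : X => ((x, T₂ x, T₃ x) : X × X × X)) :=
    measurable_id.prodMk (h₂.prodMk h₃)
  set π : Measure (X × X × X) := μ.map (fun x => (x, T₂ x, T₃ x)) with hπdef
  have hπ : IsCoupling₃ μ π := by
    refine ⟨?_, ?_, ?_⟩
    · rw [hπdef, Measure.map_map measurable_fst mF]
      exact Measure.map_id
    · rw [hπdef, Measure.map_map (by fun_prop : Measurable fun p : X × X × X => p.2.1) mF]
      exact p₂
    · rw [hπdef, Measure.map_map (by fun_prop : Measurable fun p : X × X × X => p.2.2) mF]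
      exact p₃
  have hcost : ∫⁻ p, c p ∂π = ∫⁻ x, c (x, T₂ x, T₃ x) ∂μ := by
    rw [hπdef, lintegral_map S.mc mF]
  have hae := S.ae_contact π hπ (hcost.le.trans hcon)
  have hae' := ae_of_ae_map mF.aemeasurable hae
  -- a.e. rigidity
  have hrig : ∀ᵐ x ∂μ, T₂ x ∈ N → (x = yp (T₂ x) ∨ x = ym (T₂ x)) := by
    filter_upwards [hae'] with x hx hN
    exact S.rigid x hx.1 (T₂ x) hx.2.1 (T₃ x) hx.2.2.1 hx.2.2.2.1 hx.2.2.2.2 hN
  have hp := A2.null_branch S yp S.myp S.pushp S.injp S.mapsp T₂ h₂ p₂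
  have hm := A2.null_branch S ym S.mym S.pushm S.injm S.mapsm T₂ h₂ p₂
  have dp := A2.doubling S yp S.myp S.pushp S.injp S.mapsp T₂ h₂ N S.mN subset_rfl
  have dm := A2.doubling S ym S.mym S.pushm S.injm S.mapsm T₂ h₂ N S.mN subset_rfl
  have zp : μ (T₂ ⁻¹' N ∩ {x | T₂ x ∈ N ∧ x = yp (T₂ x)}) = 0 := by
    rw [dp, measure_mono_null Set.inter_subset_right hp, mul_zero]
  have zm : μ (T₂ ⁻¹' N ∩ {x | T₂ x ∈ N ∧ x = ym (T₂ x)}) = 0 := by
    rw [dm, measure_mono_null Set.inter_subset_right hm, mul_zero]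
  have hN0 : μ (T₂ ⁻¹' N) = 0 := by
    have hle : μ (T₂ ⁻¹' N) ≤ μ ((T₂ ⁻¹' N ∩ {x | T₂ x ∈ N ∧ x = yp (T₂ x)}) ∪
        (T₂ ⁻¹' N ∩ {x | T₂ x ∈ N ∧ x = ym (T₂ x)})) := by
      apply measure_mono_ae
      filter_upwards [hrig] with x hx hxN
      rcases hx hxN with h | h
      · exact Or.inl ⟨hxN, hxN, h⟩
      · exact Or.inr ⟨hxN, hxN, h⟩
    exact le_antisymm (hle.trans ((measure_union_le _ _).trans (by rw [zp, zm, add_zero]))) bot_le
  have hN1 : μ N = 0 := by
    conv_lhs => rw [← p₂]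
    rw [Measure.map_apply h₂ S.mN, hN0]
  have hN2 : μ N = (1 / 3 : ℝ≥0∞) * α N := A2.mu_of_subset_N S subset_rfl
  have hαN : α N = 1 := by
    have := prob_compl_eq_zero_iff (μ := α) S.mN
    exact this.mp S.αN
  rw [hN2, hαN, mul_one] at hN1
  simp at hN1

end Crest.Agent.S0175Aux
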