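import Mathlib
import Crest.Prelude.Def_MultiMarginal
import Crest.Agent.S0175Aux.AbstractA1

/-! # S0175 auxiliary: abstract approximation by Monge pairs -/

set_option autoImplicit false
set_option linter.unusedSectionVars false
set_option linter.unusedVariables false
open MeasureTheory
open scoped ENNReal
open Crest.AnalysisR.OT

namespace Crest.Agent.S0175Aux

variable {X : Type*} [MeasurableSpace X] [AddGroup X] [MeasurableSingletonClass X] [MeasurableSub₂ X]

variable {μ α β : Measure X} {N P : Set X} {yp ym : X → X} {c : X × X × X → ℝ≥0∞}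
  {u ψ : X → ℝ} {B : ℝ}

namespace A3

theorem ae_mem_N (S : Setup μ α β N P yp ym c u ψ B) : ∀ᵐ x ∂α, x ∈ N := by
  have h := S.αN
  rw [← mem_ae_iff] at h
  exact h

theorem ae_mem_P (S : Setup μ α β N P yp ym c u ψ B) : ∀ᵐ x ∂β, x ∈ P := by
  have h := S.βP
  rw [← mem_ae_iff] at h
  exact h

theorem ae_not_mem_N (S : Setup μ α β N P yp ym c u ψ B) : ∀ᵐ x ∂β, x ∉ N := by
  filter_upwards [ae_mem_P S] with x hx hxN
  exact Set.disjoint_left.mp S.disj hxN hx

theorem map_a (S : Setup μ α β N P yp ym c u ψ B) (a : X → X) (ma : Measurable a)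
    (ha : ∀ x ∈ N, a (yp x) = x) : β.map a = α := by
  rw [← S.pushp, Measure.map_map ma S.myp]
  have : (a ∘ yp) =ᵐ[α] id := by
    filter_upwards [ae_mem_N S] with x hx
    exact ha x hx
  rw [Measure.map_congr this, Measure.map_id]

theorem ae_good (S : Setup μ α β N P yp ym c u ψ B) (a : X → X) (ma : Measurable a)
    (ha : ∀ x ∈ N, a (yp x) = x) : ∀ᵐ w ∂β, a w ∈ N ∧ yp (a w) = w := by
  have mW : MeasurableSet {w | a w ∈ N ∧ yp (a w) = w} := by
    apply MeasurableSet.inter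
    · exact ma S.mN
    · exact measurableSet_eq_fun (S.myp.comp ma) measurable_id
  rw [← S.pushp, ae_map_iff S.myp.aemeasurable mW]
  filter_upwards [ae_mem_N S] with x hx
  rw [ha x hx]
  exact ⟨hx, rfl⟩

theorem ae_good_half (S : Setup μ α β N P yp ym c u ψ B) (a σ : X → X) (ma : Measurable a)
    (mσ : Measurable σ) (ν : Measure X)
    (ha : ∀ x ∈ N, a (yp x) = x)
    (hσ₁ : ν.map σ = (1 / 2 : ℝ≥0∞) • β) :
    ∀ᵐ y ∂ν, a (σ y) ∈ N ∧ yp (a (σ y)) = σ y := by
  have h1 : ∀ᵐ w ∂((1 / 2 : ℝ≥0∞) • β), a w ∈ N ∧ yp (a w) = w :=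
    Measure.ae_smul_measure (ae_good S a ma ha) _
  rw [← hσ₁] at h1
  exact ae_of_ae_map mσ.aemeasurable h1

theorem third_add : (1 / 3 : ℝ≥0∞) + 2 / 3 = 1 := by
  rw [ENNReal.div_add_div_same]
  norm_num
  exact ENNReal.div_self (by norm_num) (by norm_num)

theorem two_third_half : (2 / 3 : ℝ≥0∞) * (1 / 2) = 1 / 3 := by
  rw [ENNReal.div_eq_inv_mul, ENNReal.div_eq_inv_mul, ENNReal.div_eq_inv_mul, mul_one, mul_one,
    mul_assoc, ENNReal.mul_inv_cancel (by norm_num) (by norm_num), mul_one]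

/-- the push-forward computation, for maps of the "cyclic" shape -/
theorem map_piecewise (S : Setup μ α β N P yp ym c u ψ B) (σ : X → X)
    (mσ : Measurable σ) (P' : Set X) (mP' : MeasurableSet P')
    (hσ₁ : (β.restrict P').map σ = (1 / 2 : ℝ≥0∞) • β)
    (hσ₂ : (β.restrict P'ᶜ).map σ = (1 / 2 : ℝ≥0∞) • β)
    (f g h : X → X) (mf : Measurable f) (mg : Measurable g) (mh : Measurable h)
    (hf : α.map f = β) (ν₁ ν₂ : Measure X) (hg : β.map g = ν₁) (hh : β.map h = ν₂)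
    (hν : ν₁ + ν₂ = α + β)
    (T : X → X) (mT : Measurable T) (hTN : ∀ x ∈ N, T x = f x)
    (hT₁ : ∀ x ∉ N, x ∈ P' → T x = g (σ x)) (hT₂ : ∀ x ∉ N, x ∉ P' → T x = h (σ x)) :
    μ.map T = μ := by
  have e1 : α.map T = β := by
    rw [← hf]
    apply Measure.map_congr
    filter_upwards [ae_mem_N S] with x hx
    exact hTN x hx
  have e2 : (β.restrict P').map T = (1 / 2 : ℝ≥0∞) • ν₁ := by
    have : T =ᵐ[β.restrict P'] g ∘ σ := by
      rw [Filter.EventuallyEq, ae_restrict_iff' mP']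
      filter_upwards [ae_not_mem_N S] with x hx hx'
      exact hT₁ x hx hx'
    rw [Measure.map_congr this, ← Measure.map_map mg mσ, hσ₁, Measure.map_smul, hg]
  have e3 : (β.restrict P'ᶜ).map T = (1 / 2 : ℝ≥0∞) • ν₂ := by
    have : T =ᵐ[β.restrict P'ᶜ] h ∘ σ := by
      rw [Filter.EventuallyEq, ae_restrict_iff' mP'.compl]
      filter_upwards [ae_not_mem_N S] with x hx hx'
      exact hT₂ x hx hx'
    rw [Measure.map_congr this, ← Measure.map_map mh mσ, hσ₂, Measure.map_smul, hh]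
  have e4 : β.map T = (1 / 2 : ℝ≥0∞) • (α + β) := by
    conv_lhs => rw [← Measure.restrict_add_restrict_compl (μ := β) mP']
    rw [Measure.map_add _ _ mT, e2, e3, ← smul_add, hν]
  conv_lhs => rw [S.hμ]
  rw [Measure.map_add _ _ mT, Measure.map_smul, Measure.map_smul, e1, e4, S.hμ, smul_smul,
    two_third_half, smul_add, add_comm, add_assoc, ← add_smul]
  congr 2
  rw [ENNReal.div_add_div_same]
  norm_num

end A3

/-- Monge pairs approach the minimum, given an `ε`-small "doubling map" `σ` on `P`. -/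
theorem Setup.approx (S : Setup μ α β N P yp ym c u ψ B) (a σ : X → X) (ma : Measurable a)
    (mσ : Measurable σ) (P' : Set X) (mP' : MeasurableSet P')
    (ha : ∀ x ∈ N, a (yp x) = x)
    (hσ₁ : (β.restrict P').map σ = (1 / 2 : ℝ≥0∞) • β)
    (hσ₂ : (β.restrict P'ᶜ).map σ = (1 / 2 : ℝ≥0∞) • β)
    (ε : ℝ≥0∞)
    (hclose : ∀ y ∈ P, ∀ x ∈ N, σ y = yp x → c (y, x, ym x) ≤ c (yp x, x, ym x) + ε) :
    ∃ T₂ T₃ : X → X, Measurable T₂ ∧ Measurable T₃ ∧ μ.map T₂ = μ ∧ μ.map T₃ = μ ∧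
      ∫⁻ x, c (x, T₂ x, T₃ x) ∂μ ≤ ∫⁻ p, c p ∂(pi0 α yp ym) + ε := by
  classical
  have mas : Measurable (fun x => a (σ x)) := ma.comp mσ
  have mβa : β.map a = α := A3.map_a S a ma ha
  have mβya : β.map (fun w => ym (a w)) = β := by
    have : (fun w => ym (a w)) = ym ∘ a := rfl
    rw [this, ← Measure.map_map S.mym ma, mβa, S.pushm]
  refine ⟨fun x => if x ∈ N then yp x else if x ∈ P' then a (σ x) else ym (a (σ x)),
    fun x => if x ∈ N then ym x else if x ∈ P' then ym (a (σ x)) else a (σ x), ?_, ?_, ?_, ?_, ?_⟩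
  · exact Measurable.ite S.mN S.myp (Measurable.ite mP' mas (S.mym.comp mas))
  · exact Measurable.ite S.mN S.mym (Measurable.ite mP' (S.mym.comp mas) mas)
  · refine A3.map_piecewise S σ mσ P' mP' hσ₁ hσ₂ yp a (fun w => ym (a w)) S.myp ma
      (S.mym.comp ma) S.pushp α β mβa mβya rfl _
      (Measurable.ite S.mN S.myp (Measurable.ite mP' mas (S.mym.comp mas))) ?_ ?_ ?_
    · intro x hx; simp [hx]
    · intro x hx hx'; simp [hx, hx']
    · intro x hx hx'; simp [hx, hx']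
  · refine A3.map_piecewise S σ mσ P' mP' hσ₁ hσ₂ ym (fun w => ym (a w)) a S.mym
      (S.mym.comp ma) ma S.pushm β α mβya mβa (add_comm _ _) _
      (Measurable.ite S.mN S.mym (Measurable.ite mP' (S.mym.comp mas) mas)) ?_ ?_ ?_
    · intro x hx; simp [hx]
    · intro x hx hx'; simp [hx, hx']
    · intro x hx hx'; simp [hx, hx']
  · rw [S.pi0_cost_eq]
    set g : X → ℝ≥0∞ := fun x => c (x, yp x, ym x) with hg
    have mg : Measurable g := S.mc.comp (measurable_id.prodMk (S.myp.prodMk S.mym))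
    set F : X → ℝ≥0∞ := fun x => c (x, (if x ∈ N then yp x else if x ∈ P' then a (σ x)
      else ym (a (σ x))), (if x ∈ N then ym x else if x ∈ P' then ym (a (σ x)) else a (σ x)))
      with hF
    have c1 : ∫⁻ x, F x ∂α = ∫⁻ x, g x ∂α := by
      apply lintegral_congr_ae
      filter_upwards [A3.ae_mem_N S] with x hx
      simp [hF, hg, hx]
    -- generic half estimate
    have half : ∀ Q : Set X, MeasurableSet Q → (β.restrict Q).map σ = (1 / 2 : ℝ≥0∞) • β →
        (∀ x ∉ N, x ∈ Q → F x = c (x, a (σ x), ym (a (σ x)))) →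
        ∫⁻ x in Q, F x ∂β ≤ (1 / 2 : ℝ≥0∞) * ∫⁻ x, g x ∂α + ε * (1 / 2) := by
      intro Q mQ hQ hFQ
      have hβQ : β Q = 1 / 2 := by
        have hh := congrArg (fun ν : Measure X => ν Set.univ) hQ
        have hprob := S.probβ
        simpa [Measure.map_apply mσ MeasurableSet.univ] using hh
      have s1 : ∫⁻ x in Q, F x ∂β ≤ ∫⁻ x in Q, (g (a (σ x)) + ε) ∂β := by
        apply lintegral_mono_ae
        have h1 := A3.ae_good_half S a σ ma mσ (β.restrict Q) ha hQ
        have h2 : ∀ᵐ x ∂(β.restrict Q), x ∈ Q := ae_restrict_mem mQ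
        have h3 : ∀ᵐ x ∂(β.restrict Q), x ∈ P := ae_restrict_of_ae (A3.ae_mem_P S)
        have h4 : ∀ᵐ x ∂(β.restrict Q), x ∉ N := ae_restrict_of_ae (A3.ae_not_mem_N S)
        filter_upwards [h1, h2, h3, h4] with x hx1 hx2 hx3 hx4
        rw [hFQ x hx4 hx2]
        have := hclose x hx3 (a (σ x)) hx1.1 hx1.2.symm
        rw [S.csymm₁ (yp (a (σ x)))] at this
        exact this
      refine s1.trans (le_of_eq ?_)
      rw [lintegral_add_right _ measurable_const, lintegral_const, Measure.restrict_apply_univ,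
        hβQ]
      congr 1
      have : ∫⁻ x in Q, g (a (σ x)) ∂β = ∫⁻ w, g (a w) ∂((β.restrict Q).map σ) :=
        (lintegral_map (mg.comp ma) mσ).symm
      rw [this, hQ, lintegral_smul_measure, ← mβa, lintegral_map mg ma]
      rfl
    have c2 := half P' mP' hσ₁ (by intro x hx hx'; simp [hF, hx, hx'])
    have c3 := half P'ᶜ mP'.compl hσ₂ (by
      intro x hx hx'
      have hx'' : x ∉ P' := hx'
      simp only [hF, hx, hx'', if_false]
      exact S.csymm₂ _ _ _)
    have c4 : ∫⁻ x, F x ∂β ≤ ∫⁻ x, g x ∂α + ε := by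
      rw [← lintegral_add_compl F mP']
      refine (add_le_add c2 c3).trans (le_of_eq ?_)
      have h2 : (1 / 2 : ℝ≥0∞) + 1 / 2 = 1 := by
        rw [one_div]; exact ENNReal.inv_two_add_inv_two
      calc (1 / 2 : ℝ≥0∞) * ∫⁻ x, g x ∂α + ε * (1 / 2) + (1 / 2 * ∫⁻ x, g x ∂α + ε * (1 / 2))
          = (1 / 2 + 1 / 2 : ℝ≥0∞) * ∫⁻ x, g x ∂α + ε * (1 / 2 + 1 / 2) := by ring
        _ = _ := by rw [h2, one_mul, mul_one]
    conv_lhs => rw [S.hμ]
    rw [lintegral_add_measure, lintegral_smul_measure, lintegral_smul_measure, c1]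
    simp only [smul_eq_mul]
    calc (1 / 3 : ℝ≥0∞) * ∫⁻ x, g x ∂α + 2 / 3 * ∫⁻ x, F x ∂β
        ≤ (1 / 3 : ℝ≥0∞) * (∫⁻ x, g x ∂α + ε) + 2 / 3 * (∫⁻ x, g x ∂α + ε) := by
          gcongr
          exact le_self_add
      _ = (1 / 3 + 2 / 3 : ℝ≥0∞) * (∫⁻ x, g x ∂α + ε) := by ring
      _ = _ := by rw [A3.third_add, one_mul]

end Crest.Agent.S0175Aux
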