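import Crest.Agent.S0175Aux.GeoMaps

/-!
# S0175, task T4c: the angle maps move points by at most `4/N`, hence change the cost by a factor
at most `(1-4/N)^(-s)`.

`|thet N y| ≤ π/(2N)`, `‖y - Dmap N y‖ ≤ ‖y.fst‖ * |thet N y| ≤ √2 π/(2N) ≤ 4/N` on `Bset`
(`‖y‖^2 < Y₁ < 2`), all three side lengths of `(Sp a, a, Sm a)` are `≥ 1`
(`al > 1`, `be ≥ 2`), so `‖y - a‖ ≥ ‖Sp a - a‖ - 4/N ≥ (1-4/N) ‖Sp a - a‖` etc.
-/

set_option autoImplicit false

namespace Crest.Agent.S0175Aux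

open MeasureTheory Crest.AnalysisR.OT
open scoped ENNReal ContDiff

variable {k : ℕ} {P : Par}

lemma GeoClose.abs_thet_le {N : ℕ} (hN : 1 ≤ N) (y : V k) : |thet N y| ≤ Real.pi / (2 * N) := by
  have hN' : (0 : ℝ) < N := by exact_mod_cast hN
  have h0 : 0 ≤ frac N y := Int.fract_nonneg _
  have h1 : frac N y < 1 := Int.fract_lt_one _
  have hpi := Real.pi_pos
  unfold thet
  rw [abs_mul, abs_of_pos (div_pos hpi hN')]
  have : |(if frac N y < 1 / 2 then frac N y else frac N y - 1)| ≤ 1 / 2 := by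
    split_ifs with h
    · rw [abs_of_nonneg h0]; exact h.le
    · rw [abs_of_nonpos (by linarith)]; push Not at h; linarith
  calc Real.pi / N * |(if frac N y < 1 / 2 then frac N y else frac N y - 1)|
      ≤ Real.pi / N * (1 / 2) := by gcongr
    _ = Real.pi / (2 * N) := by field_simp

lemma GeoClose.norm_sub_rot (ϑ : ℝ) (y : V k) : ‖y - rot ϑ y‖ ≤ ‖y‖ * |ϑ| := by
  have e : y - rot ϑ y = WithLp.toLp 2 (y.fst * (1 - Complex.exp ((ϑ : ℂ) * Complex.I)), 0) := by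
    unfold rot
    apply (WithLp.equiv 2 _).injective
    ext1
    · simp [mul_sub]
    · simp
  have hn : ‖y - rot ϑ y‖ = ‖y.fst‖ * ‖1 - Complex.exp ((ϑ : ℂ) * Complex.I)‖ := by
    have h0 : 0 ≤ ‖y - rot ϑ y‖ := norm_nonneg _
    have h1 : 0 ≤ ‖y.fst‖ * ‖1 - Complex.exp ((ϑ : ℂ) * Complex.I)‖ := by positivity
    have : ‖y - rot ϑ y‖ ^ 2 = (‖y.fst‖ * ‖1 - Complex.exp ((ϑ : ℂ) * Complex.I)‖) ^ 2 := by
      rw [e, WithLp.prod_norm_sq_eq_of_L2]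
      simp
    exact (pow_left_inj₀ h0 h1 two_ne_zero).1 this
  have h2 : ‖1 - Complex.exp ((ϑ : ℂ) * Complex.I)‖ ≤ |ϑ| := by
    rw [norm_sub_rev, mul_comm]
    exact Real.norm_exp_I_mul_ofReal_sub_one_le
  have h3 : ‖y.fst‖ ≤ ‖y‖ := by
    have : ‖y.fst‖ ^ 2 ≤ ‖y‖ ^ 2 := by
      rw [WithLp.prod_norm_sq_eq_of_L2 y]
      nlinarith [norm_nonneg y.snd]
    exact (pow_le_pow_iff_left₀ (norm_nonneg _) (norm_nonneg _) two_ne_zero).1 this
  rw [hn]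
  gcongr

lemma norm_sub_Dmap_le (hG : Good P) {N : ℕ} (hN : 1 ≤ N) {y : V k} (hy : y ∈ Bset P k) :
    ‖y - Dmap N y‖ ≤ 4 / N := by
  have hN' : (0 : ℝ) < N := by exact_mod_cast hN
  have h1 := GeoClose.norm_sub_rot (thet N y) y
  have h2 := GeoClose.abs_thet_le hN y
  have h3 : ‖y‖ ^ 2 < 2 := lt_trans hy.2 hG.Y₁_lt
  have h4 : ‖y‖ ≤ 2 := by nlinarith [norm_nonneg y]
  have hpi : Real.pi ≤ 4 := Real.pi_le_four
  unfold Dmap
  calc ‖y - rot (thet N y) y‖ ≤ ‖y‖ * |thet N y| := h1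
    _ ≤ 2 * (Real.pi / (2 * N)) := by gcongr
    _ = Real.pi / N := by field_simp
    _ ≤ 4 / N := by gcongr

/-- scaling of the pair cost -/
lemma GeoClose.pairCost_le_mul {W : Type*} [NormedAddCommGroup W] {s c : ℝ} (hs : 0 < s) (hc : 0 < c)
    {x y x' y' : W} (h : c * ‖x - y‖ ≤ ‖x' - y'‖) :
    pairCost s x' y' ≤ ENNReal.ofReal (c ^ (-s)) * pairCost s x y := by
  unfold pairCost
  rw [← ENNReal.ofReal_rpow_of_pos hc,
    ← ENNReal.mul_rpow_of_ne_top ENNReal.ofReal_ne_top ENNReal.ofReal_ne_top,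
    ← ENNReal.ofReal_mul hc.le, ENNReal.rpow_neg, ENNReal.rpow_neg]
  apply ENNReal.inv_le_inv.2
  exact ENNReal.rpow_le_rpow (ENNReal.ofReal_le_ofReal h) hs.le

theorem geo_close (hG : Good P) {N : ℕ} (hN : 5 ≤ N) {y a : V k} (hy : y ∈ Bset P k)
    (ha : a ∈ Aset P k) (h : Dmap N y = Sp P a) :
    tripleCost P.s (y, a, Sm P a) ≤
      ENNReal.ofReal ((1 - 4 / (N : ℝ)) ^ (-P.s)) * tripleCost P.s (Sp P a, a, Sm P a) := by
  have hN' : (5 : ℝ) ≤ N := by exact_mod_cast hN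
  have hN0 : (0 : ℝ) < N := by linarith
  have hd : ‖y - Sp P a‖ ≤ 4 / N := by
    rw [← h]; exact norm_sub_Dmap_le hG (by omega) hy
  have hq : 4 / (N : ℝ) < 1 := by rw [div_lt_one hN0]; linarith
  have hq0 : 0 < 4 / (N : ℝ) := by positivity
  set c : ℝ := 1 - 4 / (N : ℝ) with hc
  have hc0 : 0 < c := by linarith
  have hc1 : c ≤ 1 := by linarith
  obtain ⟨c1, c2, c3, -⟩ := config hG ha
  have ht : tA P.p (‖a‖ ^ 2) ∈ Set.Icc P.t₁ P.t₂ := Set.Ioo_subset_Icc_self (tA_mem hG ha.1)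
  have hal := one_lt_al hG.hp (hG.mem_II ht)
  have hbe := hG.two_le_be ht
  have n1 : 1 ≤ ‖Sp P a - a‖ := by
    rw [norm_sub_rev]
    nlinarith [norm_nonneg (a - Sp P a)]
  have n2 : 1 ≤ ‖Sp P a - Sm P a‖ := by
    nlinarith [norm_nonneg (Sp P a - Sm P a)]
  have key : ∀ z : V k, 1 ≤ ‖Sp P a - z‖ → c * ‖Sp P a - z‖ ≤ ‖y - z‖ := by
    intro z hz
    have : ‖Sp P a - z‖ ≤ ‖y - Sp P a‖ + ‖y - z‖ := by
      rw [norm_sub_rev y (Sp P a)]
      calc ‖Sp P a - z‖ = ‖(Sp P a - y) + (y - z)‖ := by congr 1; abel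
        _ ≤ _ := norm_add_le _ _
    have h5 : 4 / (N : ℝ) * 1 ≤ 4 / (N : ℝ) * ‖Sp P a - z‖ := by gcongr
    rw [hc]
    nlinarith
  have k1 := GeoClose.pairCost_le_mul hG.hs hc0 (key a n1)
  have k2 := GeoClose.pairCost_le_mul hG.hs hc0 (key (Sm P a) n2)
  have hC : (1 : ℝ≥0∞) ≤ ENNReal.ofReal (c ^ (-P.s)) := by
    rw [← ENNReal.ofReal_one]
    apply ENNReal.ofReal_le_ofReal
    exact Real.one_le_rpow_of_pos_of_le_one_of_nonpos hc0 hc1 (by linarith [hG.hs])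
  have k3 : pairCost P.s a (Sm P a) ≤ ENNReal.ofReal (c ^ (-P.s)) * pairCost P.s a (Sm P a) := by
    calc pairCost P.s a (Sm P a) = 1 * pairCost P.s a (Sm P a) := (one_mul _).symm
      _ ≤ _ := by gcongr
  unfold tripleCost
  simp only
  rw [mul_add, mul_add]
  gcongr

/-- the factor tends to one -/
theorem exists_N (hG : Good P) {M : ℝ≥0∞} (hM : 1 < M) :
    ∃ N : ℕ, 5 ≤ N ∧ ENNReal.ofReal ((1 - 4 / (N : ℝ)) ^ (-P.s)) ≤ M := by
  have h1 : Filter.Tendsto (fun N : ℕ => 1 - 4 / (N : ℝ)) Filter.atTop (nhds (1 - 0)) :=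
    tendsto_const_nhds.sub (tendsto_const_div_atTop_nhds_zero_nat 4)
  rw [sub_zero] at h1
  have h2 : Filter.Tendsto (fun N : ℕ => (1 - 4 / (N : ℝ)) ^ (-P.s)) Filter.atTop
      (nhds ((1 : ℝ) ^ (-P.s))) :=
    h1.rpow_const (Or.inl one_ne_zero)
  rw [Real.one_rpow] at h2
  have h3 : Filter.Tendsto (fun N : ℕ => ENNReal.ofReal ((1 - 4 / (N : ℝ)) ^ (-P.s))) Filter.atTop
      (nhds (ENNReal.ofReal 1)) :=
    (ENNReal.continuous_ofReal.tendsto _).comp h2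
  rw [ENNReal.ofReal_one] at h3
  have h4 := (h3.eventually_lt_const hM).and (Filter.eventually_ge_atTop 5)
  obtain ⟨N, hN1, hN2⟩ := h4.exists
  exact ⟨N, hN2, hN1.le⟩

end Crest.Agent.S0175Aux
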