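import Crest.Agent.S0175Aux.CoreReal

/-!
# S0175, task T3b: basic facts on the cost and the `ℝ≥0∞` versions of the key inequality.
`P.p = P.s/2+1`, so `1 - P.p = -(P.s/2)`.
-/

set_option autoImplicit false
set_option linter.unusedSectionVars false

namespace Crest.Agent.S0175Aux

open MeasureTheory Crest.AnalysisR.OT
open scoped ENNReal ContDiff

variable {W : Type*} [NormedAddCommGroup W] [InnerProductSpace ℝ W]
variable {p t : ℝ}

/-! ### the cost -/

lemma pairCost_of_ne (s : ℝ) {x y : W} (h : x ≠ y) :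
    pairCost s x y = ENNReal.ofReal ((‖x - y‖ ^ 2) ^ (-(s / 2))) := by
  have hr : 0 < ‖x - y‖ := norm_pos_iff.mpr (sub_ne_zero.mpr h)
  unfold pairCost
  rw [ENNReal.ofReal_rpow_of_pos hr, ← Real.rpow_natCast, ← Real.rpow_mul hr.le]
  congr 2
  push_cast
  ring

lemma pairCost_self {s : ℝ} (hs : 0 < s) (x : W) : pairCost s x x = ⊤ := by
  unfold pairCost
  rw [sub_self, norm_zero, ENNReal.ofReal_zero, ENNReal.zero_rpow_of_neg (neg_lt_zero.mpr hs)]

lemma pairCost_comm (s : ℝ) (x y : W) : pairCost s x y = pairCost s y x := by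
  unfold pairCost
  rw [norm_sub_rev]

/-- the pair cost is antitone in the distance -/
lemma pairCost_le_of_le {s : ℝ} (hs : 0 < s) {x y x' y' : W} (h : ‖x' - y'‖ ≤ ‖x - y‖) :
    pairCost s x y ≤ pairCost s x' y' := by
  unfold pairCost
  rw [ENNReal.rpow_neg, ENNReal.rpow_neg, ENNReal.inv_le_inv]
  exact ENNReal.rpow_le_rpow (ENNReal.ofReal_le_ofReal h) hs.le

lemma tripleCost_cyc (s : ℝ) (x y z : W) : tripleCost s (y, z, x) = tripleCost s (x, y, z) := by
  unfold tripleCost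
  simp only []
  rw [pairCost_comm s y x, pairCost_comm s z x]
  ring

lemma tripleCost_swap (s : ℝ) (x y z : W) : tripleCost s (x, z, y) = tripleCost s (x, y, z) := by
  unfold tripleCost
  simp only []
  rw [pairCost_comm s z y]
  ring

lemma measurable_tripleCost [MeasurableSpace W] [BorelSpace W] [SecondCountableTopology W]
    (s : ℝ) : Measurable (tripleCost s : W × W × W → ℝ≥0∞) := by
  have m1 : Measurable (fun q : W × W × W => q.1) := measurable_fst
  have m2 : Measurable (fun q : W × W × W => q.2.1) := measurable_fst.comp measurable_snd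
  have m3 : Measurable (fun q : W × W × W => q.2.2) := measurable_snd.comp measurable_snd
  have key : ∀ f g : W × W × W → W, Measurable f → Measurable g →
      Measurable (fun q => pairCost s (f q) (g q)) := by
    intro f g hf hg
    unfold pairCost
    exact (ENNReal.measurable_ofReal.comp (hf.sub hg).norm).pow_const _
  unfold tripleCost
  exact ((key _ _ m1 m2).add (key _ _ m1 m3)).add (key _ _ m2 m3)

variable {P : Par}

lemma co_one_sub_p (P : Par) : 1 - P.p = -(P.s / 2) := by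
  unfold Par.p; ring

lemma co_Bc_nonneg (hG : Good P) : 0 ≤ Bc P.p := by
  have h1 := hG.hp
  have h2 := Bt_pos P.p
  unfold Bc
  have : 0 < P.p - 1 := by linarith
  positivity

/-- for pairwise distinct points everything is the `ofReal` of the real expression -/
lemma co_ofReal_form (hG : Good P) (a y z : W) (hay : a ≠ y) (haz : a ≠ z) (hyz : y ≠ z) :
    tripleCost P.s (a, y, z) + ENNReal.ofReal (Bc P.p * ‖y‖ ^ 2)
        + ENNReal.ofReal (Bc P.p * ‖z‖ ^ 2) =
      ENNReal.ofReal ((‖a - y‖ ^ 2) ^ (1 - P.p) + (‖a - z‖ ^ 2) ^ (1 - P.p)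
        + (‖y - z‖ ^ 2) ^ (1 - P.p) + Bc P.p * (‖y‖ ^ 2 + ‖z‖ ^ 2)) := by
  have hB := co_Bc_nonneg hG
  unfold tripleCost
  simp only []
  rw [pairCost_of_ne _ hay, pairCost_of_ne _ haz, pairCost_of_ne _ hyz, co_one_sub_p]
  have n1 : 0 ≤ (‖a - y‖ ^ 2) ^ (-(P.s / 2)) := by positivity
  have n2 : 0 ≤ (‖a - z‖ ^ 2) ^ (-(P.s / 2)) := by positivity
  have n3 : 0 ≤ (‖y - z‖ ^ 2) ^ (-(P.s / 2)) := by positivity
  have n4 : 0 ≤ Bc P.p * ‖y‖ ^ 2 := by positivity
  have n5 : 0 ≤ Bc P.p * ‖z‖ ^ 2 := by positivity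
  rw [← ENNReal.ofReal_add n1 n2, ← ENNReal.ofReal_add (add_nonneg n1 n2) n3,
    ← ENNReal.ofReal_add (add_nonneg (add_nonneg n1 n2) n3) n4,
    ← ENNReal.ofReal_add (add_nonneg (add_nonneg (add_nonneg n1 n2) n3) n4) n5]
  congr 1
  ring

/-- a coincidence makes the cost infinite -/
lemma co_top_of_coincidence (hG : Good P) (a y z : W) (h : a = y ∨ a = z ∨ y = z) :
    tripleCost P.s (a, y, z) = ⊤ := by
  unfold tripleCost
  simp only []
  rcases h with h | h | h
  · rw [h, pairCost_self hG.hs]; simp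
  · rw [h, pairCost_self hG.hs]; simp
  · rw [h, pairCost_self hG.hs]; simp

/-- the key inequality with values in `ℝ≥0∞` (coincidences give `⊤`) -/
theorem core_ennreal (hG : Good P) (ht : t ∈ II P.p) (a y z : W) :
    ENNReal.ofReal (Kc P.p t - Ac P.p t * ‖a‖ ^ 2) ≤
      tripleCost P.s (a, y, z) + ENNReal.ofReal (Bc P.p * ‖y‖ ^ 2)
        + ENNReal.ofReal (Bc P.p * ‖z‖ ^ 2) := by
  by_cases h : a = y ∨ a = z ∨ y = z
  · rw [co_top_of_coincidence hG a y z h]; simp
  · push Not at h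
    rw [co_ofReal_form hG a y z h.1 h.2.1 h.2.2]
    exact ENNReal.ofReal_le_ofReal (core_ineq hG.hp ht a y z h.1 h.2.1 h.2.2)

/-- equality case, `ℝ≥0∞` version -/
theorem core_ennreal_eq (hG : Good P) (ht : t ∈ II P.p) (a y z : W)
    (h : ENNReal.ofReal (Kc P.p t - Ac P.p t * ‖a‖ ^ 2) =
      tripleCost P.s (a, y, z) + ENNReal.ofReal (Bc P.p * ‖y‖ ^ 2)
        + ENNReal.ofReal (Bc P.p * ‖z‖ ^ 2)) :
    ‖a - y‖ ^ 2 = al P.p t ∧ ‖a - z‖ ^ 2 = al P.p t ∧ ‖y - z‖ ^ 2 = be P.p t ∧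
        lam P.p t • a + t • (y + z) = 0 := by
  by_cases hc : a = y ∨ a = z ∨ y = z
  · rw [co_top_of_coincidence hG a y z hc] at h
    simp at h
  · push Not at hc
    rw [co_ofReal_form hG a y z hc.1 hc.2.1 hc.2.2] at h
    have hB := co_Bc_nonneg hG
    have p1 : 0 < ‖a - y‖ ^ 2 := by
      have := norm_pos_iff.mpr (sub_ne_zero.mpr hc.1); positivity
    have q1 : 0 < (‖a - y‖ ^ 2) ^ (1 - P.p) := Real.rpow_pos_of_pos p1 _
    have q2 : 0 ≤ (‖a - z‖ ^ 2) ^ (1 - P.p) := by positivity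
    have q3 : 0 ≤ (‖y - z‖ ^ 2) ^ (1 - P.p) := by positivity
    have q4 : 0 ≤ Bc P.p * (‖y‖ ^ 2 + ‖z‖ ^ 2) := by positivity
    have hle := core_ineq hG.hp ht a y z hc.1 hc.2.1 hc.2.2
    have hge := (ENNReal.ofReal_le_ofReal_iff'.mp h.symm.le)
    refine (core_eq_iff hG.hp ht a y z hc.1 hc.2.1 hc.2.2).mp (le_antisymm hle ?_)
    rcases hge with hge | hge
    · exact hge
    · exfalso; linarith

/-- converse -/
theorem core_ennreal_eq' (hG : Good P) (ht : t ∈ II P.p) (a y z : W)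
    (h1 : ‖a - y‖ ^ 2 = al P.p t) (h2 : ‖a - z‖ ^ 2 = al P.p t) (h3 : ‖y - z‖ ^ 2 = be P.p t)
    (h4 : lam P.p t • a + t • (y + z) = 0) :
    tripleCost P.s (a, y, z) + ENNReal.ofReal (Bc P.p * ‖y‖ ^ 2)
        + ENNReal.ofReal (Bc P.p * ‖z‖ ^ 2) =
      ENNReal.ofReal (Kc P.p t - Ac P.p t * ‖a‖ ^ 2) := by
  have hay : a ≠ y := by
    intro h
    have := al_pos ht
    rw [← h1, h] at this
    simp at this
  have haz : a ≠ z := by
    intro h
    have := al_pos ht
    rw [← h2, h] at this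
    simp at this
  have hyz : y ≠ z := by
    intro h
    have := be_pos ht
    rw [← h3, h] at this
    simp at this
  rw [co_ofReal_form hG a y z hay haz hyz,
    (core_eq_iff hG.hp ht a y z hay haz hyz).mpr ⟨h1, h2, h3, h4⟩]

end Crest.Agent.S0175Aux
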