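import Crest.Agent.S0175Aux.Inverse

/-!
# S0175, task T4a: geometry of `S₊ = Sp`, `S₋ = Sm` on `V k`: norms, membership, side lengths.

For `a ∈ Aset P k` put `t = tA P.p (‖a‖^2) ∈ (t₁,t₂)` (`tA_mem`), so `Xf t = ‖a‖^2` (`Xf_tA`).  Then
`Sp a = -gam a + w`, `Sm a = -gam a - w`, `w = om * (i a.fst/|a.fst|, 0)`, `w ⟂ a`, `|w| = om`.
Use `Xf_mul`, `Yf_eq`, `om_sq`, `h2`, `gam`, `WithLp.prod_norm_sq_eq_of_L2`.
-/

set_option autoImplicit false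

namespace Crest.Agent.S0175Aux

open MeasureTheory Crest.AnalysisR.OT
open scoped ENNReal ContDiff

variable {k : ℕ} {P : Par}

lemma GeoMaps1.norm_sq_re_im (c d : ℝ) : ‖((c : ℝ) : ℂ) + ((d : ℝ) : ℂ) * Complex.I‖ ^ 2 = c ^ 2 + d ^ 2 := by
  rw [Complex.sq_norm, Complex.normSq_add_mul_I]

@[simp] lemma tri_fst (g w : ℝ) (a : V k) :
    (tri g w a).fst = a.fst * (((-g : ℝ) : ℂ) + ((w / ‖a.fst‖ : ℝ) : ℂ) * Complex.I) := rfl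

@[simp] lemma tri_snd (g w : ℝ) (a : V k) : (tri g w a).snd = (-g) • a.snd := rfl

lemma norm_sq_tri (g w : ℝ) {a : V k} (ha : a.fst ≠ 0) :
    ‖tri g w a‖ ^ 2 = g ^ 2 * ‖a‖ ^ 2 + w ^ 2 := by
  have hn : ‖a.fst‖ ≠ 0 := norm_ne_zero_iff.2 ha
  rw [WithLp.prod_norm_sq_eq_of_L2, WithLp.prod_norm_sq_eq_of_L2 a, tri_fst, tri_snd, norm_mul,
    mul_pow, GeoMaps1.norm_sq_re_im, norm_smul, mul_pow, Real.norm_eq_abs, sq_abs]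
  field_simp
  ring

lemma norm_sq_sub_tri (g w : ℝ) {a : V k} (ha : a.fst ≠ 0) :
    ‖a - tri g w a‖ ^ 2 = (1 + g) ^ 2 * ‖a‖ ^ 2 + w ^ 2 := by
  have hn : ‖a.fst‖ ≠ 0 := norm_ne_zero_iff.2 ha
  have h1 : (a - tri g w a).fst =
      a.fst * (((1 + g : ℝ) : ℂ) + ((-(w / ‖a.fst‖) : ℝ) : ℂ) * Complex.I) := by
    rw [WithLp.sub_fst, tri_fst]; push_cast; ring
  have h2 : (a - tri g w a).snd = (1 + g) • a.snd := by
    rw [WithLp.sub_snd, tri_snd]; module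
  rw [WithLp.prod_norm_sq_eq_of_L2, WithLp.prod_norm_sq_eq_of_L2 a, h1, h2, norm_mul,
    mul_pow, GeoMaps1.norm_sq_re_im, norm_smul, mul_pow, Real.norm_eq_abs, sq_abs]
  field_simp
  ring

lemma norm_sq_tri_sub_tri (g w : ℝ) {a : V k} (ha : a.fst ≠ 0) :
    ‖tri g w a - tri g (-w) a‖ ^ 2 = 4 * w ^ 2 := by
  have hn : ‖a.fst‖ ≠ 0 := norm_ne_zero_iff.2 ha
  have h1 : (tri g w a - tri g (-w) a).fst =
      a.fst * (((0 : ℝ) : ℂ) + ((2 * (w / ‖a.fst‖) : ℝ) : ℂ) * Complex.I) := by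
    rw [WithLp.sub_fst, tri_fst, tri_fst]; push_cast; ring
  have h2 : (tri g w a - tri g (-w) a).snd = 0 := by
    rw [WithLp.sub_snd, tri_snd, tri_snd]; simp
  rw [WithLp.prod_norm_sq_eq_of_L2, h1, h2, norm_mul,
    mul_pow, GeoMaps1.norm_sq_re_im]
  simp only [norm_zero]
  field_simp
  ring

lemma tri_add_tri (g w : ℝ) (a : V k) : tri g w a + tri g (-w) a = (-(2 * g)) • a := by
  apply (WithLp.ofLp_injective 2)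
  ext1
  · show (tri g w a).fst + (tri g (-w) a).fst = (-(2 * g)) • a.fst
    rw [tri_fst, tri_fst, Complex.real_smul]; push_cast; ring
  · show (tri g w a).snd + (tri g (-w) a).snd = (-(2 * g)) • a.snd
    rw [tri_snd, tri_snd]; module

lemma disjoint_AB (hG : Good P) : Disjoint (Aset P k) (Bset P k) := by
  rw [Set.disjoint_left]
  intro x hA hB
  have h1 := hA.1.2
  have h2 := hB.1
  have h3 := hG.X₂_le
  have h4 := hG.lt_Y₂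
  linarith

lemma Sp_eq_tri {a : V k} (ha : a ∈ Aset P k) :
    Sp P a = tri (gam P.p (tA P.p (‖a‖ ^ 2))) (om P.p (tA P.p (‖a‖ ^ 2))) a := by
  rw [Sp, if_pos ha]

lemma Sm_eq_tri {a : V k} (ha : a ∈ Aset P k) :
    Sm P a = tri (gam P.p (tA P.p (‖a‖ ^ 2))) (-(om P.p (tA P.p (‖a‖ ^ 2)))) a := by
  rw [Sm, if_pos ha]

lemma tA_mem_II (hG : Good P) {a : V k} (ha : a ∈ Aset P k) : tA P.p (‖a‖ ^ 2) ∈ II P.p :=
  hG.mem_II (Set.Ioo_subset_Icc_self (tA_mem hG ha.1))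

lemma Sp_norm_sq (hG : Good P) {a : V k} (ha : a ∈ Aset P k) :
    ‖Sp P a‖ ^ 2 = Yf P.p (tA P.p (‖a‖ ^ 2)) := by
  rw [Sp_eq_tri ha, norm_sq_tri _ _ ha.2, Yf_eq (tA_mem_II hG ha), Xf_tA hG ha.1]

lemma Sm_norm_sq (hG : Good P) {a : V k} (ha : a ∈ Aset P k) :
    ‖Sm P a‖ ^ 2 = Yf P.p (tA P.p (‖a‖ ^ 2)) := by
  rw [Sm_eq_tri ha, norm_sq_tri _ _ ha.2, Yf_eq (tA_mem_II hG ha), Xf_tA hG ha.1, neg_sq]

lemma Yf_tA_mem (hG : Good P) {a : V k} (ha : a ∈ Aset P k) :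
    Yf P.p (tA P.p (‖a‖ ^ 2)) ∈ Set.Ioo P.Y₂ P.Y₁ := by
  have ht := tA_mem hG ha.1
  have hanti := strictAntiOn_Yf hG.hp
  exact ⟨hanti (tA_mem_II hG ha) hG.ht₂ ht.2, hanti hG.ht₁ (tA_mem_II hG ha) ht.1⟩

lemma Sp_mem (hG : Good P) {a : V k} (ha : a ∈ Aset P k) : Sp P a ∈ Bset P k := by
  show ‖Sp P a‖ ^ 2 ∈ Set.Ioo P.Y₂ P.Y₁
  rw [Sp_norm_sq hG ha]; exact Yf_tA_mem hG ha

lemma Sm_mem (hG : Good P) {a : V k} (ha : a ∈ Aset P k) : Sm P a ∈ Bset P k := by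
  show ‖Sm P a‖ ^ 2 ∈ Set.Ioo P.Y₂ P.Y₁
  rw [Sm_norm_sq hG ha]; exact Yf_tA_mem hG ha

/-- the triple `(a, S₊ a, S₋ a)` is an equality configuration at level `tA ‖a‖^2` -/
lemma config (hG : Good P) {a : V k} (ha : a ∈ Aset P k) :
    ‖a - Sp P a‖ ^ 2 = al P.p (tA P.p (‖a‖ ^ 2)) ∧ ‖a - Sm P a‖ ^ 2 = al P.p (tA P.p (‖a‖ ^ 2)) ∧
      ‖Sp P a - Sm P a‖ ^ 2 = be P.p (tA P.p (‖a‖ ^ 2)) ∧
      lam P.p (tA P.p (‖a‖ ^ 2)) • a + (tA P.p (‖a‖ ^ 2)) • (Sp P a + Sm P a) = 0 := by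
  have ht := tA_mem_II hG ha
  have hX := Xf_tA hG ha.1
  have h1 := Xf_mul ht
  have h2' := om_sq ht
  rw [hX] at h1
  have hal : (1 + gam P.p (tA P.p (‖a‖ ^ 2))) ^ 2 * ‖a‖ ^ 2 + (om P.p (tA P.p (‖a‖ ^ 2))) ^ 2 =
      al P.p (tA P.p (‖a‖ ^ 2)) := by
    rw [h2', mul_comm, h1, h2]; ring
  refine ⟨?_, ?_, ?_, ?_⟩
  · rw [Sp_eq_tri ha, norm_sq_sub_tri _ _ ha.2, hal]
  · rw [Sm_eq_tri ha, norm_sq_sub_tri _ _ ha.2, neg_sq, hal]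
  · rw [Sp_eq_tri ha, Sm_eq_tri ha, norm_sq_tri_sub_tri _ _ ha.2, h2']; ring
  · rw [Sp_eq_tri ha, Sm_eq_tri ha, tri_add_tri, smul_smul, ← add_smul]
    have htp := t_pos ht
    have : lam P.p (tA P.p (‖a‖ ^ 2)) + tA P.p (‖a‖ ^ 2) * -(2 * gam P.p (tA P.p (‖a‖ ^ 2))) = 0 := by
      rw [gam]; field_simp; ring
    rw [this, zero_smul]

end Crest.Agent.S0175Aux
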