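import Crest.Agent.S0175Aux.Inverse
import Crest.Agent.S0175Aux.GeoMaps1
import Crest.Agent.S0175Aux.Core

/-!
# S0175, task T4d: the dual inequality on `(A ∪ B)^3` and the type of equality triples.

Types of triples: `BBB` : LHS `= 0`.  `ABB` (3 positions): `core_ennreal` at `t = tA ‖a‖^2`.
`AAB`, `AAA`: `g a + g a' ≤ ofReal (Kc t + Kc t') < (4 X₂)^(-s/2) ≤ pairCost s a a'` (`Good.hK`), STRICT.
Equality therefore forces type `ABB` and `core_ennreal_eq`.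
With `m = (y+z)/2 = -gam a`, `w = (y-z)/2`: `‖y.snd‖^2+‖z.snd‖^2 = 2 gam^2 ‖a.snd‖^2 + 2 ‖w.snd‖^2`,
`⟪w, a⟫ = 0`, `‖w‖^2 = be/4 = om^2`; if `w.snd = 0` then `w.fst = ± om * I * a.fst/‖a.fst‖`.
-/

set_option autoImplicit false

namespace Crest.Agent.S0175Aux

open MeasureTheory Crest.AnalysisR.OT
open scoped ENNReal ContDiff

variable {k : ℕ} {P : Par}

namespace GeoIneq

/-- the threshold `(4 X₂)^(-s/2)` -/
noncomputable def Cst (P : Par) : ℝ := (4 * P.X₂) ^ (-(P.s / 2))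

lemma X₂_pos (hG : Good P) : 0 < P.X₂ := hG.X₁_pos.trans hG.X_lt

lemma Cst_pos (hG : Good P) : 0 < Cst P :=
  Real.rpow_pos_of_pos (by have := X₂_pos hG; positivity) _

lemma tA_mem_Icc (hG : Good P) {a : V k} (ha : a ∈ Aset P k) :
    tA P.p (‖a‖ ^ 2) ∈ Set.Icc P.t₁ P.t₂ :=
  Set.Ioo_subset_Icc_self (tA_mem hG ha.1)

lemma gfun_of_mem {a : V k} (ha : a ∈ Aset P k) : gfun P a =
    ENNReal.ofReal (Kc P.p (tA P.p (‖a‖ ^ 2)) - Ac P.p (tA P.p (‖a‖ ^ 2)) * ‖a‖ ^ 2) := by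
  simp [gfun, ha]

lemma gfun_of_not_mem {a : V k} (ha : a ∉ Aset P k) : gfun P a = 0 := by
  simp [gfun, ha]

lemma vfun_of_mem {a : V k} (ha : a ∈ Bset P k) : vfun P a = ENNReal.ofReal (Bc P.p * ‖a‖ ^ 2) := by
  simp [vfun, ha]

lemma vfun_of_not_mem {a : V k} (ha : a ∉ Bset P k) : vfun P a = 0 := by
  simp [vfun, ha]

lemma not_mem_A (hG : Good P) {a : V k} (ha : a ∈ Bset P k) : a ∉ Aset P k :=
  fun h => Set.disjoint_left.mp (disjoint_AB hG) h ha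

lemma not_mem_B (hG : Good P) {a : V k} (ha : a ∈ Aset P k) : a ∉ Bset P k :=
  fun h => Set.disjoint_left.mp (disjoint_AB hG) ha h

lemma gfun_lt (hG : Good P) {a : V k} (ha : a ∈ Aset P k) :
    gfun P a < ENNReal.ofReal (Cst P / 2) := by
  rw [gfun_of_mem ha]
  have hC := Cst_pos hG
  rw [ENNReal.ofReal_lt_ofReal_iff (by positivity)]
  have ht := tA_mem_Icc hG ha
  have hII := hG.mem_II ht
  have h1 := hG.hK _ ht
  have hAc : 0 ≤ Ac P.p (tA P.p (‖a‖ ^ 2)) := by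
    have hp := hG.hp
    have h2 := lam_pos hII
    have h3 := t_pos hII
    unfold Ac
    have : 0 ≤ P.p - 1 := by linarith
    positivity
  have h4 : 0 ≤ Ac P.p (tA P.p (‖a‖ ^ 2)) * ‖a‖ ^ 2 := by positivity
  unfold Cst
  linarith

lemma gfun_lt' (hG : Good P) {a : V k} (ha : a ∈ Aset P k ∪ Bset P k) :
    gfun P a < ENNReal.ofReal (Cst P / 2) := by
  rcases ha with ha | ha
  · exact gfun_lt hG ha
  · rw [gfun_of_not_mem (not_mem_A hG ha)]
    have hC := Cst_pos hG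
    rw [ENNReal.ofReal_pos]
    positivity

lemma pair_ge (hG : Good P) {a a' : V k} (ha : a ∈ Aset P k) (ha' : a' ∈ Aset P k) :
    ENNReal.ofReal (Cst P) ≤ pairCost P.s a a' := by
  by_cases h : a = a'
  · subst h
    rw [pairCost_self hG.hs]
    exact le_top
  · rw [pairCost_of_ne P.s h]
    apply ENNReal.ofReal_le_ofReal
    unfold Cst
    have hpos : 0 < ‖a - a'‖ ^ 2 := by
      have : 0 < ‖a - a'‖ := norm_pos_iff.mpr (sub_ne_zero.mpr h)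
      positivity
    apply Real.rpow_le_rpow_of_nonpos hpos _ (by have := hG.hs; linarith)
    have h1 : ‖a‖ ^ 2 < P.X₂ := ha.1.2
    have h2 : ‖a'‖ ^ 2 < P.X₂ := ha'.1.2
    have h3 : ‖a - a'‖ ≤ ‖a‖ + ‖a'‖ := norm_sub_le _ _
    have h4 : ‖a - a'‖ ^ 2 ≤ (‖a‖ + ‖a'‖) ^ 2 := pow_le_pow_left₀ (norm_nonneg _) h3 2
    nlinarith [sq_nonneg (‖a‖ - ‖a'‖)]

lemma half_add_half (hG : Good P) :
    ENNReal.ofReal (Cst P / 2) + ENNReal.ofReal (Cst P / 2) = ENNReal.ofReal (Cst P) := by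
  have hC := Cst_pos hG
  rw [← ENNReal.ofReal_add (by positivity) (by positivity)]
  congr 1
  ring

/-- two points in the inner shell: strict inequality -/
lemma strict_two (hG : Good P) {x y w : V k} (hx : x ∈ Aset P k) (hy : y ∈ Aset P k)
    (hw : w ∈ Aset P k ∪ Bset P k) :
    gfun P x + gfun P y + gfun P w < pairCost P.s x y + pairCost P.s x w := by
  have h1 : gfun P x + gfun P y < pairCost P.s x y :=
    calc gfun P x + gfun P y < ENNReal.ofReal (Cst P / 2) + ENNReal.ofReal (Cst P / 2) :=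
          ENNReal.add_lt_add (gfun_lt hG hx) (gfun_lt hG hy)
      _ = ENNReal.ofReal (Cst P) := half_add_half hG
      _ ≤ pairCost P.s x y := pair_ge hG hx hy
  rcases hw with hw | hw
  · have h2 : gfun P w < pairCost P.s x w :=
      calc gfun P w < ENNReal.ofReal (Cst P / 2) := gfun_lt hG hw
        _ ≤ ENNReal.ofReal (Cst P) := ENNReal.ofReal_le_ofReal (by have := Cst_pos hG; linarith)
        _ ≤ pairCost P.s x w := pair_ge hG hx hw
    exact ENNReal.add_lt_add h1 h2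
  · rw [gfun_of_not_mem (not_mem_A hG hw), add_zero]
    exact lt_of_lt_of_le h1 le_self_add

lemma tripleCost_eq (s : ℝ) (x y z : V k) :
    tripleCost s (x, y, z) = pairCost s x y + pairCost s x z + pairCost s y z := rfl

/-- at least two points in the inner shell: strict inequality -/
lemma strict_of_two (hG : Good P) (x₁ : V k) (h₁ : x₁ ∈ Aset P k ∪ Bset P k)
    (x₂ : V k) (h₂ : x₂ ∈ Aset P k ∪ Bset P k) (x₃ : V k) (h₃ : x₃ ∈ Aset P k ∪ Bset P k)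
    (h : (x₁ ∈ Aset P k ∧ x₂ ∈ Aset P k) ∨ (x₁ ∈ Aset P k ∧ x₃ ∈ Aset P k) ∨
      (x₂ ∈ Aset P k ∧ x₃ ∈ Aset P k)) :
    gfun P x₁ + gfun P x₂ + gfun P x₃ < tripleCost P.s (x₁, x₂, x₃) := by
  rw [tripleCost_eq]
  rcases h with ⟨ha, hb⟩ | ⟨ha, hb⟩ | ⟨ha, hb⟩
  · exact lt_of_lt_of_le (strict_two hG ha hb h₃) le_self_add
  · have := strict_two hG ha hb h₂
    calc gfun P x₁ + gfun P x₂ + gfun P x₃ = gfun P x₁ + gfun P x₃ + gfun P x₂ := by
          rw [add_right_comm]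
      _ < pairCost P.s x₁ x₃ + pairCost P.s x₁ x₂ := this
      _ = pairCost P.s x₁ x₂ + pairCost P.s x₁ x₃ := add_comm _ _
      _ ≤ _ := le_self_add
  · have := strict_two hG ha hb h₁
    calc gfun P x₁ + gfun P x₂ + gfun P x₃ = gfun P x₂ + gfun P x₃ + gfun P x₁ := by
          rw [add_assoc, add_comm]
      _ < pairCost P.s x₂ x₃ + pairCost P.s x₂ x₁ := this
      _ = pairCost P.s x₁ x₂ + pairCost P.s x₂ x₃ := by
          rw [pairCost_comm P.s x₂ x₁, add_comm]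
      _ ≤ pairCost P.s x₁ x₂ + pairCost P.s x₁ x₃ + pairCost P.s x₂ x₃ := by
          gcongr
          exact le_self_add

lemma vfun_pos (hG : Good P) {y : V k} (hy : y ∈ Bset P k) : 0 < vfun P y := by
  rw [vfun_of_mem hy, ENNReal.ofReal_pos]
  have h1 : P.Y₂ < ‖y‖ ^ 2 := hy.1
  have h2 := hG.lt_Y₂
  have h3 : 0 < Bc P.p := by
    unfold Bc
    have := hG.hp
    have := Bt_pos P.p
    have : 0 < P.p - 1 := by linarith
    positivity
  have : 0 < ‖y‖ ^ 2 := by linarith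
  positivity

/-- one point in the inner shell, first position -/
lemma ineq_ABB (hG : Good P) {a y z : V k} (ha : a ∈ Aset P k) (hy : y ∈ Bset P k)
    (hz : z ∈ Bset P k) :
    gfun P a ≤ tripleCost P.s (a, y, z) + vfun P y + vfun P z := by
  rw [gfun_of_mem ha, vfun_of_mem hy, vfun_of_mem hz]
  exact core_ennreal hG (hG.mem_II (tA_mem_Icc hG ha)) a y z

end GeoIneq

open GeoIneq

theorem geo_ineq (hG : Good P) (x₁ : V k) (h₁ : x₁ ∈ Aset P k ∪ Bset P k)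
    (x₂ : V k) (h₂ : x₂ ∈ Aset P k ∪ Bset P k) (x₃ : V k) (h₃ : x₃ ∈ Aset P k ∪ Bset P k) :
    gfun P x₁ + gfun P x₂ + gfun P x₃ ≤
      tripleCost P.s (x₁, x₂, x₃) + vfun P x₁ + vfun P x₂ + vfun P x₃ := by
  have two : ((x₁ ∈ Aset P k ∧ x₂ ∈ Aset P k) ∨ (x₁ ∈ Aset P k ∧ x₃ ∈ Aset P k) ∨
      (x₂ ∈ Aset P k ∧ x₃ ∈ Aset P k)) → gfun P x₁ + gfun P x₂ + gfun P x₃ ≤
      tripleCost P.s (x₁, x₂, x₃) + vfun P x₁ + vfun P x₂ + vfun P x₃ := by
    intro h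
    calc gfun P x₁ + gfun P x₂ + gfun P x₃ ≤ tripleCost P.s (x₁, x₂, x₃) :=
          (strict_of_two hG x₁ h₁ x₂ h₂ x₃ h₃ h).le
      _ ≤ _ := by
          rw [add_assoc, add_assoc]
          exact le_self_add
  rcases h₁ with a₁ | b₁ <;> rcases h₂ with a₂ | b₂ <;> rcases h₃ with a₃ | b₃
  · exact two (Or.inl ⟨a₁, a₂⟩)
  · exact two (Or.inl ⟨a₁, a₂⟩)
  · exact two (Or.inr (Or.inl ⟨a₁, a₃⟩))
  · rw [gfun_of_not_mem (not_mem_A hG b₂), gfun_of_not_mem (not_mem_A hG b₃),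
      vfun_of_not_mem (not_mem_B hG a₁)]
    simp only [add_zero]
    exact ineq_ABB hG a₁ b₂ b₃
  · exact two (Or.inr (Or.inr ⟨a₂, a₃⟩))
  · rw [gfun_of_not_mem (not_mem_A hG b₁), gfun_of_not_mem (not_mem_A hG b₃),
      vfun_of_not_mem (not_mem_B hG a₂)]
    simp only [add_zero, zero_add]
    rw [← tripleCost_cyc P.s x₁ x₂ x₃]
    have := ineq_ABB hG a₂ b₃ b₁
    rwa [add_right_comm] at this
  · rw [gfun_of_not_mem (not_mem_A hG b₁), gfun_of_not_mem (not_mem_A hG b₂),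
      vfun_of_not_mem (not_mem_B hG a₃)]
    simp only [add_zero, zero_add]
    rw [← tripleCost_cyc P.s x₁ x₂ x₃, ← tripleCost_cyc P.s x₂ x₃ x₁]
    exact ineq_ABB hG a₃ b₁ b₂
  · rw [gfun_of_not_mem (not_mem_A hG b₁), gfun_of_not_mem (not_mem_A hG b₂),
      gfun_of_not_mem (not_mem_A hG b₃)]
    simp

/-- equality forces exactly one point in the inner shell -/
theorem geo_eq_cases (hG : Good P) (x₁ : V k) (h₁ : x₁ ∈ Aset P k ∪ Bset P k)
    (x₂ : V k) (h₂ : x₂ ∈ Aset P k ∪ Bset P k) (x₃ : V k) (h₃ : x₃ ∈ Aset P k ∪ Bset P k)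
    (heq : gfun P x₁ + gfun P x₂ + gfun P x₃ =
      tripleCost P.s (x₁, x₂, x₃) + vfun P x₁ + vfun P x₂ + vfun P x₃) :
    (x₁ ∈ Aset P k ∧ x₂ ∈ Bset P k ∧ x₃ ∈ Bset P k) ∨ (x₁ ∈ Bset P k ∧ x₂ ∈ Aset P k ∧ x₃ ∈ Bset P k) ∨
      (x₁ ∈ Bset P k ∧ x₂ ∈ Bset P k ∧ x₃ ∈ Aset P k) := by
  have two : ((x₁ ∈ Aset P k ∧ x₂ ∈ Aset P k) ∨ (x₁ ∈ Aset P k ∧ x₃ ∈ Aset P k) ∨
      (x₂ ∈ Aset P k ∧ x₃ ∈ Aset P k)) → False := by
    intro h
    have h1 := strict_of_two hG x₁ h₁ x₂ h₂ x₃ h₃ h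
    have h2 : tripleCost P.s (x₁, x₂, x₃) ≤
        tripleCost P.s (x₁, x₂, x₃) + vfun P x₁ + vfun P x₂ + vfun P x₃ := by
      rw [add_assoc, add_assoc]
      exact le_self_add
    rw [← heq] at h2
    exact absurd h1 (not_lt.mpr h2)
  rcases h₁ with a₁ | b₁ <;> rcases h₂ with a₂ | b₂ <;> rcases h₃ with a₃ | b₃
  · exact (two (Or.inl ⟨a₁, a₂⟩)).elim
  · exact (two (Or.inl ⟨a₁, a₂⟩)).elim
  · exact (two (Or.inr (Or.inl ⟨a₁, a₃⟩))).elim
  · exact Or.inl ⟨a₁, b₂, b₃⟩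
  · exact (two (Or.inr (Or.inr ⟨a₂, a₃⟩))).elim
  · exact Or.inr (Or.inl ⟨b₁, a₂, b₃⟩)
  · exact Or.inr (Or.inr ⟨b₁, b₂, a₃⟩)
  · exfalso
    rw [gfun_of_not_mem (not_mem_A hG b₁), gfun_of_not_mem (not_mem_A hG b₂),
      gfun_of_not_mem (not_mem_A hG b₃)] at heq
    have h1 := vfun_pos hG b₃
    have h2 : vfun P x₃ ≤ tripleCost P.s (x₁, x₂, x₃) + vfun P x₁ + vfun P x₂ + vfun P x₃ :=
      le_add_self
    rw [← heq] at h2
    simp only [add_zero] at h2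
    exact absurd h1 (not_lt.mpr h2)

end Crest.Agent.S0175Aux
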