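import Crest.Agent.S0175Aux.GeoIneq

/-!
# S0175, task T4e: the moment inequality and rigidity on the equality set.

By `geo_eq_cases` an equality triple has type `ABB` (in some position); by symmetry of the cost
(`tripleCost_cyc`, `tripleCost_swap`), `gfun = 0` on `Bset`, `vfun = 0` on `Aset` (`disjoint_AB`) and
`core_ennreal_eq` at `t = tA ‖a‖^2` we get `‖a-y‖^2 = ‖a-z‖^2 = al`, `‖y-z‖^2 = be`, `lam a + t (y+z) = 0`.
With `m = (y+z)/2 = -gam a`, `w = (y-z)/2`: `‖y.snd‖^2+‖z.snd‖^2 = 2 gam^2 ‖a.snd‖^2 + 2 ‖w.snd‖^2`,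
`⟪w, a⟫ = 0`, `‖w‖^2 = be/4 = om^2`; if `w.snd = 0` then `w.fst = ± om * I * a.fst/‖a.fst‖`, i.e. `y = Sp a` or `y = Sm a`.
-/

set_option autoImplicit false

namespace Crest.Agent.S0175Aux

open MeasureTheory Crest.AnalysisR.OT
open scoped ENNReal ContDiff

variable {k : ℕ} {P : Par}

namespace H4e

/-- planar lemma: a vector orthogonal to `u ≠ 0` of length `|c|` is `± c i u/|u|`. -/
lemma complex_perp {u w : ℂ} {c : ℝ} (hu : u ≠ 0) (h1 : u.re * w.re + u.im * w.im = 0)
    (h2 : w.re ^ 2 + w.im ^ 2 = c ^ 2) :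
    w = u * (((c / ‖u‖ : ℝ) : ℂ) * Complex.I) ∨ w = u * (((-c / ‖u‖ : ℝ) : ℂ) * Complex.I) := by
  have hn : 0 < ‖u‖ := norm_pos_iff.mpr hu
  have hn2 : ‖u‖ ^ 2 = u.re ^ 2 + u.im ^ 2 := by
    rw [Complex.sq_norm, Complex.normSq_apply]; ring
  set n := ‖u‖ with hndef
  set d := u.re * w.im - u.im * w.re with hd
  have hd2 : (d - n * c) * (d + n * c) = 0 := by
    have : d ^ 2 = n ^ 2 * c ^ 2 := by
      rw [hn2, ← h2, hd]
      linear_combination (-(u.re * w.re + u.im * w.im)) * h1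
    linear_combination this
  have e1 : n ^ 2 * w.re = - d * u.im := by
    rw [hn2, hd]; linear_combination u.re * h1
  have e2 : n ^ 2 * w.im = d * u.re := by
    rw [hn2, hd]; linear_combination u.im * h1
  have hne : n ≠ 0 := hn.ne'
  rcases mul_eq_zero.mp hd2 with h | h
  · left
    have hdc : d = n * c := by linarith
    apply Complex.ext
    · simp
      field_simp
      have : n * (n * w.re) = n * (-(c * u.im)) := by
        rw [hdc] at e1; linear_combination e1
      have := mul_left_cancel₀ hne this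
      linarith
    · simp
      field_simp
      have : n * (n * w.im) = n * (c * u.re) := by
        rw [hdc] at e2; linear_combination e2
      have := mul_left_cancel₀ hne this
      linarith
  · right
    have hdc : d = -(n * c) := by linarith
    apply Complex.ext
    · simp
      field_simp
      have : n * (n * w.re) = n * (c * u.im) := by
        rw [hdc] at e1; linear_combination e1
      have := mul_left_cancel₀ hne this
      linarith
    · simp
      field_simp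
      have : n * (n * w.im) = n * (-(c * u.re)) := by
        rw [hdc] at e2; linear_combination e2
      have := mul_left_cancel₀ hne this
      linarith

lemma tA_mem_II (hG : Good P) {a : V k} (ha : a ∈ Aset P k) : tA P.p (‖a‖ ^ 2) ∈ II P.p :=
  hG.mem_II (Set.Ioo_subset_Icc_self (tA_mem hG ha.1))

lemma abb_core (hG : Good P) {a y z : V k} (ha : a ∈ Aset P k) (hy : y ∈ Bset P k)
    (hz : z ∈ Bset P k)
    (heq : gfun P a = tripleCost P.s (a, y, z) + vfun P y + vfun P z) :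
    ‖a - y‖ ^ 2 = al P.p (tA P.p (‖a‖ ^ 2)) ∧ ‖a - z‖ ^ 2 = al P.p (tA P.p (‖a‖ ^ 2)) ∧
      ‖y - z‖ ^ 2 = be P.p (tA P.p (‖a‖ ^ 2)) ∧
      lam P.p (tA P.p (‖a‖ ^ 2)) • a + (tA P.p (‖a‖ ^ 2)) • (y + z) = 0 := by
  apply core_ennreal_eq hG (tA_mem_II hG ha)
  simpa only [gfun, vfun, if_pos ha, if_pos hy, if_pos hz] using heq

lemma sum_eq {p t : ℝ} (ht : t ∈ II p) {a y z : V k}
    (h : lam p t • a + t • (y + z) = 0) : y + z = (-(2 * gam p t)) • a := by
  have htp : 0 < t := t_pos ht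
  have h1 : t • (y + z) = (-(lam p t)) • a := by
    rw [neg_smul]; exact eq_neg_of_add_eq_zero_right h
  have h2 : y + z = t⁻¹ • (t • (y + z)) := by
    rw [smul_smul, inv_mul_cancel₀ htp.ne', one_smul]
  rw [h2, h1, smul_smul]
  congr 1
  unfold gam
  field_simp

/-- the moment identity -/
lemma snd_identity {g : ℝ} {a y z : V k} (h : y + z = (-(2 * g)) • a) :
    ‖y.snd‖ ^ 2 + ‖z.snd‖ ^ 2 = 2 * g ^ 2 * ‖a.snd‖ ^ 2 + ‖y.snd - z.snd‖ ^ 2 / 2 := by
  have h1 : y.snd + z.snd = (-(2 * g)) • a.snd := by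
    have := congrArg WithLp.snd h
    simpa using this
  have h2 := parallelogram_law_with_norm ℝ y.snd z.snd
  rw [h1, norm_smul] at h2
  have h3 : ‖(-(2 * g))‖ * ‖(-(2 * g))‖ = 4 * g ^ 2 := by
    rw [Real.norm_eq_abs, abs_mul_abs_self]; ring
  nlinarith [h2, h3]

lemma gfun_B (hG : Good P) {y : V k} (hy : y ∈ Bset P k) : gfun P y = 0 := by
  have : y ∉ Aset P k := fun h => (Set.disjoint_left.mp (disjoint_AB hG)) h hy
  simp only [gfun, if_neg this]

lemma vfun_A (hG : Good P) {a : V k} (ha : a ∈ Aset P k) : vfun P a = 0 := by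
  have : a ∉ Bset P k := fun h => (Set.disjoint_left.mp (disjoint_AB hG)) ha h
  simp only [vfun, if_neg this]

lemma psiA_B (hG : Good P) {y : V k} (hy : y ∈ Bset P k) : psiA P y = 0 := by
  have : y ∉ Aset P k := fun h => (Set.disjoint_left.mp (disjoint_AB hG)) h hy
  simp only [psiA, if_neg this]

lemma psiB_A (hG : Good P) {a : V k} (ha : a ∈ Aset P k) : psiB P a = 0 := by
  have : a ∉ Bset P k := fun h => (Set.disjoint_left.mp (disjoint_AB hG)) ha h
  simp only [psiB, if_neg this]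

lemma psi_sum (y z : V k) (hy : y ∈ Bset P k) (hz : z ∈ Bset P k) :
    psiB P y + psiB P z = ENNReal.ofReal (‖y.snd‖ ^ 2 + ‖z.snd‖ ^ 2) := by
  simp only [psiB, if_pos hy, if_pos hz]
  rw [ENNReal.ofReal_add (by positivity) (by positivity)]

lemma abb_psi_le (hG : Good P) {a y z : V k} (ha : a ∈ Aset P k) (hy : y ∈ Bset P k)
    (hz : z ∈ Bset P k)
    (heq : gfun P a = tripleCost P.s (a, y, z) + vfun P y + vfun P z) :
    psiA P a ≤ psiB P y + psiB P z := by
  obtain ⟨-, -, -, h4⟩ := abb_core hG ha hy hz heq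
  have h5 := snd_identity (sum_eq (tA_mem_II hG ha) h4)
  rw [psi_sum y z hy hz]
  simp only [psiA, if_pos ha]
  apply ENNReal.ofReal_le_ofReal
  rw [h5]
  have : 0 ≤ ‖y.snd - z.snd‖ ^ 2 / 2 := by positivity
  linarith

lemma abb_rigid (hG : Good P) {a y z : V k} (ha : a ∈ Aset P k) (hy : y ∈ Bset P k)
    (hz : z ∈ Bset P k)
    (heq : gfun P a = tripleCost P.s (a, y, z) + vfun P y + vfun P z)
    (hψ : psiA P a = psiB P y + psiB P z) :
    y = Sp P a ∨ y = Sm P a := by
  obtain ⟨h1, h2, h3, h4⟩ := abb_core hG ha hy hz heq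
  have ht := tA_mem_II hG ha
  set t := tA P.p (‖a‖ ^ 2) with htdef
  have hsum := sum_eq ht h4
  have h5 := snd_identity hsum
  rw [psi_sum y z hy hz] at hψ
  simp only [psiA, if_pos ha] at hψ
  rw [ENNReal.ofReal_eq_ofReal_iff (by positivity) (by positivity), ← htdef] at hψ
  have h6 : ‖y.snd - z.snd‖ ^ 2 = 0 := by linarith
  have h7 : y.snd = z.snd := by
    have : ‖y.snd - z.snd‖ = 0 := by simpa using h6
    exact sub_eq_zero.mp (norm_eq_zero.mp this)
  have hg : 0 < gam P.p t := gam_pos ht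
  set g := gam P.p t with hgdef
  have hs1 : y.snd + z.snd = (-(2 * g)) • a.snd := by
    have := congrArg WithLp.snd hsum
    simpa using this
  have hf1 : y.fst + z.fst = (-(2 * g)) • a.fst := by
    have := congrArg WithLp.fst hsum
    simpa using this
  have hysnd : y.snd = (-g) • a.snd := by
    rw [← h7] at hs1
    have : (2 : ℝ) • y.snd = (2 : ℝ) • ((-g) • a.snd) := by
      rw [two_smul, hs1, smul_smul]; congr 1; ring
    exact smul_right_injective _ (two_ne_zero) this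
  -- the planar part
  set u := a.fst with hu
  have hu0 : u ≠ 0 := ha.2
  set w : ℂ := y.fst + (g : ℂ) * u with hw
  have hz1 : z.fst = -(g : ℂ) * u - w := by
    have : z.fst = (-(2 * g)) • u - y.fst := by rw [← hf1]; ring
    rw [this, hw, Complex.real_smul]; push_cast; ring
  have hy1 : y.fst = -(g : ℂ) * u + w := by rw [hw]; ring
  -- length of w
  have hlen : w.re ^ 2 + w.im ^ 2 = (om P.p t) ^ 2 := by
    rw [om_sq ht, ← h3, WithLp.prod_norm_sq_eq_of_L2, WithLp.sub_fst, WithLp.sub_snd, h7, sub_self,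
      hy1, hz1, Complex.sq_norm, Complex.normSq_apply]
    simp
    ring
  have hperp : u.re * w.re + u.im * w.im = 0 := by
    have e : ‖a - y‖ ^ 2 = ‖a - z‖ ^ 2 := by rw [h1, h2]
    rw [WithLp.prod_norm_sq_eq_of_L2, WithLp.prod_norm_sq_eq_of_L2 (a - z), WithLp.sub_fst,
      WithLp.sub_snd, WithLp.sub_fst, WithLp.sub_snd, h7, ← hu, hy1, hz1, Complex.sq_norm,
      Complex.sq_norm, Complex.normSq_apply, Complex.normSq_apply] at e
    simp at e
    have e' : (1 + g) * (u.re * w.re + u.im * w.im) = 0 := by nlinarith [e]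
    rcases mul_eq_zero.mp e' with h | h
    · exfalso; linarith
    · exact h
  rcases complex_perp hu0 hperp hlen with h | h
  · left
    simp only [Sp, if_pos ha, tri]
    rw [← htdef, ← hgdef, ← hu]
    apply (WithLp.ext_iff (p := 2)).mpr
    apply Prod.ext
    · show y.fst = _
      rw [hy1, h]; push_cast; ring
    · show y.snd = _
      exact hysnd
  · right
    simp only [Sm, if_pos ha, tri]
    rw [← htdef, ← hgdef, ← hu]
    apply (WithLp.ext_iff (p := 2)).mpr
    apply Prod.ext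
    · show y.fst = _
      rw [hy1, h]; push_cast; ring
    · show y.snd = _
      exact hysnd

end H4e

open H4e

theorem geo_psi_ineq (hG : Good P) (x₁ : V k) (h₁ : x₁ ∈ Aset P k ∪ Bset P k)
    (x₂ : V k) (h₂ : x₂ ∈ Aset P k ∪ Bset P k) (x₃ : V k) (h₃ : x₃ ∈ Aset P k ∪ Bset P k)
    (heq : gfun P x₁ + gfun P x₂ + gfun P x₃ =
      tripleCost P.s (x₁, x₂, x₃) + vfun P x₁ + vfun P x₂ + vfun P x₃) :
    psiA P x₁ + psiA P x₂ + psiA P x₃ ≤ psiB P x₁ + psiB P x₂ + psiB P x₃ := by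
  rcases geo_eq_cases hG x₁ h₁ x₂ h₂ x₃ h₃ heq with ⟨a1, a2, a3⟩ | ⟨a1, a2, a3⟩ | ⟨a1, a2, a3⟩
  · rw [gfun_B hG a2, gfun_B hG a3, vfun_A hG a1, add_zero, add_zero, add_zero] at heq
    rw [psiA_B hG a2, psiA_B hG a3, psiB_A hG a1, add_zero, add_zero, zero_add]
    exact abb_psi_le hG a1 a2 a3 heq
  · rw [gfun_B hG a1, gfun_B hG a3, vfun_A hG a2, add_zero, add_zero, zero_add,
      ← tripleCost_cyc, tripleCost_swap] at heq
    rw [psiA_B hG a1, psiA_B hG a3, psiB_A hG a2, add_zero, add_zero, zero_add]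
    exact abb_psi_le hG a2 a1 a3 heq
  · rw [gfun_B hG a1, gfun_B hG a2, vfun_A hG a3, tripleCost_cyc] at heq
    simp only [add_zero, zero_add] at heq
    rw [psiA_B hG a1, psiA_B hG a2, psiB_A hG a3]
    simp only [add_zero, zero_add]
    exact abb_psi_le hG a3 a1 a2 heq

theorem geo_rigid (hG : Good P) (x₁ : V k) (h₁ : x₁ ∈ Aset P k ∪ Bset P k)
    (x₂ : V k) (h₂ : x₂ ∈ Aset P k ∪ Bset P k) (x₃ : V k) (h₃ : x₃ ∈ Aset P k ∪ Bset P k)
    (heq : gfun P x₁ + gfun P x₂ + gfun P x₃ =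
      tripleCost P.s (x₁, x₂, x₃) + vfun P x₁ + vfun P x₂ + vfun P x₃)
    (hψ : psiA P x₁ + psiA P x₂ + psiA P x₃ = psiB P x₁ + psiB P x₂ + psiB P x₃) :
    (x₁ ∈ Aset P k → x₂ ∉ Aset P k) ∧
      (x₁ ∈ Bset P k → x₂ ∈ Aset P k → x₁ = Sp P x₂ ∨ x₁ = Sm P x₂) := by
  have hd := Set.disjoint_left.mp (disjoint_AB (k := k) hG)
  rcases geo_eq_cases hG x₁ h₁ x₂ h₂ x₃ h₃ heq with ⟨a1, a2, a3⟩ | ⟨a1, a2, a3⟩ | ⟨a1, a2, a3⟩
  · exact ⟨fun _ h => hd h a2, fun h _ => absurd h (hd a1)⟩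
  · refine ⟨fun h => absurd a1 (hd h), fun _ _ => ?_⟩
    rw [gfun_B hG a1, gfun_B hG a3, vfun_A hG a2, add_zero, add_zero, zero_add,
      ← tripleCost_cyc, tripleCost_swap] at heq
    rw [psiA_B hG a1, psiA_B hG a3, psiB_A hG a2, add_zero, add_zero, zero_add] at hψ
    exact abb_rigid hG a2 a1 a3 heq hψ
  · exact ⟨fun h => absurd a1 (hd h), fun _ h => absurd a2 (hd h)⟩

end Crest.Agent.S0175Aux
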