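import Mathlib

/-!
# S0175, task T8a: the one-dimensional angle-doubling lemmas.

With `Δ = π/N`, `g φ = φ + Δ * fract (φ/Δ) = Δ (⌊φ/Δ⌋ + 2 fract (φ/Δ))` is injective with
derivative `2` on `{φ ∈ (-π,π) | fract (φ/Δ) < 1/2}` and maps it onto `(-π,π)`; similarly
`φ + Δ (fract (φ/Δ) - 1)` on `{1/2 ≤ fract}` (image `[-π,π)`).  Use
`MeasureTheory.lintegral_image_eq_lintegral_abs_deriv_mul`.
-/

set_option autoImplicit false

namespace Crest.Agent.S0175Aux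

open MeasureTheory
open scoped ENNReal ContDiff

namespace MapD1

/-- the set on which the doubling map with offset `c` is used -/
def E (Δ c : ℝ) : Set ℝ := {φ | c / 2 ≤ Int.fract (φ / Δ) ∧ Int.fract (φ / Δ) < (c + 1) / 2}

/-- the doubling map with offset `c` -/
noncomputable def D (Δ c φ : ℝ) : ℝ := φ + Δ * (Int.fract (φ / Δ) - c)

lemma measurableSet_E (Δ c : ℝ) : MeasurableSet (E Δ c) := by
  have m : Measurable (fun φ : ℝ => Int.fract (φ / Δ)) :=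
    measurable_fract.comp (measurable_id.div_const Δ)
  exact (measurableSet_le measurable_const m).inter (measurableSet_lt m measurable_const)

lemma D_div {Δ c φ : ℝ} (hΔ : 0 < Δ) :
    D Δ c φ / Δ = ⌊φ / Δ⌋ + (2 * Int.fract (φ / Δ) - c) := by
  have h := Int.floor_add_fract (φ / Δ)
  unfold D
  rw [add_div, mul_div_cancel_left₀ _ hΔ.ne']
  linarith

lemma floor_D {Δ c φ : ℝ} (hΔ : 0 < Δ) (h : φ ∈ E Δ c) : ⌊D Δ c φ / Δ⌋ = ⌊φ / Δ⌋ := by
  rw [D_div hΔ, Int.floor_eq_iff]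
  constructor <;> linarith [h.1, h.2]

lemma fract_D {Δ c φ : ℝ} (hΔ : 0 < Δ) (h : φ ∈ E Δ c) :
    Int.fract (D Δ c φ / Δ) = 2 * Int.fract (φ / Δ) - c := by
  rw [Int.fract, floor_D hΔ h, D_div hΔ]
  ring

lemma injOn_D {Δ c : ℝ} (hΔ : 0 < Δ) : Set.InjOn (D Δ c) (E Δ c) := by
  intro x hx y hy hxy
  have h1 : ⌊x / Δ⌋ = ⌊y / Δ⌋ := by rw [← floor_D hΔ hx, ← floor_D hΔ hy, hxy]
  have h2 : Int.fract (x / Δ) = Int.fract (y / Δ) := by
    have a := fract_D hΔ hx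
    have b := fract_D hΔ hy
    rw [hxy] at a
    linarith
  have h3 : x / Δ = y / Δ := by
    rw [← Int.floor_add_fract (x / Δ), ← Int.floor_add_fract (y / Δ), h1, h2]
  exact (div_left_inj' hΔ.ne').mp h3

lemma mem_Ico_iff {Δ : ℝ} (hΔ : 0 < Δ) (a b : ℤ) (φ : ℝ) :
    φ ∈ Set.Ico (a * Δ) (b * Δ) ↔ a ≤ ⌊φ / Δ⌋ ∧ ⌊φ / Δ⌋ < b := by
  rw [Int.le_floor, Int.floor_lt, le_div_iff₀ hΔ, div_lt_iff₀ hΔ]
  rfl

lemma image_D {Δ c : ℝ} (hΔ : 0 < Δ) (hc0 : 0 ≤ c) (hc1 : c ≤ 1) (a b : ℤ) :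
    D Δ c '' (Set.Ico (a * Δ) (b * Δ) ∩ E Δ c) = Set.Ico (a * Δ) (b * Δ) := by
  ext y
  constructor
  · rintro ⟨x, ⟨hx1, hx2⟩, rfl⟩
    rw [mem_Ico_iff hΔ] at hx1 ⊢
    rwa [floor_D hΔ hx2]
  · intro hy
    set k := ⌊y / Δ⌋ with hk
    set r := Int.fract (y / Δ) with hr
    have hr0 : 0 ≤ r := Int.fract_nonneg _
    have hr1 : r < 1 := Int.fract_lt_one _
    have hy' : y / Δ = k + r := (Int.floor_add_fract _).symm
    have hdiv : Δ * (k + (r + c) / 2) / Δ = k + (r + c) / 2 := mul_div_cancel_left₀ _ hΔ.ne'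
    have hfl : ⌊(k : ℝ) + (r + c) / 2⌋ = k := by
      rw [Int.floor_eq_iff]
      constructor <;> linarith
    have hfr : Int.fract ((k : ℝ) + (r + c) / 2) = (r + c) / 2 := by
      rw [Int.fract, hfl]; ring
    refine ⟨Δ * (k + (r + c) / 2), ⟨?_, ?_⟩, ?_⟩
    · rw [mem_Ico_iff hΔ] at hy ⊢
      rw [hdiv, hfl]
      exact hy
    · show _ ∧ _
      rw [hdiv, hfr]
      constructor <;> linarith
    · unfold D
      rw [hdiv, hfr]
      have : y = Δ * (k + r) := by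
        rw [← hy', mul_div_cancel₀ _ hΔ.ne']
      rw [this]; ring

lemma hasDeriv_D {Δ c : ℝ} (hΔ : 0 < Δ) {s : Set ℝ} (hs : s ⊆ E Δ c) {x : ℝ} (hx : x ∈ s) :
    HasDerivWithinAt (D Δ c) 2 s x := by
  set k := ⌊x / Δ⌋ with hk
  have h0 : HasDerivWithinAt (fun φ : ℝ => 2 * φ - Δ * (k + c)) 2 s x := by
    have := ((hasDerivAt_id x).const_mul (2 : ℝ)).sub_const (Δ * (k + c))
    simpa using this.hasDerivWithinAt
  have key : ∀ φ ∈ E Δ c, |φ - x| < Δ / 2 → D Δ c φ = 2 * φ - Δ * (k + c) := by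
    intro φ hφ hd
    have hxE := hs hx
    have e1 := Int.floor_add_fract (φ / Δ)
    have e2 := Int.floor_add_fract (x / Δ)
    have hd' : |φ / Δ - x / Δ| < 1 / 2 := by
      rw [← sub_div, abs_div, abs_of_pos hΔ, div_lt_iff₀ hΔ]
      linarith
    rw [abs_lt] at hd'
    have hfl : ⌊φ / Δ⌋ = k := by
      have h1 : ((⌊φ / Δ⌋ : ℤ) : ℝ) - (k : ℝ) < 1 := by
        linarith [hφ.1, hφ.2, hxE.1, hxE.2, hd'.1, hd'.2]
      have h2 : (-1 : ℝ) < ((⌊φ / Δ⌋ : ℤ) : ℝ) - (k : ℝ) := by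
        linarith [hφ.1, hφ.2, hxE.1, hxE.2, hd'.1, hd'.2]
      have h1' : ⌊φ / Δ⌋ - k < 1 := by exact_mod_cast h1
      have h2' : -1 < ⌊φ / Δ⌋ - k := by exact_mod_cast h2
      omega
    unfold D
    have : Int.fract (φ / Δ) = φ / Δ - k := by rw [Int.fract, hfl]
    rw [this]
    field_simp
    ring
  refine h0.congr_of_eventuallyEq ?_ (key x (hs hx) (by simpa using half_pos hΔ))
  have hnb : {φ : ℝ | |φ - x| < Δ / 2} ∈ nhds x := by
    have : Metric.ball x (Δ / 2) ∈ nhds x := Metric.ball_mem_nhds x (half_pos hΔ)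
    simpa [Metric.ball, Real.dist_eq] using this
  filter_upwards [mem_nhdsWithin_of_mem_nhds hnb, self_mem_nhdsWithin] with φ h1 h2
  exact key φ (hs h2) h1

theorem generic {Δ c : ℝ} (hΔ : 0 < Δ) (hc0 : 0 ≤ c) (hc1 : c ≤ 1) (a b : ℤ) (F : ℝ → ℝ≥0∞) :
    ∫⁻ φ in Set.Ico (a * Δ) (b * Δ) ∩ E Δ c, F (D Δ c φ) =
      (2⁻¹ : ℝ≥0∞) * ∫⁻ φ in Set.Ico (a * Δ) (b * Δ), F φ := by
  have hs : MeasurableSet (Set.Ico (a * Δ) (b * Δ) ∩ E Δ c) :=
    measurableSet_Ico.inter (measurableSet_E Δ c)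
  have h := lintegral_image_eq_lintegral_abs_deriv_mul hs
    (fun x hx => hasDeriv_D hΔ Set.inter_subset_right hx)
    ((injOn_D hΔ).mono Set.inter_subset_right) F
  rw [image_D hΔ hc0 hc1] at h
  rw [h, lintegral_const_mul' _ _ ENNReal.ofReal_ne_top, ← mul_assoc]
  have : (2⁻¹ : ℝ≥0∞) * ENNReal.ofReal |(2 : ℝ)| = 1 := by
    rw [abs_of_pos (by norm_num : (0 : ℝ) < 2)]
    rw [show ENNReal.ofReal 2 = 2 by norm_num]
    exact ENNReal.inv_mul_cancel (by norm_num) (by norm_num)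
  rw [this, one_mul]

theorem generic_pi {N : ℕ} (hN : 1 ≤ N) {c : ℝ} (hc0 : 0 ≤ c) (hc1 : c ≤ 1) (F : ℝ → ℝ≥0∞) :
    ∫⁻ φ in Set.Ioo (-Real.pi) Real.pi, (E (Real.pi / N) c).indicator
        (fun φ => F (D (Real.pi / N) c φ)) φ =
      (2⁻¹ : ℝ≥0∞) * ∫⁻ φ in Set.Ioo (-Real.pi) Real.pi, F φ := by
  have hN' : (0 : ℝ) < N := by exact_mod_cast hN
  have hΔ : 0 < Real.pi / N := div_pos Real.pi_pos hN'
  have h := generic hΔ hc0 hc1 (-(N : ℤ)) (N : ℤ) F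
  have e1 : (((-(N : ℤ)) : ℤ) : ℝ) * (Real.pi / N) = -Real.pi := by
    push_cast; field_simp
  have e2 : (((N : ℤ)) : ℝ) * (Real.pi / N) = Real.pi := by
    push_cast; field_simp
  rw [e1, e2] at h
  rw [setLIntegral_indicator (measurableSet_E _ _), Set.inter_comm,
    setLIntegral_congr (Ioo_ae_eq_Ico (μ := volume) (a := -Real.pi) (b := Real.pi)), ← h]
  apply setLIntegral_congr
  exact (Ioo_ae_eq_Ico (μ := volume) (a := -Real.pi) (b := Real.pi)).inter (Filter.EventuallyEq.refl _ _)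

end MapD1

theorem lintegral_double_even {N : ℕ} (hN : 1 ≤ N) (F : ℝ → ℝ≥0∞) (hF : Measurable F) :
    ∫⁻ φ in Set.Ioo (-Real.pi) Real.pi,
        (if Int.fract (φ / (Real.pi / N)) < 1 / 2 then
          F (φ + (Real.pi / N) * Int.fract (φ / (Real.pi / N))) else 0) =
      (2⁻¹ : ℝ≥0∞) * ∫⁻ φ in Set.Ioo (-Real.pi) Real.pi, F φ := by
  rw [← MapD1.generic_pi hN (c := 0) le_rfl zero_le_one F]
  congr 1
  funext φ
  have : φ ∈ MapD1.E (Real.pi / N) 0 ↔ Int.fract (φ / (Real.pi / N)) < 1 / 2 := by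
    constructor
    · intro h; have := h.2; simpa using this
    · intro h; exact ⟨by simpa using Int.fract_nonneg _, by simpa using h⟩
  by_cases h : Int.fract (φ / (Real.pi / N)) < 1 / 2
  · rw [if_pos h, Set.indicator_of_mem (this.mpr h)]
    simp only [MapD1.D, sub_zero]
  · rw [if_neg h, Set.indicator_of_notMem (fun h' => h (this.mp h'))]

theorem lintegral_double_odd {N : ℕ} (hN : 1 ≤ N) (F : ℝ → ℝ≥0∞) (hF : Measurable F) :
    ∫⁻ φ in Set.Ioo (-Real.pi) Real.pi,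
        (if 1 / 2 ≤ Int.fract (φ / (Real.pi / N)) then
          F (φ + (Real.pi / N) * (Int.fract (φ / (Real.pi / N)) - 1)) else 0) =
      (2⁻¹ : ℝ≥0∞) * ∫⁻ φ in Set.Ioo (-Real.pi) Real.pi, F φ := by
  rw [← MapD1.generic_pi hN (c := 1) zero_le_one le_rfl F]
  congr 1
  funext φ
  have : φ ∈ MapD1.E (Real.pi / N) 1 ↔ 1 / 2 ≤ Int.fract (φ / (Real.pi / N)) := by
    constructor
    · intro h; exact h.1
    · intro h; exact ⟨h, by have := Int.fract_lt_one (φ / (Real.pi / N)); linarith⟩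
  by_cases h : 1 / 2 ≤ Int.fract (φ / (Real.pi / N))
  · rw [if_pos h, Set.indicator_of_mem (this.mpr h)]
    simp only [MapD1.D]
  · rw [if_neg h, Set.indicator_of_notMem (fun h' => h (this.mp h'))]

end Crest.Agent.S0175Aux
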