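import Crest.Agent.S0175Aux.Inverse

/-!
# S0175, task T5: measurability of all sets / maps / potentials on `V k`.

`Aset`, `Bset` are open; on them the formulas are continuous (`continuousOn_tA`, `continuousOn_tB`,
continuity of `gam, om, Kc, Ac, Xf` on `II p` from the `contDiffAt_*` lemmas), so use
`Measurable.piecewise`/`ContinuousOn.measurable_piecewise` (or `Measurable.ite`).
-/

set_option autoImplicit false

namespace Crest.Agent.S0175Aux

open MeasureTheory
open scoped ENNReal ContDiff

variable {k : ℕ} {P : Par}

namespace Meas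

lemma measurable_fst' : Measurable (fun a : V k => a.fst) :=
  (WithLp.continuous_fst 2 ℂ (F k)).measurable
lemma measurable_snd' : Measurable (fun a : V k => a.snd) :=
  (WithLp.continuous_snd 2 ℂ (F k)).measurable
lemma measurable_nsq : Measurable (fun a : V k => ‖a‖ ^ 2) := by fun_prop

lemma measurable_lam (p : ℝ) : Measurable (lam p) := by unfold lam; fun_prop
lemma measurable_al (p : ℝ) : Measurable (al p) := by
  unfold al; exact (measurable_lam p).pow_const _
lemma measurable_be (p : ℝ) : Measurable (be p) := by
  unfold be; exact measurable_id.pow_const _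
lemma measurable_h2 (p : ℝ) : Measurable (h2 p) := by
  unfold h2; exact (measurable_al p).sub ((measurable_be p).div_const _)
lemma measurable_Xf (p : ℝ) : Measurable (Xf p) := by
  unfold Xf; exact (by fun_prop : Measurable fun t : ℝ => (2 * t / Bt p) ^ 2).mul (measurable_h2 p)
lemma measurable_gam (p : ℝ) : Measurable (gam p) := by
  unfold gam; exact (measurable_lam p).div (by fun_prop)
lemma measurable_om (p : ℝ) : Measurable (om p) := by
  unfold om; exact ((measurable_be p).sqrt).div_const _
lemma measurable_Kc (p : ℝ) : Measurable (Kc p) := by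
  unfold Kc
  exact ((((measurable_al p).pow_const _).const_mul _).add ((measurable_be p).pow_const _)).const_mul _
lemma measurable_Ac (p : ℝ) : Measurable (Ac p) := by
  unfold Ac
  exact ((((measurable_lam p).const_mul _)).add (((measurable_lam p).pow_const 2).div
    measurable_id)).const_mul _

lemma measurable_tA {p : ℝ} (hp : 1 < p) : Measurable (tA p) :=
  invFunOn_measurable (Xf p) _ _ (fun _ hx => (contDiffAt_Xf hp hx).contDiffWithinAt)
    (fun _ hx => (deriv_Xf_pos hp hx).ne') (strictMonoOn_Xf hp).injOn

lemma measurable_tB {p : ℝ} (hp : 1 < p) : Measurable (tB p) :=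
  invFunOn_measurable (Yf p) _ _ (fun _ hx => (contDiffAt_Yf hp hx).contDiffWithinAt)
    (fun _ hx => (deriv_Yf_neg hp hx).ne) (strictAntiOn_Yf hp).injOn

lemma measurable_tri {g w : V k → ℝ} (hg : Measurable g) (hw : Measurable w) :
    Measurable (fun a : V k => tri (g a) (w a) a) := by
  unfold tri
  refine (WithLp.measurable_toLp 2 _).comp (Measurable.prodMk ?_ ?_)
  · refine measurable_fst'.mul (Measurable.add ?_ (Measurable.mul ?_ measurable_const))
    · exact Complex.measurable_ofReal.comp hg.neg
    · exact Complex.measurable_ofReal.comp (hw.div measurable_fst'.norm)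
  · exact hg.neg.smul measurable_snd'

end Meas

open Meas

lemma isOpen_Aset (P : Par) (k : ℕ) : IsOpen (Aset P k) := by
  have h1 : IsOpen {a : V k | ‖a‖ ^ 2 ∈ Set.Ioo P.X₁ P.X₂} :=
    isOpen_Ioo.preimage (by fun_prop : Continuous fun a : V k => ‖a‖ ^ 2)
  have h2 : IsOpen {a : V k | a.fst ≠ 0} :=
    isOpen_ne.preimage (WithLp.continuous_fst 2 ℂ (F k))
  exact h1.inter h2

lemma isOpen_Bset (P : Par) (k : ℕ) : IsOpen (Bset P k) :=
  isOpen_Ioo.preimage (by fun_prop : Continuous fun a : V k => ‖a‖ ^ 2)

lemma measurableSet_Aset (P : Par) (k : ℕ) : MeasurableSet (Aset P k) :=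
  (isOpen_Aset P k).measurableSet
lemma measurableSet_Bset (P : Par) (k : ℕ) : MeasurableSet (Bset P k) :=
  (isOpen_Bset P k).measurableSet

lemma measurable_Sp (hG : Good P) : Measurable (Sp P : V k → V k) := by
  unfold Sp
  refine Measurable.ite (measurableSet_Aset P k) (measurable_tri ?_ ?_) measurable_id
  · exact (measurable_gam _).comp ((measurable_tA hG.hp).comp measurable_nsq)
  · exact (measurable_om _).comp ((measurable_tA hG.hp).comp measurable_nsq)

lemma measurable_Sm (hG : Good P) : Measurable (Sm P : V k → V k) := by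
  unfold Sm
  refine Measurable.ite (measurableSet_Aset P k) (measurable_tri ?_ ?_) measurable_id
  · exact (measurable_gam _).comp ((measurable_tA hG.hp).comp measurable_nsq)
  · exact ((measurable_om _).comp ((measurable_tA hG.hp).comp measurable_nsq)).neg

lemma measurable_Qp (hG : Good P) : Measurable (Qp P : V k → V k) := by
  unfold Qp
  refine Measurable.ite (measurableSet_Bset P k) ?_ measurable_id
  unfold qtri
  have ht : Measurable (fun y : V k => tB P.p (‖y‖ ^ 2)) :=
    (measurable_tB hG.hp).comp measurable_nsq
  have hg : Measurable (fun y : V k => gam P.p (tB P.p (‖y‖ ^ 2))) := (measurable_gam _).comp ht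
  have ho : Measurable (fun y : V k => om P.p (tB P.p (‖y‖ ^ 2))) := (measurable_om _).comp ht
  have hX : Measurable (fun y : V k => Xf P.p (tB P.p (‖y‖ ^ 2))) := (measurable_Xf _).comp ht
  have hs : Measurable (fun y : V k => Real.sqrt (Xf P.p (tB P.p (‖y‖ ^ 2)) -
      ‖(gam P.p (tB P.p (‖y‖ ^ 2)))⁻¹ • y.snd‖ ^ 2)) :=
    (hX.sub ((hg.inv.smul measurable_snd').norm.pow_const 2)).sqrt
  refine (WithLp.measurable_toLp 2 _).comp (Measurable.prodMk ?_ ?_)
  · refine Measurable.div ((Complex.measurable_ofReal.comp hs).mul measurable_fst') ?_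
    exact (Complex.measurable_ofReal.comp (hg.neg.mul hs)).add
      ((Complex.measurable_ofReal.comp ho).mul measurable_const)
  · exact hg.inv.neg.smul measurable_snd'

lemma measurable_gfun (hG : Good P) : Measurable (gfun P : V k → ℝ≥0∞) := by
  unfold gfun
  refine Measurable.ite (measurableSet_Aset P k) ?_ measurable_const
  have ht : Measurable (fun y : V k => tA P.p (‖y‖ ^ 2)) :=
    (measurable_tA hG.hp).comp measurable_nsq
  exact (((measurable_Kc _).comp ht).sub (((measurable_Ac _).comp ht).mul measurable_nsq)).ennreal_ofReal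

lemma measurable_vfun (P : Par) : Measurable (vfun P : V k → ℝ≥0∞) := by
  unfold vfun
  exact Measurable.ite (measurableSet_Bset P k) (measurable_nsq.const_mul _).ennreal_ofReal
    measurable_const

lemma measurable_psiA (hG : Good P) : Measurable (psiA P : V k → ℝ≥0∞) := by
  unfold psiA
  refine Measurable.ite (measurableSet_Aset P k) ?_ measurable_const
  have ht : Measurable (fun y : V k => tA P.p (‖y‖ ^ 2)) :=
    (measurable_tA hG.hp).comp measurable_nsq
  exact (((((measurable_gam _).comp ht).pow_const 2).const_mul 2).mul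
    (measurable_snd'.norm.pow_const 2)).ennreal_ofReal

lemma measurable_psiB (P : Par) : Measurable (psiB P : V k → ℝ≥0∞) := by
  unfold psiB
  exact Measurable.ite (measurableSet_Bset P k) (measurable_snd'.norm.pow_const 2).ennreal_ofReal
    measurable_const

lemma measurable_frac (N : ℕ) : Measurable (frac N : V k → ℝ) := by
  unfold frac
  exact measurable_fract.comp ((Complex.measurable_arg.comp measurable_fst').div_const _)

lemma measurable_thet (N : ℕ) : Measurable (thet N : V k → ℝ) := by
  unfold thet
  refine Measurable.const_mul (Measurable.ite ?_ (measurable_frac N)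
    ((measurable_frac N).sub_const 1)) _
  exact measurableSet_lt (measurable_frac N) measurable_const

lemma measurable_Dmap (N : ℕ) : Measurable (Dmap N : V k → V k) := by
  unfold Dmap rot
  refine (WithLp.measurable_toLp 2 _).comp (Measurable.prodMk ?_ measurable_snd')
  exact measurable_fst'.mul (Complex.measurable_exp.comp
    ((Complex.measurable_ofReal.comp (measurable_thet N)).mul measurable_const))

lemma measurableSet_Bp (P : Par) (N k : ℕ) : MeasurableSet (Bp P N k) :=
  (measurableSet_Bset P k).inter (measurableSet_lt (measurable_frac N) measurable_const)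

lemma measurableSet_Bpp (P : Par) (N k : ℕ) : MeasurableSet (Bpp P N k) :=
  (measurableSet_Bset P k).inter (measurableSet_le measurable_const (measurable_frac N))

lemma Bp_union_Bpp (P : Par) (N k : ℕ) : Bp P N k ∪ Bpp P N k = Bset P k := by
  ext y
  simp only [Bp, Bpp, Set.mem_union, Set.mem_ofPred_eq]
  constructor
  · rintro (h | h) <;> exact h.1
  · intro h
    rcases lt_or_ge (frac N y) (1 / 2) with h' | h'
    · exact Or.inl ⟨h, h'⟩
    · exact Or.inr ⟨h, h'⟩

lemma disjoint_Bp_Bpp (P : Par) (N k : ℕ) : Disjoint (Bp P N k) (Bpp P N k) := by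
  rw [Set.disjoint_left]
  intro y h1 h2
  exact absurd h1.2 (not_lt.mpr h2.2)

end Crest.Agent.S0175Aux
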