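import Crest.Agent.S0175Aux.CL
import Crest.Agent.S0175Aux.MapD1
import Crest.Agent.S0175Aux.Family
import Crest.Agent.S0175Aux.Meas

/-!
# S0175, task T8b: the angle-doubling map pushes each half of `mu_B` onto `mu_B / 2`.

1D lemmas: with `Δ = π/N`, `g φ = φ + Δ * fract (φ/Δ) = Δ (⌊φ/Δ⌋ + 2 fract (φ/Δ))` is injective with
derivative `2` on `{φ ∈ (-π,π) | fract (φ/Δ) < 1/2}` and maps it onto `(-π,π)`; similarly
`φ + Δ (fract (φ/Δ) - 1)` on `{1/2 ≤ fract}` (image `[-π,π)`).  Use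
`MeasureTheory.lintegral_image_eq_lintegral_abs_deriv_mul`.
Then `lintegral_weight_Phi` with `w X τ = ofReal (cN^2 n0(X)^2 H0(τ)^2)`, `Phi_arg`, `rot_Phi`.
-/

set_option autoImplicit false

namespace Crest.Agent.S0175Aux

open MeasureTheory Crest.AnalysisR.OT
open scoped ENNReal ContDiff

variable {k : ℕ} {P : Par}

namespace MapD

/-- the weight of `muB` in the coordinates `(X, τ)` -/
noncomputable def w (P : Par) (X : ℝ) (τ : F k) : ℝ≥0∞ :=
  ENNReal.ofReal ((P.cN * (n0 P X * H0 P τ)) ^ 2)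

lemma measurable_w : Measurable (fun q : ℝ × F k => w P q.1 q.2) := by
  have c1 : Continuous (fun q : ℝ × F k => (P.cN * (n0 P q.1 * H0 P q.2)) ^ 2) := by
    unfold n0 H0
    have := Real.smoothTransition.continuous
    fun_prop
  exact ENNReal.measurable_ofReal.comp c1.measurable

lemma w_ne_zero (hG : Good P) {X : ℝ} {τ : F k} (h : w P X τ ≠ 0) :
    X ∈ Set.Ioo P.Y₂ P.Y₁ ∧ ‖τ‖ ^ 2 < X := by
  have h1 : P.Y₂ < X := by
    by_contra hc
    apply h
    have : Real.smoothTransition (X - P.Y₂) = 0 :=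
      Real.smoothTransition.zero_of_nonpos (by linarith)
    simp [w, n0, this]
  have h2 : X < P.Y₁ := by
    by_contra hc
    apply h
    have : Real.smoothTransition (P.Y₁ - X) = 0 :=
      Real.smoothTransition.zero_of_nonpos (by linarith)
    simp [w, n0, this]
  have h3 : ‖τ‖ ^ 2 < P.dl2 := by
    by_contra hc
    apply h
    have : Real.smoothTransition (P.dl2 - ‖τ‖ ^ 2) = 0 :=
      Real.smoothTransition.zero_of_nonpos (by linarith)
    simp [w, H0, this]
  exact ⟨⟨h1, h2⟩, by linarith [hG.dl2_lt_Y₂]⟩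

lemma w_zero (hG : Good P) (X : ℝ) (τ : F k) (h : X ≤ ‖τ‖ ^ 2) : w P X τ = 0 := by
  by_contra hc
  exact absurd (w_ne_zero hG hc).2 (not_lt.mpr h)

lemma lintegral_muB (hG : Good P) (f : V k → ℝ≥0∞) (hf : Measurable f) :
    ∫⁻ y, f y ∂(muB P k) = ∫⁻ X : ℝ, ∫⁻ τ : F k, (2⁻¹ : ℝ≥0∞) * w P X τ *
        ∫⁻ φ in Set.Ioo (-Real.pi) Real.pi, f (Phi X φ τ) := by
  rw [← lintegral_weight_Phi f hf (w P) measurable_w (w_zero hG)]
  have hrho : (fun x : V k => ENNReal.ofReal (rhoB P x)) = fun x => w P (‖x‖ ^ 2) x.snd := by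
    funext x
    simp only [rhoB, rB, w]
  have mfst : Measurable (fun x : V k => (((‖x‖ ^ 2 : ℝ), x.snd) : ℝ × F k)) := by
    apply Measurable.prodMk
    · fun_prop
    · exact (WithLp.prod_continuous_ofLp 2 ℂ (F k)).measurable.snd
  have mw := Measurable.comp (measurable_w (P := P) (k := k)) mfst
  have e : ((fun q : ℝ × F k => w P q.1 q.2) ∘
      fun x : V k => (((‖x‖ ^ 2 : ℝ), x.snd) : ℝ × F k)) =
      (fun x : V k => w (k := k) P (‖x‖ ^ 2) x.snd) := by
    funext x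
    simp only [Function.comp]
  rw [e] at mw
  unfold muB measOfDensity
  rw [hrho, lintegral_withDensity_eq_lintegral_mul _ mw hf]
  simp only [Pi.mul_apply]

theorem map_D_generic (hG : Good P) {N : ℕ} (Bq : Set (V k)) (mBq : MeasurableSet Bq)
    (key : ∀ (f : V k → ℝ≥0∞), Measurable f → ∀ (X : ℝ) (τ : F k), X ∈ Set.Ioo P.Y₂ P.Y₁ →
      ‖τ‖ ^ 2 < X →
      ∫⁻ φ in Set.Ioo (-Real.pi) Real.pi, Bq.indicator (fun y => f (Dmap N y)) (Phi X φ τ) =
        (2⁻¹ : ℝ≥0∞) * ∫⁻ φ in Set.Ioo (-Real.pi) Real.pi, f (Phi X φ τ)) :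
    ((muB P k).restrict Bq).map (Dmap N) = (2⁻¹ : ℝ≥0∞) • muB P k := by
  apply Measure.ext_of_lintegral
  intro f hf
  have mfD : Measurable (fun y => f (Dmap N y)) := hf.comp (measurable_Dmap N)
  rw [lintegral_map hf (measurable_Dmap N), ← lintegral_indicator mBq,
    lintegral_muB hG _ (mfD.indicator mBq), lintegral_smul_measure, lintegral_muB hG f hf,
    smul_eq_mul, ← lintegral_const_mul' _ _ (by simp)]
  congr 1
  funext X
  rw [← lintegral_const_mul' _ _ (by simp)]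
  congr 1
  funext τ
  by_cases hw : w P X τ = 0
  · simp [hw]
  · obtain ⟨h1, h2⟩ := w_ne_zero hG hw
    rw [key f hf X τ h1 h2]
    ring

lemma measurable_Phi_angle (f : V k → ℝ≥0∞) (hf : Measurable f) (X : ℝ) (τ : F k) :
    Measurable (fun φ : ℝ => f (Phi X φ τ)) := by
  have : Measurable (fun φ : ℝ => ((X, φ, τ) : ℝ × ℝ × F k)) := by fun_prop
  exact hf.comp (measurable_Phi.comp this)

end MapD

theorem map_D_even (hG : Good P) {N : ℕ} (hN : 1 ≤ N) :
    ((muB P k).restrict (Bp P N k)).map (Dmap N) = (2⁻¹ : ℝ≥0∞) • muB P k := by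
  apply MapD.map_D_generic hG _ (measurableSet_Bp P N k)
  intro f hf X τ hX hτ
  rw [← lintegral_double_even hN _ (MapD.measurable_Phi_angle f hf X τ)]
  apply setLIntegral_congr_fun measurableSet_Ioo
  intro φ hφ
  have harg : Complex.arg (Phi X φ τ).fst = φ := Phi_arg hτ hφ
  have hfrac : frac N (Phi X φ τ) = Int.fract (φ / (Real.pi / N)) := by
    unfold frac; rw [harg]
  have hB : Phi X φ τ ∈ Bset P k := by
    show ‖Phi X φ τ‖ ^ 2 ∈ Set.Ioo P.Y₂ P.Y₁
    rw [Phi_norm_sq φ hτ.le]; exact hX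
  by_cases h : Int.fract (φ / (Real.pi / N)) < 1 / 2
  · have hmem : Phi X φ τ ∈ Bp P N k := ⟨hB, by rw [hfrac]; exact h⟩
    simp only [Set.indicator_of_mem hmem, if_pos h]
    unfold Dmap thet
    rw [hfrac, if_pos h, rot_Phi]
  · have hmem : Phi X φ τ ∉ Bp P N k := fun h' => h (by rw [← hfrac]; exact h'.2)
    simp only [Set.indicator_of_notMem hmem, if_neg h]

theorem map_D_odd (hG : Good P) {N : ℕ} (hN : 1 ≤ N) :
    ((muB P k).restrict (Bpp P N k)).map (Dmap N) = (2⁻¹ : ℝ≥0∞) • muB P k := by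
  apply MapD.map_D_generic hG _ (measurableSet_Bpp P N k)
  intro f hf X τ hX hτ
  rw [← lintegral_double_odd hN _ (MapD.measurable_Phi_angle f hf X τ)]
  apply setLIntegral_congr_fun measurableSet_Ioo
  intro φ hφ
  have harg : Complex.arg (Phi X φ τ).fst = φ := Phi_arg hτ hφ
  have hfrac : frac N (Phi X φ τ) = Int.fract (φ / (Real.pi / N)) := by
    unfold frac; rw [harg]
  have hB : Phi X φ τ ∈ Bset P k := by
    show ‖Phi X φ τ‖ ^ 2 ∈ Set.Ioo P.Y₂ P.Y₁
    rw [Phi_norm_sq φ hτ.le]; exact hX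
  by_cases h : 1 / 2 ≤ Int.fract (φ / (Real.pi / N))
  · have hmem : Phi X φ τ ∈ Bpp P N k := ⟨hB, by rw [hfrac]; exact h⟩
    simp only [Set.indicator_of_mem hmem, if_pos h]
    unfold Dmap thet
    rw [hfrac, if_neg (not_lt.mpr h), rot_Phi]
  · have hmem : Phi X φ τ ∉ Bpp P N k := fun h' => h (by rw [← hfrac]; exact h'.2)
    simp only [Set.indicator_of_notMem hmem, if_neg h]

end Crest.Agent.S0175Aux
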