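import Mathlib

/-! # S0175 auxiliary: smooth inverse of a smooth injective function with non-vanishing derivative
on an open interval (one-dimensional inverse function theorem, for `Function.invFunOn`) -/

set_option autoImplicit false
open scoped ContDiff

namespace Crest.Agent.S0175Aux

variable (g : ℝ → ℝ) (a b : ℝ)

theorem invFunOn_left (hinj : Set.InjOn g (Set.Ioo a b)) {x : ℝ} (hx : x ∈ Set.Ioo a b) :
    Function.invFunOn g (Set.Ioo a b) (g x) = x := by
  have hex : ∃ y ∈ Set.Ioo a b, g y = g x := ⟨x, hx, rfl⟩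
  exact hinj (Function.invFunOn_mem hex) hx (Function.invFunOn_eq hex)

theorem invFunOn_eventually_left (hinj : Set.InjOn g (Set.Ioo a b)) {x : ℝ}
    (hx : x ∈ Set.Ioo a b) :
    ∀ᶠ y in nhds x, Function.invFunOn g (Set.Ioo a b) (g y) = y := by
  filter_upwards [isOpen_Ioo.mem_nhds hx] with y hy
  exact invFunOn_left g a b hinj hy

theorem contDiffAt_of_mem (hg : ContDiffOn ℝ ∞ g (Set.Ioo a b)) {x : ℝ}
    (hx : x ∈ Set.Ioo a b) : ContDiffAt ℝ ∞ g x :=
  hg.contDiffAt (isOpen_Ioo.mem_nhds hx)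

theorem hasStrictDerivAt_of_mem (hg : ContDiffOn ℝ ∞ g (Set.Ioo a b)) {x : ℝ}
    (hx : x ∈ Set.Ioo a b) : HasStrictDerivAt g (deriv g x) x :=
  (contDiffAt_of_mem g a b hg hx).hasStrictDerivAt (by simp)

theorem invFunOn_contDiffAt (hg : ContDiffOn ℝ ∞ g (Set.Ioo a b))
    (hd : ∀ x ∈ Set.Ioo a b, deriv g x ≠ 0) (hinj : Set.InjOn g (Set.Ioo a b))
    {x : ℝ} (hx : x ∈ Set.Ioo a b) :
    ContDiffAt ℝ ∞ (Function.invFunOn g (Set.Ioo a b)) (g x) := by
  have hc := contDiffAt_of_mem g a b hg hx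
  have hs := hasStrictDerivAt_of_mem g a b hg hx
  have hs' := hs.hasStrictFDerivAt_equiv (hd x hx)
  have hloc : ContDiffAt ℝ ∞ (hc.localInverse hs'.hasFDerivAt (by simp)) (g x) :=
    hc.to_localInverse hs'.hasFDerivAt (by simp)
  refine hloc.congr_of_eventuallyEq ?_
  exact hs'.localInverse_unique (invFunOn_eventually_left g a b hinj hx)

theorem image_Ioo_isOpen (hg : ContDiffOn ℝ ∞ g (Set.Ioo a b))
    (hd : ∀ x ∈ Set.Ioo a b, deriv g x ≠ 0) : IsOpen (g '' Set.Ioo a b) := by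
  rw [isOpen_iff_mem_nhds]
  rintro _ ⟨x, hx, rfl⟩
  have hs := hasStrictDerivAt_of_mem g a b hg hx
  rw [← hs.map_nhds_eq (hd x hx)]
  exact Filter.image_mem_map (isOpen_Ioo.mem_nhds hx)

theorem invFunOn_hasDerivAt (hg : ContDiffOn ℝ ∞ g (Set.Ioo a b))
    (hd : ∀ x ∈ Set.Ioo a b, deriv g x ≠ 0) (hinj : Set.InjOn g (Set.Ioo a b))
    {x : ℝ} (hx : x ∈ Set.Ioo a b) :
    HasDerivAt (Function.invFunOn g (Set.Ioo a b)) (deriv g x)⁻¹ (g x) :=
  ((hasStrictDerivAt_of_mem g a b hg hx).to_local_left_inverse (hd x hx)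
    (invFunOn_eventually_left g a b hinj hx)).hasDerivAt

theorem invFunOn_measurable (hg : ContDiffOn ℝ ∞ g (Set.Ioo a b))
    (hd : ∀ x ∈ Set.Ioo a b, deriv g x ≠ 0) (hinj : Set.InjOn g (Set.Ioo a b)) :
    Measurable (Function.invFunOn g (Set.Ioo a b)) := by
  classical
  have hopen := image_Ioo_isOpen g a b hg hd
  have hcont : ContinuousOn (Function.invFunOn g (Set.Ioo a b)) (g '' Set.Ioo a b) := by
    rintro _ ⟨x, hx, rfl⟩
    exact (invFunOn_contDiffAt g a b hg hd hinj hx).continuousAt.continuousWithinAt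
  have hconst : ∀ y ∉ g '' Set.Ioo a b,
      Function.invFunOn g (Set.Ioo a b) y = Classical.choice (inferInstance : Nonempty ℝ) := by
    intro y hy
    have : ¬ ∃ z, z ∈ Set.Ioo a b ∧ g z = y := fun ⟨z, hz, hzy⟩ => hy ⟨z, hz, hzy⟩
    simp only [Function.invFunOn, dif_neg this]
  refine measurable_of_restrict_of_restrict_compl hopen.measurableSet ?_ ?_
  · exact hcont.domRestrict.measurable
  · have : (g '' Set.Ioo a b)ᶜ.domRestrict (Function.invFunOn g (Set.Ioo a b)) =
        fun _ => Classical.choice (inferInstance : Nonempty ℝ) := by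
      funext y
      exact hconst y y.2
    rw [this]
    exact measurable_const

end Crest.Agent.S0175Aux
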