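import Crest.Agent.S0175Aux.Family
import Crest.Agent.S0175Aux.Inv

/-!
# S0175, task T2: the level functions `tA = Xf⁻¹`, `tB = Yf⁻¹` (smooth inverse functions).
-/

set_option autoImplicit false

namespace Crest.Agent.S0175Aux

open MeasureTheory
open scoped ENNReal ContDiff

/-- General lemma: the `invFunOn` of an injective smooth function with non-vanishing derivative on an
interval is smooth at every point of the image.  (Use `ContDiffAt.to_localInverse` and the fact that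
the local inverse eventually coincides with `invFunOn` by injectivity.) -/
theorem contDiffAt_invFunOn {g : ℝ → ℝ} {a b : ℝ} (hinj : Set.InjOn g (Set.Ioo a b))
    (hsm : ∀ t ∈ Set.Ioo a b, ContDiffAt ℝ ∞ g t) (hd : ∀ t ∈ Set.Ioo a b, deriv g t ≠ 0)
    {t : ℝ} (ht : t ∈ Set.Ioo a b) :
    ContDiffAt ℝ ∞ (Function.invFunOn g (Set.Ioo a b)) (g t) :=
  invFunOn_contDiffAt g a b (fun x hx => (hsm x hx).contDiffWithinAt) hd hinj ht

variable {p t : ℝ} {P : Par}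

lemma tA_Xf (hp : 1 < p) (ht : t ∈ II p) : tA p (Xf p t) = t :=
  invFunOn_left (Xf p) _ _ (strictMonoOn_Xf hp).injOn ht

lemma tB_Yf (hp : 1 < p) (ht : t ∈ II p) : tB p (Yf p t) = t :=
  invFunOn_left (Yf p) _ _ (strictAntiOn_Yf hp).injOn ht

lemma contDiffAt_tA (hp : 1 < p) (ht : t ∈ II p) : ContDiffAt ℝ ∞ (tA p) (Xf p t) :=
  contDiffAt_invFunOn (strictMonoOn_Xf hp).injOn (fun _ hx => contDiffAt_Xf hp hx)
    (fun _ hx => (deriv_Xf_pos hp hx).ne') ht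

lemma contDiffAt_tB (hp : 1 < p) (ht : t ∈ II p) : ContDiffAt ℝ ∞ (tB p) (Yf p t) :=
  contDiffAt_invFunOn (strictAntiOn_Yf hp).injOn (fun _ hx => contDiffAt_Yf hp hx)
    (fun _ hx => (deriv_Yf_neg hp hx).ne) ht

lemma hasDerivAt_tA (hp : 1 < p) (ht : t ∈ II p) :
    HasDerivAt (tA p) (deriv (Xf p) t)⁻¹ (Xf p t) :=
  invFunOn_hasDerivAt (Xf p) _ _ (fun _ hx => (contDiffAt_Xf hp hx).contDiffWithinAt)
    (fun _ hx => (deriv_Xf_pos hp hx).ne') (strictMonoOn_Xf hp).injOn ht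

/-- continuity of `Xf` on the closed parameter interval -/
lemma Inverse.continuousOn_Xf (hG : Good P) : ContinuousOn (Xf P.p) (Set.Icc P.t₁ P.t₂) :=
  fun _ hx => (contDiffAt_Xf hG.hp (hG.mem_II hx)).continuousAt.continuousWithinAt

/-- continuity of `Yf` on the closed parameter interval -/
lemma Inverse.continuousOn_Yf (hG : Good P) : ContinuousOn (Yf P.p) (Set.Icc P.t₁ P.t₂) :=
  fun _ hx => (contDiffAt_Yf hG.hp (hG.mem_II hx)).continuousAt.continuousWithinAt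

lemma tA_mem' (hG : Good P) {x : ℝ} (hx : x ∈ Set.Icc P.X₁ P.X₂) :
    tA P.p x ∈ Set.Icc P.t₁ P.t₂ ∧ Xf P.p (tA P.p x) = x := by
  obtain ⟨t, ht, rfl⟩ := intermediate_value_Icc hG.hlt.le (Inverse.continuousOn_Xf hG) hx
  rw [tA_Xf hG.hp (hG.mem_II ht)]
  exact ⟨ht, rfl⟩

lemma Inverse.tB_mem' (hG : Good P) {y : ℝ} (hy : y ∈ Set.Icc P.Y₂ P.Y₁) :
    tB P.p y ∈ Set.Icc P.t₁ P.t₂ ∧ Yf P.p (tB P.p y) = y := by
  obtain ⟨t, ht, rfl⟩ := intermediate_value_Icc' hG.hlt.le (Inverse.continuousOn_Yf hG) hy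
  rw [tB_Yf hG.hp (hG.mem_II ht)]
  exact ⟨ht, rfl⟩

lemma Xf_tA (hG : Good P) {x : ℝ} (hx : x ∈ Set.Ioo P.X₁ P.X₂) : Xf P.p (tA P.p x) = x :=
  (tA_mem' hG (Set.Ioo_subset_Icc_self hx)).2

lemma tA_mem (hG : Good P) {x : ℝ} (hx : x ∈ Set.Ioo P.X₁ P.X₂) :
    tA P.p x ∈ Set.Ioo P.t₁ P.t₂ := by
  obtain ⟨h1, h2⟩ := tA_mem' hG (Set.Ioo_subset_Icc_self hx)
  refine ⟨lt_of_le_of_ne h1.1 ?_, lt_of_le_of_ne h1.2 ?_⟩
  · intro h
    rw [← h] at h2
    exact hx.1.ne h2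
  · intro h
    rw [h] at h2
    exact hx.2.ne h2.symm

lemma Yf_tB (hG : Good P) {y : ℝ} (hy : y ∈ Set.Ioo P.Y₂ P.Y₁) : Yf P.p (tB P.p y) = y :=
  (Inverse.tB_mem' hG (Set.Ioo_subset_Icc_self hy)).2

lemma tB_mem (hG : Good P) {y : ℝ} (hy : y ∈ Set.Ioo P.Y₂ P.Y₁) :
    tB P.p y ∈ Set.Ioo P.t₁ P.t₂ := by
  obtain ⟨h1, h2⟩ := Inverse.tB_mem' hG (Set.Ioo_subset_Icc_self hy)
  refine ⟨lt_of_le_of_ne h1.1 ?_, lt_of_le_of_ne h1.2 ?_⟩
  · intro h
    rw [← h] at h2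
    exact hy.2.ne h2.symm
  · intro h
    rw [h] at h2
    exact hy.1.ne h2

/-- also at the closed end points (needed for the smoothness of `rA` near the boundary) -/
lemma contDiffAt_tA' (hG : Good P) {x : ℝ} (hx : x ∈ Set.Icc P.X₁ P.X₂) :
    ContDiffAt ℝ ∞ (tA P.p) x := by
  obtain ⟨h1, h2⟩ := tA_mem' hG hx
  have := contDiffAt_tA hG.hp (hG.mem_II h1)
  rwa [h2] at this

lemma continuousOn_tA (hG : Good P) : ContinuousOn (tA P.p) (Set.Ioo P.X₁ P.X₂) :=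
  fun _ hx => (contDiffAt_tA' hG (Set.Ioo_subset_Icc_self hx)).continuousAt.continuousWithinAt

lemma continuousOn_tB (hG : Good P) : ContinuousOn (tB P.p) (Set.Ioo P.Y₂ P.Y₁) := by
  intro y hy
  obtain ⟨h1, h2⟩ := Inverse.tB_mem' hG (Set.Ioo_subset_Icc_self hy)
  have := contDiffAt_tB hG.hp (hG.mem_II h1)
  rw [h2] at this
  exact this.continuousAt.continuousWithinAt

end Crest.Agent.S0175Aux
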