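import Crest.Agent.S0175Aux.CLBasic
import Crest.Agent.S0175Aux.Inverse

/-!
# S0175, task T7a: `Sp`, `Sm` in the coordinates `Phi`.

`Sp (Phi X φ τ).fst = ξ e^{iφ} (-gam + i om/ξ) = e^{iφ} (-gam ξ + i om)`, `ξ = sqrt (X - ‖τ‖^2) > 0`, and
`|-gam ξ + i om|^2 = gam^2 (X - ‖τ‖^2) + om^2 = Yf t - ‖gam τ‖^2` (`Yf_eq`, `Xf_tA`).
-/

set_option autoImplicit false

namespace Crest.Agent.S0175Aux

open MeasureTheory Crest.AnalysisR.OT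
open scoped ENNReal ContDiff

variable {k : ℕ} {P : Par}

lemma Phi_mem_Aset {X : ℝ} (hX : X ∈ Set.Ioo P.X₁ P.X₂) {τ : F k} (hτ : ‖τ‖ ^ 2 < X) (φ : ℝ) :
    Phi X φ τ ∈ Aset P k := by
  refine ⟨?_, Phi_fst_ne φ hτ⟩
  rw [Phi_norm_sq φ hτ.le]
  exact hX

namespace MapS1

lemma tri_Phi (g w : ℝ) {X : ℝ} {τ : F k} (hτ : ‖τ‖ ^ 2 < X) (φ : ℝ) :
    tri g w (Phi X φ τ) = Phi (g ^ 2 * X + w ^ 2)
      (φ + Complex.arg (((-g * Real.sqrt (X - ‖τ‖ ^ 2) : ℝ) : ℂ) + ((w : ℝ) : ℂ) * Complex.I))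
      ((-g) • τ) := by
  set ξ := Real.sqrt (X - ‖τ‖ ^ 2) with hξ
  have hξ0 : 0 < ξ := Real.sqrt_pos.mpr (by linarith)
  have hξ2 : ξ ^ 2 = X - ‖τ‖ ^ 2 := Real.sq_sqrt (by linarith)
  set ζ : ℂ := ((-g * ξ : ℝ) : ℂ) + ((w : ℝ) : ℂ) * Complex.I with hζ
  have hn : ‖(Phi X φ τ).fst‖ = ξ := Phi_norm_fst φ hτ.le
  have hfst : (Phi X φ τ).fst = ((ξ : ℝ) : ℂ) * Complex.exp ((φ : ℂ) * Complex.I) := rfl
  have hsnd : (Phi X φ τ).snd = τ := rfl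
  have hnorm : Real.sqrt (g ^ 2 * X + w ^ 2 - ‖(-g) • τ‖ ^ 2) = ‖ζ‖ := by
    rw [hζ, Complex.norm_add_mul_I]
    congr 1
    rw [norm_smul, mul_pow, Real.norm_eq_abs, abs_neg, sq_abs]
    have : (-g * ξ) ^ 2 = g ^ 2 * ξ ^ 2 := by ring
    rw [this, hξ2]
    ring
  unfold tri
  rw [hn, hsnd, hfst]
  unfold Phi
  rw [hnorm]
  congr 2
  have h1 : (((φ + Complex.arg ζ : ℝ) : ℂ)) * Complex.I
      = (φ : ℂ) * Complex.I + (Complex.arg ζ : ℂ) * Complex.I := by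
    push_cast; ring
  rw [h1, Complex.exp_add]
  have h2 : (‖ζ‖ : ℂ) * Complex.exp ((Complex.arg ζ : ℂ) * Complex.I) = ζ :=
    Complex.norm_mul_exp_arg_mul_I ζ
  have h3 : (‖ζ‖ : ℂ) * (Complex.exp ((φ : ℂ) * Complex.I)
      * Complex.exp ((Complex.arg ζ : ℂ) * Complex.I)) = Complex.exp ((φ : ℂ) * Complex.I) * ζ := by
    calc (‖ζ‖ : ℂ) * (Complex.exp ((φ : ℂ) * Complex.I)
          * Complex.exp ((Complex.arg ζ : ℂ) * Complex.I))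
        = Complex.exp ((φ : ℂ) * Complex.I)
          * ((‖ζ‖ : ℂ) * Complex.exp ((Complex.arg ζ : ℂ) * Complex.I)) := by ring
      _ = Complex.exp ((φ : ℂ) * Complex.I) * ζ := by rw [h2]
  rw [h3, hζ]
  have hξc : (ξ : ℂ) ≠ 0 := by exact_mod_cast hξ0.ne'
  push_cast
  field_simp

end MapS1

lemma Sp_Phi (hG : Good P) {X : ℝ} (hX : X ∈ Set.Ioo P.X₁ P.X₂) {τ : F k} (hτ : ‖τ‖ ^ 2 < X)
    (φ : ℝ) :
    Sp P (Phi X φ τ) = Phi (Yf P.p (tA P.p X))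
      (φ + Complex.arg (((-(gam P.p (tA P.p X)) * Real.sqrt (X - ‖τ‖ ^ 2) : ℝ) : ℂ)
        + ((om P.p (tA P.p X) : ℝ) : ℂ) * Complex.I))
      ((-(gam P.p (tA P.p X))) • τ) := by
  have hmem := Phi_mem_Aset (P := P) hX hτ φ
  have hII : tA P.p X ∈ II P.p := hG.mem_II (Set.Ioo_subset_Icc_self (tA_mem hG hX))
  unfold Sp
  rw [if_pos hmem, Phi_norm_sq φ hτ.le, MapS1.tri_Phi _ _ hτ φ, Yf_eq hII, Xf_tA hG hX]

lemma Sm_Phi (hG : Good P) {X : ℝ} (hX : X ∈ Set.Ioo P.X₁ P.X₂) {τ : F k} (hτ : ‖τ‖ ^ 2 < X)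
    (φ : ℝ) :
    Sm P (Phi X φ τ) = Phi (Yf P.p (tA P.p X))
      (φ + Complex.arg (((-(gam P.p (tA P.p X)) * Real.sqrt (X - ‖τ‖ ^ 2) : ℝ) : ℂ)
        + ((-(om P.p (tA P.p X)) : ℝ) : ℂ) * Complex.I))
      ((-(gam P.p (tA P.p X))) • τ) := by
  have hmem := Phi_mem_Aset (P := P) hX hτ φ
  have hII : tA P.p X ∈ II P.p := hG.mem_II (Set.Ioo_subset_Icc_self (tA_mem hG hX))
  unfold Sm
  rw [if_pos hmem, Phi_norm_sq φ hτ.le, MapS1.tri_Phi _ _ hτ φ, Yf_eq hII, Xf_tA hG hX, neg_sq]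

end Crest.Agent.S0175Aux
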