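import Crest.Agent.S0175Aux.Inverse

/-!
# S0175, task T7b: the two substitution lemmas used for `S₊ # mu_A = mu_B / 2`.
-/

set_option autoImplicit false

namespace Crest.Agent.S0175Aux

open MeasureTheory Crest.AnalysisR.OT
open scoped ENNReal ContDiff

variable {k : ℕ} {P : Par}

/-- linear scaling in the passive variable (`finrank ℝ (F k) = k`;
`Measure.addHaar_smul`, `MeasureTheory.Measure.map_addHaar_smul`, `lintegral_map_equiv`, ...) -/
theorem lintegral_comp_neg_smul {c : ℝ} (hc : 0 < c) (G : F k → ℝ≥0∞) (hG : Measurable G) :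
    ENNReal.ofReal (c ^ k) * ∫⁻ τ : F k, G ((-c) • τ) = ∫⁻ τ : F k, G τ := by
  have hc' : (-c) ≠ 0 := neg_ne_zero.2 hc.ne'
  have hmap := Measure.map_addHaar_smul (volume : Measure (F k)) hc'
  have hmeas : Measurable (fun τ : F k => (-c) • τ) := measurable_const_smul _
  have h1 : ∫⁻ τ : F k, G ((-c) • τ) = ∫⁻ τ, G τ ∂(Measure.map (fun τ : F k => (-c) • τ) volume) :=
    (lintegral_map hG hmeas).symm
  rw [h1]
  have hmap' : Measure.map (fun τ : F k => (-c) • τ) volume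
      = ENNReal.ofReal (|((-c) ^ Module.finrank ℝ (F k))⁻¹|) • (volume : Measure (F k)) := hmap
  rw [hmap', lintegral_smul_measure, smul_eq_mul, ← mul_assoc, ← ENNReal.ofReal_mul (by positivity)]
  have hfin : Module.finrank ℝ (F k) = k := by simp
  rw [hfin, abs_inv, abs_pow, abs_neg, abs_of_pos hc, mul_inv_cancel₀ (by positivity)]
  simp

namespace MapS2

lemma image_Xf (hG : Good P) : Xf P.p '' Set.Ioo P.t₁ P.t₂ = Set.Ioo P.X₁ P.X₂ := by
  have hp := hG.hp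
  have hmono := strictMonoOn_Xf hp
  ext X
  constructor
  · rintro ⟨t, ht, rfl⟩
    have htI : t ∈ II P.p := hG.mem_II ⟨ht.1.le, ht.2.le⟩
    exact ⟨hmono hG.ht₁ htI ht.1, hmono htI hG.ht₂ ht.2⟩
  · intro hX
    exact ⟨tA P.p X, tA_mem hG hX, Xf_tA hG hX⟩

lemma image_Yf (hG : Good P) : Yf P.p '' Set.Ioo P.t₁ P.t₂ = Set.Ioo P.Y₂ P.Y₁ := by
  have hp := hG.hp
  have hanti := strictAntiOn_Yf hp
  ext Y
  constructor
  · rintro ⟨t, ht, rfl⟩
    have htI : t ∈ II P.p := hG.mem_II ⟨ht.1.le, ht.2.le⟩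
    exact ⟨hanti htI hG.ht₂ ht.2, hanti hG.ht₁ htI ht.1⟩
  · intro hY
    exact ⟨tB P.p Y, tB_mem hG hY, Yf_tB hG hY⟩

end MapS2

/-- the substitution `Y = Yf (tA X)`: first `X = Xf t` on `Ioo t₁ t₂` (image `Ioo X₁ X₂`), then `Y = Yf t`
(image `Ioo Y₂ Y₁`), both with `MeasureTheory.lintegral_image_eq_lintegral_abs_deriv_mul`. -/
theorem lintegral_subst (hG : Good P) (G : ℝ → ℝ≥0∞) (hGm : Measurable G) :
    ∫⁻ X in Set.Ioo P.X₁ P.X₂,
        ENNReal.ofReal (-(deriv (Yf P.p) (tA P.p X)) / deriv (Xf P.p) (tA P.p X)) *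
          G (Yf P.p (tA P.p X)) =
      ∫⁻ Y in Set.Ioo P.Y₂ P.Y₁, G Y := by
  have hp := hG.hp
  have hII : ∀ t ∈ Set.Ioo P.t₁ P.t₂, t ∈ II P.p := fun t ht => hG.mem_II ⟨ht.1.le, ht.2.le⟩
  have hsub : Set.Ioo P.t₁ P.t₂ ⊆ II P.p := hII
  have hX' : ∀ t ∈ Set.Ioo P.t₁ P.t₂,
      HasDerivWithinAt (Xf P.p) (deriv (Xf P.p) t) (Set.Ioo P.t₁ P.t₂) t := fun t ht =>
    ((contDiffAt_Xf hp (hII t ht)).differentiableAt (by simp)).hasDerivAt.hasDerivWithinAt
  have hY' : ∀ t ∈ Set.Ioo P.t₁ P.t₂,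
      HasDerivWithinAt (Yf P.p) (deriv (Yf P.p) t) (Set.Ioo P.t₁ P.t₂) t := fun t ht =>
    ((contDiffAt_Yf hp (hII t ht)).differentiableAt (by simp)).hasDerivAt.hasDerivWithinAt
  rw [← MapS2.image_Xf hG, ← MapS2.image_Yf hG,
    lintegral_image_eq_lintegral_abs_deriv_mul measurableSet_Ioo hX'
      ((strictMonoOn_Xf hp).injOn.mono hsub),
    lintegral_image_eq_lintegral_abs_deriv_mul measurableSet_Ioo hY'
      ((strictAntiOn_Yf hp).injOn.mono hsub)]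
  refine setLIntegral_congr_fun measurableSet_Ioo (fun t ht => ?_)
  have htI := hII t ht
  have h1 := deriv_Xf_pos hp htI
  have h2 := deriv_Yf_neg hp htI
  simp only [tA_Xf hp htI]
  rw [← mul_assoc, ← ENNReal.ofReal_mul (abs_nonneg _), abs_of_pos h1, abs_of_neg h2,
    mul_div_cancel₀ _ h1.ne']

end Crest.Agent.S0175Aux
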