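import Crest.Agent.S0175Aux.CL
import Crest.Agent.S0175Aux.MapS1
import Crest.Agent.S0175Aux.MapS2
import Crest.Agent.S0175Aux.Meas

/-!
# S0175, task T7c: `S₊ # mu_A = S₋ # mu_A = mu_B / 2`.

In the coordinates of `CL.lean`, for `X ∈ (X₁,X₂)`, `t = tA X`, `‖τ‖^2 < X`:
`Sp (Phi X φ τ) = Phi (Yf t) (φ + χ) (-(gam t) • τ)` where `χ = arg (-(gam t) ξ + om t * I)`,
`ξ = sqrt (X - ‖τ‖^2)` (for `Sm`: `χ = arg (-(gam t) ξ - om t * I)`).
With `lintegral_weight_Phi`, `lintegral_Phi_add`: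
`∫ f(Sp a) rhoA(a) da = ∫_X ∫_τ (1/2) cN^2 n0(Yf t)^2 jac(t) H0(gam t • τ)^2 Fbar(Yf t, -gam t • τ)`,
`Fbar(Y,τ') = ∫_φ f(Phi Y φ τ')`.  Substitute `τ' = -gam t • τ` (factor `gam^(-k)`,
`Measure.addHaar_smul`/`lintegral_comp_smul`-type lemmas; `finrank (F k) = k`), then `X = Xf t`
(`lintegral_image_eq_lintegral_abs_deriv_mul` on `Ioo t₁ t₂`) and `Y = Yf t` (same lemma), using
`jac = (-Yf'/Xf') gam^k / 2`.
The weight of `rhoA` vanishes unless `‖τ‖^2 < X` by `Good.dl2_le`, that of `rhoB` by `Good.dl2_lt_Y₂`.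
-/

set_option autoImplicit false

namespace Crest.Agent.S0175Aux

open MeasureTheory Crest.AnalysisR.OT
open scoped ENNReal ContDiff

variable {k : ℕ} {P : Par}

namespace MapSAux

/-- real weight of `rhoB` in the coordinates `(Y, τ)` -/
noncomputable def wBr (P : Par) (Y : ℝ) (τ : F k) : ℝ := (P.cN * (n0 P Y * H0 P τ)) ^ 2

/-- weight of `rhoB` in the coordinates `(Y, τ)` -/
noncomputable def wB (P : Par) (Y : ℝ) (τ : F k) : ℝ≥0∞ := ENNReal.ofReal (wBr P Y τ)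

open scoped Classical in
/-- weight of `rhoA` in the coordinates `(X, τ)` -/
noncomputable def wA (P : Par) (X : ℝ) (τ : F k) : ℝ≥0∞ :=
  if X ∈ Set.Ioo P.X₁ P.X₂ then
    ENNReal.ofReal (jac P.p k (tA P.p X) *
      wBr P (Yf P.p (tA P.p X)) ((-(gam P.p (tA P.p X))) • τ))
  else 0

/-- angular average -/
noncomputable def Fbar (f : V k → ℝ≥0∞) (Y : ℝ) (τ : F k) : ℝ≥0∞ :=
  ∫⁻ φ in Set.Ioo (-Real.pi) Real.pi, f (Phi Y φ τ)

/-- the radial function -/
noncomputable def GG (P : Par) (f : V k → ℝ≥0∞) (Y : ℝ) : ℝ≥0∞ :=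
  2⁻¹ * (2⁻¹ * ∫⁻ τ : F k, wB P Y τ * Fbar f Y τ)

lemma continuous_n0 (P : Par) : Continuous (n0 P) := by
  unfold n0
  exact (Real.smoothTransition.continuous.comp (by fun_prop)).mul
    (Real.smoothTransition.continuous.comp (by fun_prop))

lemma continuous_H0 (P : Par) : Continuous (H0 P : F k → ℝ) := by
  unfold H0
  exact Real.smoothTransition.continuous.comp (by fun_prop)

lemma continuous_wBr (P : Par) : Continuous (fun q : ℝ × F k => wBr P q.1 q.2) := by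
  unfold wBr
  exact (continuous_const.mul (((continuous_n0 P).comp continuous_fst).mul
    ((continuous_H0 P).comp continuous_snd))).pow 2

lemma measurable_wB (P : Par) : Measurable (fun q : ℝ × F k => wB P q.1 q.2) :=
  (continuous_wBr P).measurable.ennreal_ofReal

lemma n0_zero {Y : ℝ} (h : Y ∉ Set.Ioo P.Y₂ P.Y₁) : n0 P Y = 0 := by
  unfold n0
  by_cases h1 : P.Y₂ < Y
  · have h2 : P.Y₁ ≤ Y := by
      by_contra h3
      exact h ⟨h1, not_le.mp h3⟩
    rw [Real.smoothTransition.zero_of_nonpos (by linarith : P.Y₁ - Y ≤ 0), mul_zero]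
  · rw [Real.smoothTransition.zero_of_nonpos (by linarith : Y - P.Y₂ ≤ 0), zero_mul]

lemma wB_zero' {Y : ℝ} (h : Y ∉ Set.Ioo P.Y₂ P.Y₁) (τ : F k) : wB P Y τ = 0 := by
  unfold wB wBr
  rw [n0_zero h]
  simp

lemma H0_zero {τ : F k} (h : P.dl2 ≤ ‖τ‖ ^ 2) : H0 P τ = 0 := by
  unfold H0
  exact Real.smoothTransition.zero_of_nonpos (by linarith)

lemma wB_zero (hG : Good P) (Y : ℝ) (τ : F k) (h : Y ≤ ‖τ‖ ^ 2) : wB P Y τ = 0 := by
  by_cases hY : Y ∈ Set.Ioo P.Y₂ P.Y₁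
  · unfold wB wBr
    have := hG.dl2_lt_Y₂
    rw [H0_zero (by linarith [hY.1])]
    simp
  · exact wB_zero' hY τ

lemma tA_mem_II (hG : Good P) {X : ℝ} (hX : X ∈ Set.Ioo P.X₁ P.X₂) : tA P.p X ∈ II P.p :=
  hG.mem_II (Set.Ioo_subset_Icc_self (tA_mem hG hX))

lemma wA_zero (hG : Good P) (X : ℝ) (τ : F k) (h : X ≤ ‖τ‖ ^ 2) : wA P X τ = 0 := by
  unfold wA
  split_ifs with hX
  · have ht := tA_mem hG hX
    have h1 := hG.dl2_le (Set.Ioo_subset_Icc_self ht)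
    have hg := gam_pos (tA_mem_II hG hX)
    have h2 : P.dl2 ≤ ‖(-(gam P.p (tA P.p X))) • τ‖ ^ 2 := by
      rw [norm_smul, mul_pow, norm_neg, Real.norm_eq_abs, sq_abs]
      have : (gam P.p (tA P.p X)) ^ 2 * P.X₁ ≤ (gam P.p (tA P.p X)) ^ 2 * ‖τ‖ ^ 2 :=
        mul_le_mul_of_nonneg_left (by linarith [hX.1]) (by positivity)
      linarith
    unfold wBr
    rw [H0_zero h2]
    simp
  · rfl

lemma measurable_wA (hG : Good P) : Measurable (fun q : ℝ × F k => wA P q.1 q.2) := by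
  classical
  have hp := hG.hp
  set s : Set (ℝ × F k) := {q | q.1 ∈ Set.Ioo P.X₁ P.X₂} with hs
  have ms : MeasurableSet s := measurable_fst measurableSet_Ioo
  have hT : ContinuousOn (fun q : ℝ × F k => tA P.p q.1) s :=
    (continuousOn_tA hG).comp continuousOn_fst (fun q hq => hq)
  have hmaps : Set.MapsTo (fun q : ℝ × F k => tA P.p q.1) s (II P.p) :=
    fun q hq => tA_mem_II hG hq
  have hjac : ContinuousOn (jac P.p k) (II P.p) :=
    fun t ht => (contDiffAt_jac hp k ht).continuousAt.continuousWithinAt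
  have hYf : ContinuousOn (Yf P.p) (II P.p) :=
    fun t ht => (contDiffAt_Yf hp ht).continuousAt.continuousWithinAt
  have hgam : ContinuousOn (gam P.p) (II P.p) :=
    fun t ht => (contDiffAt_gam ht).continuousAt.continuousWithinAt
  have h1 : ContinuousOn (fun q : ℝ × F k => jac P.p k (tA P.p q.1)) s := hjac.comp hT hmaps
  have h2 : ContinuousOn (fun q : ℝ × F k => Yf P.p (tA P.p q.1)) s := hYf.comp hT hmaps
  have h3 : ContinuousOn (fun q : ℝ × F k => gam P.p (tA P.p q.1)) s := hgam.comp hT hmaps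
  have h4b : ContinuousOn (fun q : ℝ × F k => (-(gam P.p (tA P.p q.1))) • q.2) s :=
    h3.neg.smul continuousOn_snd
  have h4a : ContinuousOn (fun q : ℝ × F k =>
      ((Yf P.p (tA P.p q.1), (-(gam P.p (tA P.p q.1))) • q.2) : ℝ × F k)) s :=
    h2.prodMk h4b
  have h4c := (continuous_wBr (k := k) P).comp_continuousOn h4a
  have h4 : ContinuousOn (fun q : ℝ × F k =>
      wBr P (Yf P.p (tA P.p q.1)) ((-(gam P.p (tA P.p q.1))) • q.2)) s := h4c
  have h5 := (h1.mul h4).measurable_piecewise (g := fun _ => (0 : ℝ)) continuousOn_const ms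
  have h6 := h5.ennreal_ofReal
  convert h6 using 1
  funext q
  unfold wA
  by_cases hq : q ∈ s
  · have hq' : q.1 ∈ Set.Ioo P.X₁ P.X₂ := hq
    rw [Set.piecewise_eq_of_mem _ _ _ hq, if_pos hq']
    rfl
  · have hq' : q.1 ∉ Set.Ioo P.X₁ P.X₂ := hq
    rw [Set.piecewise_eq_of_notMem _ _ _ hq, if_neg hq', ENNReal.ofReal_zero]

lemma rhoB_eq (a : V k) : ENNReal.ofReal (rhoB P a) = wB P (‖a‖ ^ 2) a.snd := rfl

lemma H0_neg (g : ℝ) (τ : F k) : H0 P ((-g) • τ) = H0 P (g • τ) := by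
  unfold H0
  rw [neg_smul, norm_neg]

lemma rhoA_eq (hG : Good P) (a : V k) : ENNReal.ofReal (rhoA P a) = wA P (‖a‖ ^ 2) a.snd := by
  unfold rhoA rA wA
  split_ifs with hX
  · congr 1
    have hj := jac_pos hG.hp k (tA_mem_II hG hX)
    unfold wBr
    rw [H0_neg]
    have hs := Real.sq_sqrt hj.le
    calc _ = (Real.sqrt (jac P.p k (tA P.p (‖a‖ ^ 2)))) ^ 2 *
          (P.cN * (n0 P (Yf P.p (tA P.p (‖a‖ ^ 2))) *
            H0 P (gam P.p (tA P.p (‖a‖ ^ 2)) • a.snd))) ^ 2 := by ring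
      _ = _ := by rw [hs]
  · simp

lemma measurable_Fbar {f : V k → ℝ≥0∞} (hf : Measurable f) :
    Measurable (fun q : ℝ × F k => Fbar f q.1 q.2) := by
  unfold Fbar
  have h1 : Measurable (fun r : (ℝ × F k) × ℝ => f (Phi r.1.1 r.2 r.1.2)) := by
    have h2 : Measurable (fun r : (ℝ × F k) × ℝ => ((r.1.1, r.2, r.1.2) : ℝ × ℝ × F k)) := by
      fun_prop
    exact hf.comp (measurable_Phi.comp h2)
  exact h1.lintegral_prod_right'

lemma measurable_GG (P : Par) {f : V k → ℝ≥0∞} (hf : Measurable f) : Measurable (GG P f) := by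
  unfold GG
  have h1 : Measurable (fun q : ℝ × F k => wB P q.1 q.2 * Fbar f q.1 q.2) :=
    (measurable_wB P).mul (measurable_Fbar hf)
  exact (h1.lintegral_prod_right'.const_mul _).const_mul _

lemma GG_zero {f : V k → ℝ≥0∞} {Y : ℝ} (h : Y ∉ Set.Ioo P.Y₂ P.Y₁) : GG P f Y = 0 := by
  unfold GG
  simp [wB_zero' h]

lemma lhs_eq (hG : Good P) (S : V k → V k) (hS : Measurable S) (χ : ℝ → F k → ℝ)
    (h : ∀ X ∈ Set.Ioo P.X₁ P.X₂, ∀ τ : F k, ‖τ‖ ^ 2 < X → ∀ φ : ℝ,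
      S (Phi X φ τ) = Phi (Yf P.p (tA P.p X)) (φ + χ X τ) ((-(gam P.p (tA P.p X))) • τ))
    (f : V k → ℝ≥0∞) (hf : Measurable f) :
    ∫⁻ a, ENNReal.ofReal (rhoA P a) * f (S a) =
      ∫⁻ X : ℝ, ∫⁻ τ : F k, (2⁻¹ : ℝ≥0∞) * wA P X τ *
        Fbar f (Yf P.p (tA P.p X)) ((-(gam P.p (tA P.p X))) • τ) := by
  simp_rw [rhoA_eq hG]
  rw [lintegral_weight_Phi (fun a => f (S a)) (hf.comp hS) (wA P) (measurable_wA hG) (wA_zero hG)]
  refine lintegral_congr fun X => lintegral_congr fun τ => ?_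
  by_cases hX : X ∈ Set.Ioo P.X₁ P.X₂
  · by_cases hτ : ‖τ‖ ^ 2 < X
    · congr 1
      simp_rw [h X hX τ hτ]
      exact lintegral_Phi_add f hf _ _ _
    · rw [wA_zero hG X τ (not_lt.mp hτ)]
      simp
  · have : wA P X τ = 0 := if_neg hX
    rw [this]
    simp

lemma inner_eq (hG : Good P) (f : V k → ℝ≥0∞) (hf : Measurable f) {X : ℝ}
    (hX : X ∈ Set.Ioo P.X₁ P.X₂) :
    ∫⁻ τ : F k, (2⁻¹ : ℝ≥0∞) * wA P X τ *
        Fbar f (Yf P.p (tA P.p X)) ((-(gam P.p (tA P.p X))) • τ) =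
      ENNReal.ofReal (-(deriv (Yf P.p) (tA P.p X)) / deriv (Xf P.p) (tA P.p X)) *
        GG P f (Yf P.p (tA P.p X)) := by
  have ht := tA_mem_II hG hX
  have hp := hG.hp
  set t := tA P.p X with htdef
  have hg := gam_pos ht
  have hj := jac_pos hp k ht
  have hD : 0 ≤ -(deriv (Yf P.p) t) / deriv (Xf P.p) t :=
    div_nonneg (by linarith [deriv_Yf_neg hp ht]) (deriv_Xf_pos hp ht).le
  have hwA : ∀ τ : F k, wA P X τ =
      ENNReal.ofReal (jac P.p k t) * wB P (Yf P.p t) ((-(gam P.p t)) • τ) := by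
    intro τ
    unfold wA wB
    rw [if_pos hX, ENNReal.ofReal_mul hj.le]
  have hjac : ENNReal.ofReal (jac P.p k t) =
      ENNReal.ofReal (-(deriv (Yf P.p) t) / deriv (Xf P.p) t) *
        ENNReal.ofReal ((gam P.p t) ^ k) * 2⁻¹ := by
    unfold jac
    rw [ENNReal.ofReal_div_of_pos (by norm_num : (0:ℝ) < 2), ENNReal.ofReal_mul hD,
      ENNReal.div_eq_inv_mul, mul_comm]
    congr 2
    simp
  have hGm0 := ((measurable_wB (k := k) P).mul (measurable_Fbar hf)).comp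
    (measurable_prodMk_left (x := Yf P.p t) (β := F k))
  have hGm : Measurable (fun τ : F k => wB P (Yf P.p t) τ * Fbar f (Yf P.p t) τ) := hGm0
  have key := lintegral_comp_neg_smul hg
    (fun τ : F k => wB P (Yf P.p t) τ * Fbar f (Yf P.p t) τ) hGm
  unfold GG
  rw [← key]
  simp_rw [hwA]
  have : ∀ τ : F k, (2⁻¹ : ℝ≥0∞) * (ENNReal.ofReal (jac P.p k t) *
      wB P (Yf P.p t) ((-(gam P.p t)) • τ)) * Fbar f (Yf P.p t) ((-(gam P.p t)) • τ) =
      ((2⁻¹ : ℝ≥0∞) * ENNReal.ofReal (jac P.p k t)) *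
      (wB P (Yf P.p t) ((-(gam P.p t)) • τ) * Fbar f (Yf P.p t) ((-(gam P.p t)) • τ)) := by
    intro τ
    ring
  simp_rw [this]
  rw [lintegral_const_mul' _ _ (ENNReal.mul_ne_top (by simp) ENNReal.ofReal_ne_top), hjac]
  ring

theorem map_aux (hG : Good P) (S : V k → V k) (hS : Measurable S) (χ : ℝ → F k → ℝ)
    (h : ∀ X ∈ Set.Ioo P.X₁ P.X₂, ∀ τ : F k, ‖τ‖ ^ 2 < X → ∀ φ : ℝ,
      S (Phi X φ τ) = Phi (Yf P.p (tA P.p X)) (φ + χ X τ) ((-(gam P.p (tA P.p X))) • τ)) :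
    (muA P k).map S = (2⁻¹ : ℝ≥0∞) • muB P k := by
  have mnorm : Measurable (fun a : V k => ((‖a‖ ^ 2, a.snd) : ℝ × F k)) := by
    have h1 : Measurable (fun a : V k => a.snd) := by fun_prop
    exact (measurable_norm.pow_const 2).prodMk h1
  have mA : Measurable (fun a : V k => ENNReal.ofReal (rhoA P a)) := by
    simp_rw [rhoA_eq hG]
    have h0 := (measurable_wA (k := k) hG).comp mnorm
    exact h0
  have mB : Measurable (fun a : V k => ENNReal.ofReal (rhoB P a)) := by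
    simp_rw [rhoB_eq]
    have h0 := (measurable_wB (k := k) P).comp mnorm
    exact h0
  refine Measure.ext_of_lintegral _ fun f hf => ?_
  rw [lintegral_map hf hS, lintegral_smul_measure]
  unfold muA muB measOfDensity
  have mfS : Measurable (fun a => f (S a)) := hf.comp hS
  rw [lintegral_withDensity_eq_lintegral_mul _ mA mfS,
    lintegral_withDensity_eq_lintegral_mul _ mB hf]
  simp only [Pi.mul_apply, smul_eq_mul]
  rw [lhs_eq hG S hS χ h f hf]
  -- restrict to the interval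
  have e1 : ∫⁻ X : ℝ, ∫⁻ τ : F k, (2⁻¹ : ℝ≥0∞) * wA P X τ *
        Fbar f (Yf P.p (tA P.p X)) ((-(gam P.p (tA P.p X))) • τ) =
      ∫⁻ X in Set.Ioo P.X₁ P.X₂, ∫⁻ τ : F k, (2⁻¹ : ℝ≥0∞) * wA P X τ *
        Fbar f (Yf P.p (tA P.p X)) ((-(gam P.p (tA P.p X))) • τ) := by
    rw [← lintegral_indicator measurableSet_Ioo]
    refine lintegral_congr fun X => ?_
    by_cases hX : X ∈ Set.Ioo P.X₁ P.X₂
    · rw [Set.indicator_of_mem hX]
    · rw [Set.indicator_of_notMem hX]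
      have : ∀ τ : F k, wA P X τ = 0 := fun τ => if_neg hX
      simp [this]
  rw [e1, setLIntegral_congr_fun measurableSet_Ioo (fun X hX => inner_eq hG f hf hX),
    lintegral_subst hG (GG P f) (measurable_GG P hf)]
  -- right-hand side
  simp_rw [rhoB_eq]
  rw [lintegral_weight_Phi f hf (wB P) (measurable_wB P) (wB_zero hG),
    ← lintegral_const_mul' _ _ (by simp), ← lintegral_indicator measurableSet_Ioo]
  refine lintegral_congr fun Y => ?_
  have e2 : (2⁻¹ : ℝ≥0∞) * ∫⁻ τ : F k, (2⁻¹ : ℝ≥0∞) * wB P Y τ *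
      ∫⁻ φ in Set.Ioo (-Real.pi) Real.pi, f (Phi Y φ τ) = GG P f Y := by
    unfold GG Fbar
    simp_rw [mul_assoc]
    rw [lintegral_const_mul' _ _ (by simp)]
  rw [e2]
  by_cases hY : Y ∈ Set.Ioo P.Y₂ P.Y₁
  · rw [Set.indicator_of_mem hY]
  · rw [Set.indicator_of_notMem hY, GG_zero hY]

end MapSAux

theorem map_Sp (hG : Good P) : (muA P k).map (Sp P) = (2⁻¹ : ℝ≥0∞) • muB P k :=
  MapSAux.map_aux hG (Sp P) (measurable_Sp hG) _ (fun _ hX _ hτ φ => Sp_Phi hG hX hτ φ)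

theorem map_Sm (hG : Good P) : (muA P k).map (Sm P) = (2⁻¹ : ℝ≥0∞) • muB P k :=
  MapSAux.map_aux hG (Sm P) (measurable_Sm hG) _ (fun _ hX _ hτ φ => Sm_Phi hG hX hτ φ)

end Crest.Agent.S0175Aux
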