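import Crest.Agent.S0175Aux.RegA

/-!
# S0175, task T9b: regularity of `rB`, `rho`, basic facts on the measures `muA`, `muB`, normalisation.
`rB` is a composition of smooth maps (`Real.smoothTransition.contDiff`, `contDiff_norm_sq`).
`sqrt (rho) = rA + rB`; `rA * rB = 0` because `Aset`, `Bset` are disjoint (`Good.X₂_le`, `Good.lt_Y₂`).
-/

set_option autoImplicit false
set_option linter.unusedVariables false

namespace Crest.Agent.S0175Aux

open MeasureTheory Crest.AnalysisR.OT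
open scoped ENNReal ContDiff

variable {k : ℕ} {P : Par}

namespace Reg

lemma st_ne_zero {x : ℝ} (h : Real.smoothTransition x ≠ 0) : 0 < x := by
  by_contra hx
  exact h (Real.smoothTransition.zero_of_nonpos (not_lt.mp hx))

lemma contDiff_snd' : ContDiff ℝ ∞ (fun y : V k => y.snd) :=
  (WithLp.sndL 2 ℝ ℂ (F k)).contDiff

lemma contDiff_nsq : ContDiff ℝ ∞ (fun y : V k => ‖y‖ ^ 2) := contDiff_norm_sq ℝ

lemma contDiff_n0 (P : Par) : ContDiff ℝ ∞ (n0 P) := by
  unfold n0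
  exact (Real.smoothTransition.contDiff.comp (contDiff_id.sub contDiff_const)).mul
    (Real.smoothTransition.contDiff.comp (contDiff_const.sub contDiff_id))

lemma contDiff_H0 (P : Par) : ContDiff ℝ ∞ (H0 P : F k → ℝ) := by
  unfold H0
  exact Real.smoothTransition.contDiff.comp (contDiff_const.sub (contDiff_norm_sq ℝ))

lemma compact_of_sub {f : V k → ℝ} {R : ℝ} (h : ∀ x, f x ≠ 0 → ‖x‖ ^ 2 < R) :
    HasCompactSupport f := by
  refine HasCompactSupport.intro (isCompact_closedBall (0 : V k) (Real.sqrt R)) ?_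
  intro x hx
  by_contra hne
  apply hx
  have h1 := h x hne
  rw [mem_closedBall_zero_iff]
  exact Real.le_sqrt_of_sq_le h1.le

end Reg

open Reg

lemma rB_nonneg (hG : Good P) (x : V k) : 0 ≤ rB P x := by
  unfold rB n0 H0
  have := hG.hc
  have h1 := Real.smoothTransition.nonneg (‖x‖ ^ 2 - P.Y₂)
  have h2 := Real.smoothTransition.nonneg (P.Y₁ - ‖x‖ ^ 2)
  have h3 := Real.smoothTransition.nonneg (P.dl2 - ‖x.snd‖ ^ 2)
  positivity

lemma rB_ne_zero (hG : Good P) {x : V k} (h : rB P x ≠ 0) : x ∈ Bset P k := by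
  unfold rB n0 at h
  have h1 : Real.smoothTransition (‖x‖ ^ 2 - P.Y₂) ≠ 0 := by
    intro h0; apply h; rw [h0]; ring
  have h2 : Real.smoothTransition (P.Y₁ - ‖x‖ ^ 2) ≠ 0 := by
    intro h0; apply h; rw [h0]; ring
  have h3 := st_ne_zero h1
  have h4 := st_ne_zero h2
  exact ⟨by linarith, by linarith⟩

lemma contDiff_rB (hG : Good P) : ContDiff ℝ ∞ (rB P : V k → ℝ) := by
  unfold rB
  exact contDiff_const.mul (((contDiff_n0 P).comp contDiff_nsq).mul
    ((contDiff_H0 P).comp contDiff_snd'))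

lemma hasCompactSupport_rB (hG : Good P) : HasCompactSupport (rB P : V k → ℝ) :=
  compact_of_sub (R := P.Y₁) fun _ hx => (rB_ne_zero hG hx).2

/-- some point where `rB` is positive, e.g. `(sqrt ((Y₁+Y₂)/2), 0)` -/
lemma exists_rB_pos (hG : Good P) : ∃ x : V k, 0 < rB P x := by
  have hY := hG.Y_lt
  have hY2 := hG.lt_Y₂
  have hm : 0 ≤ (P.Y₁ + P.Y₂) / 2 := by linarith
  refine ⟨WithLp.toLp 2 (((Real.sqrt ((P.Y₁ + P.Y₂) / 2) : ℝ) : ℂ), 0), ?_⟩
  have hn : ‖(WithLp.toLp 2 (((Real.sqrt ((P.Y₁ + P.Y₂) / 2) : ℝ) : ℂ), (0 : F k)) : V k)‖ ^ 2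
      = (P.Y₁ + P.Y₂) / 2 := by
    rw [WithLp.prod_norm_sq_eq_of_L2]
    have e1 : (WithLp.toLp 2 (((Real.sqrt ((P.Y₁ + P.Y₂) / 2) : ℝ) : ℂ), (0 : F k)) : V k).fst
        = ((Real.sqrt ((P.Y₁ + P.Y₂) / 2) : ℝ) : ℂ) := rfl
    have e2 : (WithLp.toLp 2 (((Real.sqrt ((P.Y₁ + P.Y₂) / 2) : ℝ) : ℂ), (0 : F k)) : V k).snd
        = 0 := rfl
    rw [e1, e2, Complex.norm_real, Real.norm_eq_abs, sq_abs, Real.sq_sqrt hm, norm_zero]
    ring
  unfold rB n0 H0
  rw [hn]
  have h1 : 0 < Real.smoothTransition ((P.Y₁ + P.Y₂) / 2 - P.Y₂) :=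
    Real.smoothTransition.pos_of_pos (by linarith)
  have h2 : 0 < Real.smoothTransition (P.Y₁ - (P.Y₁ + P.Y₂) / 2) :=
    Real.smoothTransition.pos_of_pos (by linarith)
  have h3 : 0 < Real.smoothTransition (P.dl2 -
      ‖(WithLp.toLp 2 (((Real.sqrt ((P.Y₁ + P.Y₂) / 2) : ℝ) : ℂ), (0 : F k)) : V k).snd‖ ^ 2) :=
    Real.smoothTransition.pos_of_pos (by simpa using hG.dl2_pos)
  have := hG.hc
  positivity

namespace Reg

lemma rA_mul_rB (hG : Good P) (x : V k) : rA P x * rB P x = 0 := by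
  by_contra h
  have hA : rA P x ≠ 0 := fun h0 => h (by rw [h0, zero_mul])
  have hB : rB P x ≠ 0 := fun h0 => h (by rw [h0, mul_zero])
  have h1 := (rA_ne_zero hG hA).1.2
  have h2 := (rB_ne_zero hG hB).1
  have h3 := hG.X₂_le
  have h4 := hG.lt_Y₂
  linarith

end Reg

lemma rho_eq (hG : Good P) (x : V k) : rho P x = rhoA P x + rhoB P x := by
  unfold rho rhoA rhoB
  have := rA_mul_rB hG x
  nlinarith

lemma rho_nonneg (P : Par) (x : V k) : 0 ≤ rho P x := sq_nonneg _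

lemma contDiff_rho (hG : Good P) : ContDiff ℝ ∞ (rho P : V k → ℝ) := by
  unfold rho
  exact ((contDiff_rA hG).add (contDiff_rB hG)).pow 2

lemma hasCompactSupport_rho (hG : Good P) : HasCompactSupport (rho P : V k → ℝ) := by
  have h := (hasCompactSupport_rA (k := k) hG).add (hasCompactSupport_rB (k := k) hG)
  exact h.comp_left (g := fun y : ℝ => y ^ 2) (by simp)

lemma contDiff_sqrt_rho (hG : Good P) : ContDiff ℝ ∞ (fun x : V k => Real.sqrt (rho P x)) := by
  have : (fun x : V k => Real.sqrt (rho P x)) = fun x => rA P x + rB P x := by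
    funext x
    unfold rho
    exact Real.sqrt_sq (add_nonneg (rA_nonneg hG x) (rB_nonneg hG x))
  rw [this]
  exact (contDiff_rA hG).add (contDiff_rB hG)

namespace Reg

lemma continuous_rhoA (hG : Good P) : Continuous (rhoA P : V k → ℝ) := by
  unfold rhoA
  exact (contDiff_rA hG).continuous.pow 2

lemma continuous_rhoB (hG : Good P) : Continuous (rhoB P : V k → ℝ) := by
  unfold rhoB
  exact (contDiff_rB hG).continuous.pow 2

lemma hcs_rhoA (hG : Good P) : HasCompactSupport (rhoA P : V k → ℝ) :=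
  (hasCompactSupport_rA (k := k) hG).comp_left (g := fun y : ℝ => y ^ 2) (by simp)

lemma hcs_rhoB (hG : Good P) : HasCompactSupport (rhoB P : V k → ℝ) :=
  (hasCompactSupport_rB (k := k) hG).comp_left (g := fun y : ℝ => y ^ 2) (by simp)

end Reg

lemma measOfDensity_rho (hG : Good P) : measOfDensity (rho P (k := k)) = muA P k + muB P k := by
  unfold muA muB measOfDensity
  rw [← withDensity_add_left (continuous_rhoA hG).measurable.ennreal_ofReal]
  congr 1
  funext x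
  rw [rho_eq hG, Pi.add_apply]
  exact ENNReal.ofReal_add (sq_nonneg _) (sq_nonneg _)

lemma isFiniteMeasure_muA (hG : Good P) : IsFiniteMeasure (muA P k) :=
  isFiniteMeasure_withDensity_ofReal
    ((continuous_rhoA hG).integrable_of_hasCompactSupport (hcs_rhoA hG)).2

lemma isFiniteMeasure_muB (hG : Good P) : IsFiniteMeasure (muB P k) :=
  isFiniteMeasure_withDensity_ofReal
    ((continuous_rhoB hG).integrable_of_hasCompactSupport (hcs_rhoB hG)).2

lemma muB_ne_zero (hG : Good P) : muB P k ≠ 0 := by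
  intro h0
  unfold muB measOfDensity at h0
  rw [withDensity_eq_zero_iff (continuous_rhoB hG).measurable.ennreal_ofReal.aemeasurable] at h0
  have h1 : (rhoB P : V k → ℝ) =ᵐ[volume] fun _ => 0 := by
    filter_upwards [h0] with x hx
    have : rhoB P x ≤ 0 := by simpa using hx
    exact le_antisymm this (sq_nonneg _)
  have h2 := (continuous_rhoB (k := k) hG).ae_eq_iff_eq volume continuous_const |>.1 h1
  obtain ⟨x, hx⟩ := exists_rB_pos (k := k) hG
  have h3 := congrFun h2 x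
  unfold rhoB at h3
  have : rB P x = 0 := by simpa using h3
  linarith

lemma muA_compl (hG : Good P) : muA P k (Aset P k)ᶜ = 0 := by
  unfold muA measOfDensity
  rw [withDensity_apply _ (measurableSet_Aset P k).compl]
  refine setLIntegral_eq_zero (measurableSet_Aset P k).compl ?_
  intro x hx
  have : rA P x = 0 := by
    by_contra h
    exact hx (rA_ne_zero hG h)
  simp [rhoA, this]

lemma muB_compl (hG : Good P) : muB P k (Bset P k)ᶜ = 0 := by
  unfold muB measOfDensity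
  rw [withDensity_apply _ (measurableSet_Bset P k).compl]
  refine setLIntegral_eq_zero (measurableSet_Bset P k).compl ?_
  intro x hx
  have : rB P x = 0 := by
    by_contra h
    exact hx (rB_ne_zero hG h)
  simp [rhoB, this]

/-- normalisation: `rho ⟨s,t₁,t₂,cN⟩ = cN^2 * rho ⟨s,t₁,t₂,1⟩`, and `0 < ∫ rho ⟨s,t₁,t₂,1⟩ < ∞`. -/
theorem exists_cN (k : ℕ) {s t₁ t₂ : ℝ} (h : ∀ cN : ℝ, 0 < cN → Good ⟨s, t₁, t₂, cN⟩) :
    ∃ cN : ℝ, 0 < cN ∧ ∫ x : V k, rho ⟨s, t₁, t₂, cN⟩ x = 1 := by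
  have hG1 := h 1 one_pos
  have hscale : ∀ (c : ℝ) (x : V k), rho ⟨s, t₁, t₂, c⟩ x = c ^ 2 * rho ⟨s, t₁, t₂, 1⟩ x := by
    intro c x
    have hA : rA ⟨s, t₁, t₂, c⟩ x = c * rA ⟨s, t₁, t₂, 1⟩ x := by
      unfold rA
      by_cases hx : ‖x‖ ^ 2 ∈ Set.Ioo (Par.X₁ ⟨s, t₁, t₂, 1⟩) (Par.X₂ ⟨s, t₁, t₂, 1⟩)
      · have hx' : ‖x‖ ^ 2 ∈ Set.Ioo (Par.X₁ ⟨s, t₁, t₂, c⟩) (Par.X₂ ⟨s, t₁, t₂, c⟩) := hx
        rw [if_pos hx, if_pos hx']
        simp only [one_mul]
        rfl
      · have hx' : ¬ ‖x‖ ^ 2 ∈ Set.Ioo (Par.X₁ ⟨s, t₁, t₂, c⟩) (Par.X₂ ⟨s, t₁, t₂, c⟩) := hx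
        rw [if_neg hx, if_neg hx', mul_zero]
    have hB : rB ⟨s, t₁, t₂, c⟩ x = c * rB ⟨s, t₁, t₂, 1⟩ x := by
      unfold rB
      simp only [one_mul]
      rfl
    unfold rho
    rw [hA, hB]
    ring
  set I0 : ℝ := ∫ x : V k, rho ⟨s, t₁, t₂, 1⟩ x with hI0
  have hpos : 0 < I0 := by
    obtain ⟨x, hx⟩ := exists_rB_pos (k := k) hG1
    refine (contDiff_rho hG1).continuous.integral_pos_of_hasCompactSupport_nonneg_nonzero
      (hasCompactSupport_rho hG1) (fun y => rho_nonneg _ y) (x := x) ?_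
    have h1 := rA_nonneg hG1 x
    unfold rho
    positivity
  refine ⟨1 / Real.sqrt I0, by positivity, ?_⟩
  have hfun : (fun x : V k => rho ⟨s, t₁, t₂, 1 / Real.sqrt I0⟩ x) =
      fun x => (1 / Real.sqrt I0) ^ 2 * rho ⟨s, t₁, t₂, 1⟩ x := by
    funext x
    exact hscale _ x
  rw [hfun, integral_const_mul, ← hI0, div_pow, Real.sq_sqrt hpos.le]
  field_simp

end Crest.Agent.S0175Aux
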