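import Crest.Agent.S0175Aux.GeoMaps
import Crest.Agent.S0175Aux.GeoIneq
import Crest.Agent.S0175Aux.GeoRigid
import Crest.Agent.S0175Aux.GeoClose
import Crest.Agent.S0175Aux.Meas
import Crest.Agent.S0175Aux.MapS
import Crest.Agent.S0175Aux.MapD
import Crest.Agent.S0175Aux.Reg
import Crest.Agent.S0175Aux.AbstractA1
import Crest.Agent.S0175Aux.AbstractA2
import Crest.Agent.S0175Aux.AbstractA3

/-!
# S0175: glue between the geometric part and the abstract part; assembly on the model space `V k`.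
-/

set_option autoImplicit false

namespace Crest.Agent.S0175Aux

open MeasureTheory Crest.AnalysisR.OT
open scoped ENNReal ContDiff

namespace Glue

/-! ### conversions between the two ways of writing the dual inequality -/

lemma conv1 {G W c : ℝ≥0∞} {b : ℝ} (hG : G ≠ ⊤) (hW : W ≠ ⊤) (hb : 0 ≤ b) (h : G ≤ c + W) :
    ENNReal.ofReal (G.toReal - W.toReal + b) ≤ c + ENNReal.ofReal b := by
  by_cases hc : c = ⊤
  · simp [hc]
  have h1 : G.toReal ≤ c.toReal + W.toReal := by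
    rw [← ENNReal.toReal_add hc hW]
    exact ENNReal.toReal_mono (ENNReal.add_ne_top.2 ⟨hc, hW⟩) h
  calc ENNReal.ofReal (G.toReal - W.toReal + b) ≤ ENNReal.ofReal (c.toReal + b) :=
        ENNReal.ofReal_le_ofReal (by linarith)
    _ = c + ENNReal.ofReal b := by
        rw [ENNReal.ofReal_add ENNReal.toReal_nonneg hb, ENNReal.ofReal_toReal hc]

lemma conv2 {G W c : ℝ≥0∞} {b : ℝ} (hG : G ≠ ⊤) (hW : W ≠ ⊤) (hb : 0 ≤ b)
    (hnn : 0 ≤ G.toReal - W.toReal + b)
    (h : c + ENNReal.ofReal b ≤ ENNReal.ofReal (G.toReal - W.toReal + b)) : c + W ≤ G := by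
  have hc : c ≠ ⊤ := by
    intro hc
    rw [hc, top_add, top_le_iff] at h
    exact ENNReal.ofReal_ne_top h
  have h1 := ENNReal.toReal_mono ENNReal.ofReal_ne_top h
  rw [ENNReal.toReal_add hc ENNReal.ofReal_ne_top, ENNReal.toReal_ofReal hb,
    ENNReal.toReal_ofReal hnn] at h1
  have h2 : (c + W).toReal ≤ G.toReal := by
    rw [ENNReal.toReal_add hc hW]; linarith
  exact (ENNReal.toReal_le_toReal (ENNReal.add_ne_top.2 ⟨hc, hW⟩) hG).1 h2

lemma toReal_add3 {a b c : ℝ≥0∞} (ha : a ≠ ⊤) (hb : b ≠ ⊤) (hc : c ≠ ⊤) :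
    (a + b + c).toReal = a.toReal + b.toReal + c.toReal := by
  rw [ENNReal.toReal_add (ENNReal.add_ne_top.2 ⟨ha, hb⟩) hc, ENNReal.toReal_add ha hb]

end Glue

variable {k : ℕ} {P : Par}

/-- real valued potential -/
noncomputable def uV (P : Par) (x : V k) : ℝ := (gfun P x).toReal - (vfun P x).toReal
/-- real valued moment function -/
noncomputable def psiV (P : Par) (x : V k) : ℝ := (psiB P x).toReal - (psiA P x).toReal

lemma muA_ne_zero (hG : Good P) : muA P k ≠ 0 := by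
  intro h
  have h1 := map_Sp (k := k) hG
  rw [h, Measure.map_zero] at h1
  have h2 : muB P k = 0 := by
    have h3 : (2 : ℝ≥0∞) • ((2⁻¹ : ℝ≥0∞) • muB P k) = 0 := by rw [← h1]; simp
    rw [smul_smul, ENNReal.mul_inv_cancel (by norm_num) (by norm_num), one_smul] at h3
    exact h3
  exact muB_ne_zero hG h2

lemma muB_univ (hG : Good P) : muB P k Set.univ = 2 * muA P k Set.univ := by
  have h1 := congrArg (fun m : Measure (V k) => m Set.univ) (map_Sp (k := k) hG)
  simp only [Measure.smul_apply, smul_eq_mul] at h1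
  rw [Measure.map_apply (measurable_Sp hG) MeasurableSet.univ, Set.preimage_univ] at h1
  rw [h1, ← mul_assoc, ENNReal.mul_inv_cancel (by norm_num) (by norm_num), one_mul]

lemma mass_one (hG : Good P) (hint : ∫ x : V k, rho P x = 1) :
    (muA P k + muB P k) Set.univ = 1 := by
  rw [← measOfDensity_rho hG, measOfDensity, withDensity_apply _ MeasurableSet.univ,
    Measure.restrict_univ]
  have hi : Integrable (rho P : V k → ℝ) :=
    (contDiff_rho hG).continuous.integrable_of_hasCompactSupport (hasCompactSupport_rho hG)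
  rw [← ofReal_integral_eq_lintegral_ofReal hi (Filter.Eventually.of_forall (rho_nonneg P)), hint]
  simp

lemma muA_univ (hG : Good P) (hint : ∫ x : V k, rho P x = 1) : muA P k Set.univ = 3⁻¹ := by
  have h := mass_one hG hint
  rw [Measure.add_apply, muB_univ hG] at h
  have h3 : (3 : ℝ≥0∞) * muA P k Set.univ = 1 := by
    rw [← h]; ring
  rw [ENNReal.eq_inv_of_mul_eq_one_left (a := muA P k Set.univ) (b := 3) (by rw [mul_comm]; exact h3)]

/-! ### finiteness and bounds -/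

lemma exists_bound (hG : Good P) : ∃ B : ℝ, 0 ≤ B ∧ ∀ x : V k,
    gfun P x ≠ ⊤ ∧ vfun P x ≠ ⊤ ∧ psiA P x ≠ ⊤ ∧ psiB P x ≠ ⊤ ∧
    (gfun P x).toReal + (vfun P x).toReal ≤ B ∧ (psiA P x).toReal + (psiB P x).toReal ≤ B := by
  obtain ⟨C₁, h₁, b₁⟩ := gfun_bdd (k := k) hG
  obtain ⟨C₂, h₂, b₂⟩ := vfun_bdd (k := k) hG
  obtain ⟨C₃, h₃, b₃⟩ := psiA_bdd (k := k) hG
  obtain ⟨C₄, h₄, b₄⟩ := psiB_bdd (k := k) hG
  refine ⟨C₁.toReal + C₂.toReal + C₃.toReal + C₄.toReal, by positivity, fun x => ?_⟩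
  have e₁ := ENNReal.toReal_mono h₁ (b₁ x)
  have e₂ := ENNReal.toReal_mono h₂ (b₂ x)
  have e₃ := ENNReal.toReal_mono h₃ (b₃ x)
  have e₄ := ENNReal.toReal_mono h₄ (b₄ x)
  have p₁ : 0 ≤ C₁.toReal := ENNReal.toReal_nonneg
  have p₂ : 0 ≤ C₂.toReal := ENNReal.toReal_nonneg
  have p₃ : 0 ≤ C₃.toReal := ENNReal.toReal_nonneg
  have p₄ : 0 ≤ C₄.toReal := ENNReal.toReal_nonneg
  refine ⟨ne_top_of_le_ne_top h₁ (b₁ x), ne_top_of_le_ne_top h₂ (b₂ x),
    ne_top_of_le_ne_top h₃ (b₃ x), ne_top_of_le_ne_top h₄ (b₄ x), by linarith, by linarith⟩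

lemma measurable_uV (hG : Good P) : Measurable (uV P : V k → ℝ) :=
  (measurable_gfun hG).ennreal_toReal.sub (measurable_vfun P).ennreal_toReal

lemma measurable_psiV (hG : Good P) : Measurable (psiV P : V k → ℝ) :=
  (measurable_psiB P).ennreal_toReal.sub (measurable_psiA hG).ennreal_toReal

/-- the moment functions have the same integral -/
lemma lintegral_psi_eq (hG : Good P) :
    ∫⁻ x, psiA P x ∂(muA P k + muB P k) = ∫⁻ x, psiB P x ∂(muA P k + muB P k) := by
  have hA0 : ∫⁻ x, psiB P x ∂(muA P k) = 0 := by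
    rw [lintegral_eq_zero_iff (measurable_psiB P)]
    have : ∀ᵐ x ∂(muA P k), x ∈ Aset P k := by
      rw [ae_iff]; exact muA_compl hG
    filter_upwards [this] with x hx
    have : x ∉ Bset P k := fun hb => (Set.disjoint_left.1 (disjoint_AB hG)) hx hb
    simp [psiB, this]
  have hB0 : ∫⁻ x, psiA P x ∂(muB P k) = 0 := by
    rw [lintegral_eq_zero_iff (measurable_psiA hG)]
    have : ∀ᵐ x ∂(muB P k), x ∈ Bset P k := by
      rw [ae_iff]; exact muB_compl hG
    filter_upwards [this] with x hx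
    have : x ∉ Aset P k := fun ha => (Set.disjoint_left.1 (disjoint_AB hG)) ha hx
    simp [psiA, this]
  rw [lintegral_add_measure, lintegral_add_measure, hA0, hB0, add_zero, zero_add]
  have hsplit : muB P k = (muA P k).map (Sp P) + (muA P k).map (Sm P) := by
    rw [map_Sp hG, map_Sm hG, ← add_smul, ENNReal.inv_two_add_inv_two, one_smul]
  rw [hsplit, lintegral_add_measure, lintegral_map (measurable_psiB P) (measurable_Sp hG),
    lintegral_map (measurable_psiB P) (measurable_Sm hG),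
    ← lintegral_add_left (f := fun a => psiB P (Sp P a))
      ((measurable_psiB P).comp (measurable_Sp hG)) (fun a => psiB P (Sm P a))]
  apply lintegral_congr_ae
  have : ∀ᵐ x ∂(muA P k), x ∈ Aset P k := by
    rw [ae_iff]; exact muA_compl hG
  filter_upwards [this] with x hx
  exact (psi_on hG hx).symm

lemma sum_uV (hG : Good P) {B : ℝ} (hB : ∀ x : V k,
    gfun P x ≠ ⊤ ∧ vfun P x ≠ ⊤ ∧ psiA P x ≠ ⊤ ∧ psiB P x ≠ ⊤ ∧
    (gfun P x).toReal + (vfun P x).toReal ≤ B ∧ (psiA P x).toReal + (psiB P x).toReal ≤ B)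
    (x y z : V k) :
    uV P x + uV P y + uV P z =
      (gfun P x + gfun P y + gfun P z).toReal - (vfun P x + vfun P y + vfun P z).toReal := by
  rw [Glue.toReal_add3 (hB x).1 (hB y).1 (hB z).1, Glue.toReal_add3 (hB x).2.1 (hB y).2.1 (hB z).2.1]
  simp only [uV]; ring

lemma abs_uV_le {B : ℝ} (hB : ∀ x : V k,
    gfun P x ≠ ⊤ ∧ vfun P x ≠ ⊤ ∧ psiA P x ≠ ⊤ ∧ psiB P x ≠ ⊤ ∧
    (gfun P x).toReal + (vfun P x).toReal ≤ B ∧ (psiA P x).toReal + (psiB P x).toReal ≤ B)
    (x : V k) : |uV P x| ≤ B := by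
  have h1 : 0 ≤ (gfun P x).toReal := ENNReal.toReal_nonneg
  have h2 : 0 ≤ (vfun P x).toReal := ENNReal.toReal_nonneg
  have h3 := (hB x).2.2.2.2.1
  rw [abs_le, uV]; constructor <;> linarith

lemma abs_psiV_le {B : ℝ} (hB : ∀ x : V k,
    gfun P x ≠ ⊤ ∧ vfun P x ≠ ⊤ ∧ psiA P x ≠ ⊤ ∧ psiB P x ≠ ⊤ ∧
    (gfun P x).toReal + (vfun P x).toReal ≤ B ∧ (psiA P x).toReal + (psiB P x).toReal ≤ B)
    (x : V k) : |psiV P x| ≤ B := by
  have h1 : 0 ≤ (psiA P x).toReal := ENNReal.toReal_nonneg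
  have h2 : 0 ≤ (psiB P x).toReal := ENNReal.toReal_nonneg
  have h3 := (hB x).2.2.2.2.2
  rw [abs_le, psiV]; constructor <;> linarith

/-- from helper37's form of contact to the `ℝ≥0∞` equality -/
lemma heq_of_contact (hG : Good P) {B : ℝ} (hB0 : 0 ≤ B) (hB : ∀ x : V k,
    gfun P x ≠ ⊤ ∧ vfun P x ≠ ⊤ ∧ psiA P x ≠ ⊤ ∧ psiB P x ≠ ⊤ ∧
    (gfun P x).toReal + (vfun P x).toReal ≤ B ∧ (psiA P x).toReal + (psiB P x).toReal ≤ B)
    {x y z : V k} (hx : x ∈ Aset P k ∪ Bset P k) (hy : y ∈ Aset P k ∪ Bset P k)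
    (hz : z ∈ Aset P k ∪ Bset P k)
    (h : tripleCost P.s (x, y, z) + ENNReal.ofReal (3 * B) ≤
      ENNReal.ofReal (uV P x + uV P y + uV P z + 3 * B)) :
    gfun P x + gfun P y + gfun P z =
      tripleCost P.s (x, y, z) + vfun P x + vfun P y + vfun P z := by
  have hGt : gfun P x + gfun P y + gfun P z ≠ ⊤ :=
    ENNReal.add_ne_top.2 ⟨ENNReal.add_ne_top.2 ⟨(hB x).1, (hB y).1⟩, (hB z).1⟩
  have hWt : vfun P x + vfun P y + vfun P z ≠ ⊤ :=
    ENNReal.add_ne_top.2 ⟨ENNReal.add_ne_top.2 ⟨(hB x).2.1, (hB y).2.1⟩, (hB z).2.1⟩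
  have hnn : 0 ≤ uV P x + uV P y + uV P z + 3 * B := by
    have := abs_le.1 (abs_uV_le hB x)
    have := abs_le.1 (abs_uV_le hB y)
    have := abs_le.1 (abs_uV_le hB z)
    linarith
  rw [sum_uV hG hB] at h hnn
  have h1 := Glue.conv2 hGt hWt (by positivity) hnn h
  have h2 := geo_ineq hG x hx y hy z hz
  apply le_antisymm h2
  calc tripleCost P.s (x, y, z) + vfun P x + vfun P y + vfun P z
      = tripleCost P.s (x, y, z) + (vfun P x + vfun P y + vfun P z) := by ring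
    _ ≤ _ := h1

lemma ae_mem_A (hG : Good P) : ∀ᵐ x ∂(muA P k), x ∈ Aset P k := by
  rw [ae_iff]; exact muA_compl hG

lemma ae_mem_B (hG : Good P) : ∀ᵐ x ∂(muB P k), x ∈ Bset P k := by
  rw [ae_iff]; exact muB_compl hG

lemma ennreal_aux1 : (1 / 3 : ℝ≥0∞) * 3 = 1 := ENNReal.div_mul_cancel (by norm_num) (by norm_num)

lemma ennreal_aux2 : (2 / 3 : ℝ≥0∞) * (3 / 2) = 1 := by
  rw [← ENNReal.toReal_eq_one_iff]
  simp

lemma ennreal_aux3 : (3 / 2 : ℝ≥0∞) * (2 * 3⁻¹) = 1 := by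
  rw [← ENNReal.toReal_eq_one_iff]
  simp
  norm_num

lemma ennreal_aux4 : (3 : ℝ≥0∞) * 2⁻¹ = 3 / 2 := by
  rw [div_eq_mul_inv]

theorem setupV (hG : Good P) (hint : ∫ x : V k, rho P x = 1) :
    ∃ B : ℝ, Setup (muA P k + muB P k) ((3 : ℝ≥0∞) • muA P k) ((3 / 2 : ℝ≥0∞) • muB P k)
      (Aset P k) (Bset P k) (Sp P) (Sm P) (tripleCost P.s) (uV P) (psiV P) B := by
  obtain ⟨B, hB0, hB⟩ := exists_bound (k := k) hG
  haveI := isFiniteMeasure_muA (k := k) hG
  haveI := isFiniteMeasure_muB (k := k) hG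
  have hdis := Set.disjoint_left.1 (disjoint_AB (k := k) hG)
  refine ⟨B, ?_⟩
  refine
    { probα := ⟨by
        rw [Measure.smul_apply, muA_univ hG hint, smul_eq_mul]
        exact ENNReal.mul_inv_cancel (by norm_num) (by norm_num)⟩
      probβ := ⟨by
        rw [Measure.smul_apply, muB_univ hG, muA_univ hG hint, smul_eq_mul]
        exact ennreal_aux3⟩
      hμ := by rw [smul_smul, smul_smul, ennreal_aux1, ennreal_aux2, one_smul, one_smul]
      mN := measurableSet_Aset P k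
      mP := measurableSet_Bset P k
      disj := disjoint_AB hG
      αN := by rw [Measure.smul_apply, muA_compl hG]; simp
      βP := by rw [Measure.smul_apply, muB_compl hG]; simp
      myp := measurable_Sp hG
      mym := measurable_Sm hG
      pushp := by rw [Measure.map_smul, map_Sp hG, smul_smul, ennreal_aux4]
      pushm := by rw [Measure.map_smul, map_Sm hG, smul_smul, ennreal_aux4]
      injp := fun a ha b hb hab => by rw [← Qp_Sp hG ha, ← Qp_Sp hG hb, hab]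
      injm := Sm_injOn hG
      mapsp := fun _ ha => Sp_mem hG ha
      mapsm := fun _ ha => Sm_mem hG ha
      mc := measurable_tripleCost P.s
      csymm₁ := fun x y z => by
        rw [← tripleCost_cyc P.s x y z, tripleCost_swap P.s y x z]
      csymm₂ := fun x y z => (tripleCost_swap P.s x y z).symm
      mu := measurable_uV hG
      bu := abs_uV_le hB
      mψ := measurable_psiV hG
      bψ := abs_psiV_le hB
      ineq := ?_
      contact := ?_
      ψint := ?_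
      ψnonneg := ?_
      rigid := ?_ }
  · -- ineq
    intro x hx y hy z hz
    have hGt : gfun P x + gfun P y + gfun P z ≠ ⊤ :=
      ENNReal.add_ne_top.2 ⟨ENNReal.add_ne_top.2 ⟨(hB x).1, (hB y).1⟩, (hB z).1⟩
    have hWt : vfun P x + vfun P y + vfun P z ≠ ⊤ :=
      ENNReal.add_ne_top.2 ⟨ENNReal.add_ne_top.2 ⟨(hB x).2.1, (hB y).2.1⟩, (hB z).2.1⟩
    rw [sum_uV hG hB]
    apply Glue.conv1 hGt hWt (by positivity)
    calc _ ≤ tripleCost P.s (x, y, z) + vfun P x + vfun P y + vfun P z := geo_ineq hG x hx y hy z hz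
      _ = _ := by ring
  · -- contact
    intro x hx
    have h1 := eq_on hG hx
    have hxB : x ∉ Bset P k := fun hb => hdis hx hb
    have hpA : Sp P x ∉ Aset P k := fun ha => hdis ha (Sp_mem hG hx)
    have hmA : Sm P x ∉ Aset P k := fun ha => hdis ha (Sm_mem hG hx)
    have hc : tripleCost P.s (x, Sp P x, Sm P x) ≠ ⊤ := by
      intro hc
      rw [hc, top_add, top_add] at h1
      exact (hB x).1 h1.symm
    have e1 : uV P x = (gfun P x).toReal := by simp [uV, vfun, hxB]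
    have e2 : uV P (Sp P x) = -(vfun P (Sp P x)).toReal := by simp [uV, gfun, hpA]
    have e3 : uV P (Sm P x) = -(vfun P (Sm P x)).toReal := by simp [uV, gfun, hmA]
    rw [e1, e2, e3, ← h1, Glue.toReal_add3 hc (hB _).2.1 (hB _).2.1]
    have : (tripleCost P.s (x, Sp P x, Sm P x)).toReal + (vfun P (Sp P x)).toReal +
        (vfun P (Sm P x)).toReal + -(vfun P (Sp P x)).toReal + -(vfun P (Sm P x)).toReal + 3 * B =
        (tripleCost P.s (x, Sp P x, Sm P x)).toReal + 3 * B := by ring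
    rw [this, ENNReal.ofReal_add ENNReal.toReal_nonneg (by positivity), ENNReal.ofReal_toReal hc]
  · -- ψint
    have fA : ∫⁻ x, psiA P x ∂(muA P k + muB P k) ≠ ⊤ := by
      obtain ⟨C, hC, hb⟩ := psiA_bdd (k := k) hG
      refine ne_top_of_le_ne_top ?_ (lintegral_mono hb)
      rw [lintegral_const]
      exact ENNReal.mul_ne_top hC (measure_ne_top _ _)
    have fB : ∫⁻ x, psiB P x ∂(muA P k + muB P k) ≠ ⊤ := by
      rw [← lintegral_psi_eq hG]; exact fA
    have iA := integrable_toReal_of_lintegral_ne_top (measurable_psiA hG).aemeasurable fA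
    have iB := integrable_toReal_of_lintegral_ne_top (measurable_psiB P).aemeasurable fB
    simp only [psiV]
    rw [integral_sub iB iA,
      integral_toReal (measurable_psiB P).aemeasurable
        (Filter.Eventually.of_forall fun x => lt_top_iff_ne_top.2 (hB x).2.2.2.1),
      integral_toReal (measurable_psiA hG).aemeasurable
        (Filter.Eventually.of_forall fun x => lt_top_iff_ne_top.2 (hB x).2.2.1),
      lintegral_psi_eq hG, sub_self]
  · -- ψnonneg
    intro x hx y hy z hz h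
    have heq := heq_of_contact hG hB0 hB hx hy hz h
    have h1 := geo_psi_ineq hG x hx y hy z hz heq
    have hBt : psiB P x + psiB P y + psiB P z ≠ ⊤ :=
      ENNReal.add_ne_top.2 ⟨ENNReal.add_ne_top.2 ⟨(hB x).2.2.2.1, (hB y).2.2.2.1⟩, (hB z).2.2.2.1⟩
    have h2 := ENNReal.toReal_mono hBt h1
    rw [Glue.toReal_add3 (hB x).2.2.1 (hB y).2.2.1 (hB z).2.2.1,
      Glue.toReal_add3 (hB x).2.2.2.1 (hB y).2.2.2.1 (hB z).2.2.2.1] at h2
    simp only [psiV]; linarith
  · -- rigid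
    intro x hx y hy z hz h hψ hyN
    have heq := heq_of_contact hG hB0 hB hx hy hz h
    have h1 := geo_psi_ineq hG x hx y hy z hz heq
    have hAt : psiA P x + psiA P y + psiA P z ≠ ⊤ :=
      ENNReal.add_ne_top.2 ⟨ENNReal.add_ne_top.2 ⟨(hB x).2.2.1, (hB y).2.2.1⟩, (hB z).2.2.1⟩
    have hBt : psiB P x + psiB P y + psiB P z ≠ ⊤ :=
      ENNReal.add_ne_top.2 ⟨ENNReal.add_ne_top.2 ⟨(hB x).2.2.2.1, (hB y).2.2.2.1⟩, (hB z).2.2.2.1⟩
    have h2 : psiB P x + psiB P y + psiB P z ≤ psiA P x + psiA P y + psiA P z := by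
      rw [← ENNReal.toReal_le_toReal hBt hAt,
        Glue.toReal_add3 (hB x).2.2.1 (hB y).2.2.1 (hB z).2.2.1,
        Glue.toReal_add3 (hB x).2.2.2.1 (hB y).2.2.2.1 (hB z).2.2.2.1]
      simp only [psiV] at hψ; linarith
    have h3 := geo_rigid hG x hx y hy z hz heq (le_antisymm h1 h2)
    rcases hx with hxA | hxB
    · exact absurd hyN (h3.1 hxA)
    · exact h3.2 hxB hyN

/-- additive form of the closeness estimate -/
lemma exists_N_add (hG : Good P) {ε : ℝ≥0∞} (hε : 0 < ε) :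
    ∃ N : ℕ, 5 ≤ N ∧ ∀ y ∈ Bset P k, ∀ a ∈ Aset P k, Dmap N y = Sp P a →
      tripleCost P.s (y, a, Sm P a) ≤ tripleCost P.s (Sp P a, a, Sm P a) + ε := by
  obtain ⟨C, hC, hb⟩ := gfun_bdd (k := k) hG
  -- `δ * C ≤ ε`, `0 < δ`
  obtain ⟨δ, hδ0, hδ⟩ : ∃ δ : ℝ≥0∞, 0 < δ ∧ δ * C ≤ ε := by
    by_cases hε' : ε = ⊤
    · exact ⟨1, one_pos, by rw [hε']; exact le_top⟩
    refine ⟨ε / (C + 1), ENNReal.div_pos hε.ne' (ENNReal.add_ne_top.2 ⟨hC, ENNReal.one_ne_top⟩), ?_⟩
    calc ε / (C + 1) * C ≤ ε / (C + 1) * (C + 1) := by gcongr; exact le_self_add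
      _ = ε := ENNReal.div_mul_cancel (by simp) (ENNReal.add_ne_top.2 ⟨hC, ENNReal.one_ne_top⟩)
  obtain ⟨N, hN, hNM⟩ := exists_N hG (M := 1 + δ) (ENNReal.lt_add_right ENNReal.one_ne_top hδ0.ne')
  refine ⟨N, hN, fun y hy a ha h => ?_⟩
  have hc : tripleCost P.s (Sp P a, a, Sm P a) ≤ C := by
    have h1 : tripleCost P.s (Sp P a, a, Sm P a) = tripleCost P.s (a, Sp P a, Sm P a) := by
      rw [← tripleCost_cyc P.s a (Sp P a) (Sm P a), tripleCost_swap P.s (Sp P a) a (Sm P a)]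
    rw [h1]
    calc tripleCost P.s (a, Sp P a, Sm P a)
        ≤ tripleCost P.s (a, Sp P a, Sm P a) + vfun P (Sp P a) + vfun P (Sm P a) := by
          rw [add_assoc]; exact le_self_add
      _ = gfun P a := eq_on hG ha
      _ ≤ C := hb a
  calc tripleCost P.s (y, a, Sm P a)
      ≤ ENNReal.ofReal ((1 - 4 / (N : ℝ)) ^ (-P.s)) * tripleCost P.s (Sp P a, a, Sm P a) :=
        geo_close hG hN hy ha h
    _ ≤ (1 + δ) * tripleCost P.s (Sp P a, a, Sm P a) := by gcongr
    _ = tripleCost P.s (Sp P a, a, Sm P a) + δ * tripleCost P.s (Sp P a, a, Sm P a) := by ring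
    _ ≤ tripleCost P.s (Sp P a, a, Sm P a) + ε := by
        gcongr
        exact (mul_le_mul_right hc δ).trans hδ

lemma restrict_Bp_compl (hG : Good P) (N : ℕ) :
    (muB P k).restrict (Bp P N k)ᶜ = (muB P k).restrict (Bpp P N k) := by
  apply Measure.restrict_congr_set
  have h := ae_mem_B (k := k) hG
  filter_upwards [h] with x hx
  have hu := Bp_union_Bpp P N k
  have hd := Set.disjoint_left.1 (disjoint_Bp_Bpp P N k)
  apply propext
  constructor
  · intro hxc
    have : x ∈ Bp P N k ∪ Bpp P N k := by rw [hu]; exact hx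
    rcases this with h1 | h1
    · exact absurd h1 hxc
    · exact h1
  · intro h1 h2
    exact hd h2 h1

theorem main_V (k : ℕ) (s : ℝ) (hs : 0 < s) : Goal (V k) s := by
  obtain ⟨t₁, t₂, hgood⟩ := exists_good s hs
  obtain ⟨cN, hcN, hint⟩ := exists_cN k hgood
  set P : Par := ⟨s, t₁, t₂, cN⟩ with hP
  have hG : Good P := hgood cN hcN
  obtain ⟨B, S⟩ := setupV hG hint
  have hμ : measOfDensity (rho P (k := k)) = muA P k + muB P k := measOfDensity_rho hG
  refine ⟨rho P, rho_nonneg P, contDiff_rho hG, hasCompactSupport_rho hG, contDiff_sqrt_rho hG,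
    hint, pi0 ((3 : ℝ≥0∞) • muA P k) (Sp P) (Sm P), ?_, ?_, ?_, ?_, ?_⟩
  · rw [hμ]; exact S.pi0_coupling
  · exact S.pi0_cost_lt_top
  · intro π hπ
    rw [hμ] at hπ
    exact S.pi0_min π hπ
  · intro T₂ T₃ h₂ h₃ m₂ m₃
    rw [hμ] at m₂ m₃ ⊢
    exact S.no_monge T₂ T₃ h₂ h₃ m₂ m₃
  · intro ε hε
    rw [hμ]
    -- a finite positive `ε' < ε`
    obtain ⟨ε', hε'0, hε'⟩ : ∃ ε' : ℝ≥0∞, 0 < ε' ∧ ε' < ε := exists_between hε
    obtain ⟨N, hN, hclose⟩ := exists_N_add (k := k) hG hε'0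
    have h1 : (((3 / 2 : ℝ≥0∞) • muB P k).restrict (Bp P N k)).map (Dmap N) =
        (1 / 2 : ℝ≥0∞) • ((3 / 2 : ℝ≥0∞) • muB P k) := by
      rw [Measure.restrict_smul, Measure.map_smul, map_D_even hG (by omega), smul_comm, one_div]
    have h2 : (((3 / 2 : ℝ≥0∞) • muB P k).restrict (Bp P N k)ᶜ).map (Dmap N) =
        (1 / 2 : ℝ≥0∞) • ((3 / 2 : ℝ≥0∞) • muB P k) := by
      rw [Measure.restrict_smul, restrict_Bp_compl hG, Measure.map_smul, map_D_odd hG (by omega),
        smul_comm, one_div]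
    obtain ⟨T₂, T₃, m₂, m₃, p₂, p₃, hcost⟩ := S.approx (Qp P) (Dmap N) (measurable_Qp hG)
      (measurable_Dmap N) (Bp P N k) (measurableSet_Bp P N k) (fun x hx => Qp_Sp hG hx) h1 h2 ε'
      hclose
    refine ⟨T₂, T₃, m₂, m₃, p₂, p₃, lt_of_le_of_lt hcost ?_⟩
    exact ENNReal.add_lt_add_left S.pi0_cost_lt_top.ne hε'

end Crest.Agent.S0175Aux
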