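import Crest.Agent.S0175Aux.Defs

/-!
# S0175, task T13: the statement is invariant under linear isometries; `V k ≃ₗᵢ ℝ^(k+2)`.
-/

set_option autoImplicit false
set_option linter.unusedSectionVars false

namespace Crest.Agent.S0175Aux

open MeasureTheory Crest.AnalysisR.OT
open scoped ENNReal ContDiff

namespace Transport

variable {E E' : Type} [NormedAddCommGroup E] [InnerProductSpace ℝ E]
    [MeasurableSpace E] [BorelSpace E] [FiniteDimensional ℝ E]
    [NormedAddCommGroup E'] [InnerProductSpace ℝ E'] [MeasurableSpace E'] [BorelSpace E']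
    [FiniteDimensional ℝ E']

/-- the measurable equivalence underlying a linear isometry equivalence -/
noncomputable def mE (e : E ≃ₗᵢ[ℝ] E') : E ≃ᵐ E' := e.toHomeomorph.toMeasurableEquiv

@[simp] theorem mE_apply (e : E ≃ₗᵢ[ℝ] E') (x : E) : mE e x = e x := rfl
@[simp] theorem mE_symm_apply (e : E ≃ₗᵢ[ℝ] E') (x : E') : (mE e).symm x = e.symm x := rfl

/-- the triple product of `mE e` -/
noncomputable def mE3 (e : E ≃ₗᵢ[ℝ] E') : (E × E × E) ≃ᵐ (E' × E' × E') :=
  (mE e).prodCongr ((mE e).prodCongr (mE e))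

theorem mE3_apply (e : E ≃ₗᵢ[ℝ] E') (p : E × E × E) :
    mE3 e p = (e p.1, e p.2.1, e p.2.2) := rfl

theorem mE3_symm_apply (e : E ≃ₗᵢ[ℝ] E') (p : E' × E' × E') :
    (mE3 e).symm p = (e.symm p.1, e.symm p.2.1, e.symm p.2.2) := rfl

theorem pairCost_iso (e : E ≃ₗᵢ[ℝ] E') (s : ℝ) (x y : E) :
    pairCost s (e x) (e y) = pairCost s x y := by
  unfold pairCost
  rw [← map_sub, e.norm_map]

theorem tripleCost_iso (e : E ≃ₗᵢ[ℝ] E') (s : ℝ) (x y z : E) :
    tripleCost s (e x, e y, e z) = tripleCost s (x, y, z) := by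
  unfold tripleCost
  simp only [pairCost_iso]

theorem measurable_iso (e : E ≃ₗᵢ[ℝ] E') : Measurable e := (mE e).measurable

theorem map_density (e : E ≃ₗᵢ[ℝ] E') (ρ : E → ℝ) :
    (measOfDensity ρ).map e = measOfDensity (fun x => ρ (e.symm x)) := by
  ext S hS
  rw [Measure.map_apply (measurable_iso e) hS]
  unfold measOfDensity
  rw [withDensity_apply _ hS, withDensity_apply _ (measurable_iso e hS)]
  have hmp : MeasurePreserving e (volume : Measure E) (volume : Measure E') :=
    e.measurePreserving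
  rw [← hmp.setLIntegral_comp_preimage_emb (mE e).measurableEmbedding]
  simp

theorem map_density_symm (e : E ≃ₗᵢ[ℝ] E') (ρ : E → ℝ) :
    (measOfDensity (fun x => ρ (e.symm x))).map e.symm = measOfDensity ρ := by
  rw [← map_density, Measure.map_map (measurable_iso e.symm) (measurable_iso e)]
  have : (e.symm ∘ e : E → E) = id := by
    funext x; simp
  rw [this, Measure.map_id]

theorem coupling_map (e : E ≃ₗᵢ[ℝ] E') {μ : Measure E} {π : Measure (E × E × E)}
    (h : IsCoupling₃ μ π) : IsCoupling₃ (μ.map e) (π.map (mE3 e)) := by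
  obtain ⟨h1, h2, h3⟩ := h
  have hm := (mE3 e).measurable
  have he := measurable_iso e
  refine ⟨?_, ?_, ?_⟩
  · rw [Measure.map_map measurable_fst hm, ← h1, Measure.map_map he measurable_fst]
    rfl
  · have m1 : Measurable (fun p : E' × E' × E' => p.2.1) := measurable_fst.comp measurable_snd
    have m2 : Measurable (fun p : E × E × E => p.2.1) := measurable_fst.comp measurable_snd
    rw [Measure.map_map m1 hm, ← h2, Measure.map_map he m2]
    rfl
  · have m1 : Measurable (fun p : E' × E' × E' => p.2.2) := measurable_snd.comp measurable_snd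
    have m2 : Measurable (fun p : E × E × E => p.2.2) := measurable_snd.comp measurable_snd
    rw [Measure.map_map m1 hm, ← h3, Measure.map_map he m2]
    rfl

theorem cost_map (e : E ≃ₗᵢ[ℝ] E') (s : ℝ) (π : Measure (E × E × E)) :
    ∫⁻ p, tripleCost s p ∂(π.map (mE3 e)) = ∫⁻ p, tripleCost s p ∂π := by
  rw [lintegral_map_equiv]
  refine lintegral_congr fun p => ?_
  rw [mE3_apply, tripleCost_iso]

theorem mE3_symm_eq (e : E ≃ₗᵢ[ℝ] E') : ((mE3 e).symm : E' × E' × E' → E × E × E) = mE3 e.symm := by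
  funext p
  rfl

end Transport

open Transport in
/-- Transport of the statement along a linear isometry equivalence: `ρ' = ρ ∘ e.symm`,
`π₀' = π₀.map (e × e × e)`, `T' = e ∘ T ∘ e.symm`; `e` preserves volume
(`LinearIsometryEquiv.measurePreserving`), norms of differences, smoothness, compact supports. -/
theorem Goal.transport {E E' : Type} [NormedAddCommGroup E] [InnerProductSpace ℝ E]
    [MeasurableSpace E] [BorelSpace E] [FiniteDimensional ℝ E]
    [NormedAddCommGroup E'] [InnerProductSpace ℝ E'] [MeasurableSpace E'] [BorelSpace E']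
    [FiniteDimensional ℝ E'] (e : E ≃ₗᵢ[ℝ] E') {s : ℝ} (h : Goal E s) : Goal E' s := by
  obtain ⟨ρ, hnn, hsm, hcs, hsq, hint, π₀, hcoup, hfin, hmin, hmonge, happ⟩ := h
  have he := measurable_iso e
  have hes := measurable_iso e.symm
  have hμ : (measOfDensity ρ).map e = measOfDensity (fun x => ρ (e.symm x)) := map_density e ρ
  have hμs : (measOfDensity (fun x => ρ (e.symm x))).map e.symm = measOfDensity ρ :=
    map_density_symm e ρ
  refine ⟨fun x => ρ (e.symm x), fun x => hnn _, hsm.comp e.symm.contDiff, ?_,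
    hsq.comp e.symm.contDiff, ?_, π₀.map (mE3 e), ?_, ?_, ?_, ?_, ?_⟩
  · exact hcs.comp_isClosedEmbedding e.symm.toHomeomorph.isClosedEmbedding
  · rw [← hint]
    exact (e.symm.measurePreserving).integral_comp (mE e.symm).measurableEmbedding ρ
  · rw [← hμ]; exact coupling_map e hcoup
  · rw [cost_map]; exact hfin
  · intro π hπ
    rw [cost_map]
    have h1 : IsCoupling₃ (measOfDensity ρ) (π.map (mE3 e.symm)) := by
      rw [← hμs]; exact coupling_map e.symm hπ
    have h2 := hmin _ h1
    rwa [cost_map] at h2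
  · intro T₂ T₃ hT₂ hT₃ hp₂ hp₃
    rw [cost_map]
    have key : ∀ T : E' → E', Measurable T →
        (measOfDensity (fun x => ρ (e.symm x))).map T = measOfDensity (fun x => ρ (e.symm x)) →
        (measOfDensity ρ).map (fun x => e.symm (T (e x))) = measOfDensity ρ := by
      intro T hT hp
      have : (fun x => e.symm (T (e x))) = e.symm ∘ T ∘ e := rfl
      rw [this, ← Measure.map_map hes (hT.comp he), ← Measure.map_map hT he, hμ, hp, hμs]
    have h1 := hmonge (fun x => e.symm (T₂ (e x))) (fun x => e.symm (T₃ (e x)))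
      (hes.comp (hT₂.comp he)) (hes.comp (hT₃.comp he)) (key T₂ hT₂ hp₂) (key T₃ hT₃ hp₃)
    refine lt_of_lt_of_eq h1 ?_
    rw [← hμ]
    have h2 := lintegral_map_equiv (μ := measOfDensity ρ)
      (fun x => tripleCost s (x, T₂ x, T₃ x)) (mE e)
    rw [show ((mE e : E ≃ᵐ E') : E → E') = e from rfl] at h2
    rw [h2]
    refine lintegral_congr fun x => ?_
    rw [← tripleCost_iso e]
    simp
  · intro ε hε
    obtain ⟨T₂, T₃, hT₂, hT₃, hp₂, hp₃, hlt⟩ := happ ε hε
    have key : ∀ T : E → E, Measurable T →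
        (measOfDensity ρ).map T = measOfDensity ρ →
        (measOfDensity (fun x => ρ (e.symm x))).map (fun x => e (T (e.symm x))) =
          measOfDensity (fun x => ρ (e.symm x)) := by
      intro T hT hp
      have : (fun x => e (T (e.symm x))) = e ∘ T ∘ e.symm := rfl
      rw [this, ← Measure.map_map he (hT.comp hes), ← Measure.map_map hT hes, hμs, hp, hμ]
    refine ⟨fun x => e (T₂ (e.symm x)), fun x => e (T₃ (e.symm x)),
      he.comp (hT₂.comp hes), he.comp (hT₃.comp hes), key T₂ hT₂ hp₂, key T₃ hT₃ hp₃, ?_⟩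
    rw [cost_map]
    refine lt_of_eq_of_lt ?_ hlt
    rw [← hμ]
    have h2 := lintegral_map_equiv (μ := measOfDensity ρ)
      (fun x => tripleCost s (x, e (T₂ (e.symm x)), e (T₃ (e.symm x)))) (mE e)
    rw [show ((mE e : E ≃ᵐ E') : E → E') = e from rfl] at h2
    rw [h2]
    refine lintegral_congr fun x => ?_
    simp only [LinearIsometryEquiv.symm_apply_apply]
    rw [tripleCost_iso e]

theorem exists_iso (k : ℕ) : Nonempty (V k ≃ₗᵢ[ℝ] EuclideanSpace ℝ (Fin (k + 2))) := by
  have hfr : Module.finrank ℝ (V k) = k + 2 := by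
    have h1 : Module.finrank ℝ (V k) = Module.finrank ℝ (ℂ × F k) :=
      (WithLp.linearEquiv 2 ℝ (ℂ × F k)).finrank_eq
    rw [h1, Module.finrank_prod, Complex.finrank_real_complex, finrank_euclideanSpace_fin]
    omega
  exact ⟨((stdOrthonormalBasis ℝ (V k)).reindex (finCongr hfr)).repr⟩

end Crest.Agent.S0175Aux
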