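import Crest.Agent.S0175Aux.CLBasic

/-!
# S0175, task T6b: the coordinates `(X, φ, τ)`, `X = ‖x‖^2`, `φ = arg x.fst`, `τ = x.snd`:
Lebesgue measure on `V k` is `(1/2) dX dφ dτ` on `{X > ‖τ‖^2, φ ∈ (-π, π)}`.

Route: `WithLp.volume_preserving_toLp` (volume on `V k` = product volume on `ℂ × F k`), Tonelli,
`Complex.lintegral_comp_polarCoord_symm` for the `ℂ` factor, `polarCoord.target = Ioi 0 ×ˢ Ioo (-π) π`,
and the substitution `X = ξ^2 + ‖τ‖^2` on `ξ ∈ Ioi 0`
(`MeasureTheory.lintegral_image_eq_lintegral_abs_deriv_mul`).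
-/

set_option autoImplicit false

namespace Crest.Agent.S0175Aux

open MeasureTheory
open scoped ENNReal ContDiff

variable {k : ℕ}

namespace CL

/-- Step 1+2: volume on `V k` is the product volume, Tonelli. -/
lemma lintegral_eq_prod (f : V k → ℝ≥0∞) (hf : Measurable f) :
    ∫⁻ x, f x = ∫⁻ τ : F k, ∫⁻ z : ℂ, f (WithLp.toLp 2 (z, τ)) := by
  have h1 : ∫⁻ x, f x = ∫⁻ q : ℂ × F k, f (WithLp.toLp 2 q) :=
    ((WithLp.volume_preserving_toLp ℂ (F k)).lintegral_comp hf).symm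
  rw [h1]
  have hm : Measurable (fun q : ℂ × F k => f (WithLp.toLp 2 q)) :=
    hf.comp (WithLp.volume_preserving_toLp ℂ (F k)).measurable
  rw [Measure.volume_eq_prod, lintegral_prod_symm _ hm.aemeasurable]

/-- the substitution `X = r^2 + c`. -/
lemma lintegral_Ioi_sq_add (c : ℝ) (G : ℝ → ℝ≥0∞) :
    ∫⁻ X in Set.Ioi c, G X = ∫⁻ r in Set.Ioi (0 : ℝ), ENNReal.ofReal (2 * r) * G (r ^ 2 + c) := by
  have himg : (fun r : ℝ => r ^ 2 + c) '' Set.Ioi (0 : ℝ) = Set.Ioi c := by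
    ext X
    constructor
    · rintro ⟨r, hr, rfl⟩
      have : 0 < r ^ 2 := by have := Set.mem_Ioi.1 hr; positivity
      simp only [Set.mem_Ioi]; linarith
    · intro hX
      have hX' : 0 < X - c := sub_pos.2 hX
      refine ⟨Real.sqrt (X - c), Real.sqrt_pos.2 hX', ?_⟩
      simp only [Real.sq_sqrt hX'.le]; ring
  have hinj : Set.InjOn (fun r : ℝ => r ^ 2 + c) (Set.Ioi (0 : ℝ)) := by
    intro a ha b hb hab
    have ha' : 0 < a := ha
    have hb' : 0 < b := hb
    have h2 : a ^ 2 = b ^ 2 := by simpa using hab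
    exact (pow_left_inj₀ ha'.le hb'.le two_ne_zero).1 h2
  have hder : ∀ r ∈ Set.Ioi (0 : ℝ),
      HasDerivWithinAt (fun r : ℝ => r ^ 2 + c) (2 * r) (Set.Ioi (0 : ℝ)) r := by
    intro r _
    have := ((hasDerivAt_pow 2 r).add_const c).hasDerivWithinAt (s := Set.Ioi (0 : ℝ))
    simpa using this
  rw [← himg, lintegral_image_eq_lintegral_abs_deriv_mul measurableSet_Ioi hder hinj]
  refine setLIntegral_congr_fun measurableSet_Ioi (fun r hr => ?_)
  have hr' : 0 < r := hr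
  rw [abs_of_pos (by positivity)]

/-- polar coordinates on `ℂ` as an iterated integral. -/
lemma lintegral_complex_polar (g : ℂ → ℝ≥0∞) (hg : Measurable g) :
    ∫⁻ z, g z = ∫⁻ r in Set.Ioi (0 : ℝ), ∫⁻ φ in Set.Ioo (-Real.pi) Real.pi,
      ENNReal.ofReal r * g ((r : ℂ) * Complex.exp ((φ : ℂ) * Complex.I)) := by
  rw [← Complex.lintegral_comp_polarCoord_symm g, polarCoord_target, Measure.volume_eq_prod,
    ← Measure.prod_restrict, lintegral_prod]
  · refine lintegral_congr (fun r => lintegral_congr (fun φ => ?_))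
    rw [Complex.polarCoord_symm_apply, Complex.exp_mul_I, smul_eq_mul]
    simp only [Complex.ofReal_cos, Complex.ofReal_sin]
  · apply Measurable.aemeasurable
    have h1 : Measurable (fun p : ℝ × ℝ => Complex.polarCoord.symm p) := by
      have : (fun p : ℝ × ℝ => Complex.polarCoord.symm p) =
          fun p : ℝ × ℝ => (p.1 : ℂ) * (Complex.cos (p.2 : ℂ) + Complex.sin (p.2 : ℂ) * Complex.I) := by
        funext p; rw [Complex.polarCoord_symm_apply]
        simp only [Complex.ofReal_cos, Complex.ofReal_sin]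
      rw [this]
      fun_prop
    exact (ENNReal.measurable_ofReal.comp measurable_fst).smul (hg.comp h1)

/-- the integral of a periodic function over a period does not depend on the starting point. -/
lemma lintegral_Ioc_periodic {T : ℝ} (hT : 0 < T) (g : ℝ → ℝ≥0∞) (hg : Function.Periodic g T)
    (a b : ℝ) : ∫⁻ x in Set.Ioc a (a + T), g x = ∫⁻ x in Set.Ioc b (b + T), g x := by
  have : Fact (0 < T) := ⟨hT⟩
  have h1 := AddCircle.lintegral_preimage T a hg.lift
  have h2 := AddCircle.lintegral_preimage T b hg.lift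
  simp only [Function.Periodic.lift_coe] at h1 h2
  rw [h1, h2]

/-- translation of a set integral. -/
lemma lintegral_Ioc_add (g : ℝ → ℝ≥0∞) (a b χ : ℝ) :
    ∫⁻ x in Set.Ioc a b, g (x + χ) = ∫⁻ x in Set.Ioc (a + χ) (b + χ), g x := by
  have hmp : MeasurePreserving (fun x : ℝ => x + χ) volume volume :=
    measurePreserving_add_right volume χ
  have hemb : MeasurableEmbedding (fun x : ℝ => x + χ) := measurableEmbedding_addRight χ
  have := hmp.setLIntegral_comp_preimage_emb hemb g (Set.Ioc (a + χ) (b + χ))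
  rw [← this]
  congr 2
  ext x
  simp

end CL

/-- **Change of coordinates.** -/
theorem lintegral_eq_Phi (f : V k → ℝ≥0∞) (hf : Measurable f) :
    ∫⁻ x, f x = ∫⁻ τ : F k, ∫⁻ X in Set.Ioi (‖τ‖ ^ 2), ∫⁻ φ in Set.Ioo (-Real.pi) Real.pi,
      (2⁻¹ : ℝ≥0∞) * f (Phi X φ τ) := by
  rw [CL.lintegral_eq_prod f hf]
  refine lintegral_congr (fun τ => ?_)
  have hg : Measurable (fun z : ℂ => f (WithLp.toLp 2 (z, τ))) := by
    refine hf.comp ?_
    exact (WithLp.volume_preserving_toLp ℂ (F k)).measurable.comp (measurable_id.prodMk measurable_const)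
  rw [CL.lintegral_complex_polar _ hg, CL.lintegral_Ioi_sq_add (‖τ‖ ^ 2)]
  refine setLIntegral_congr_fun (measurableSet_Ioi (a := (0 : ℝ))) (fun r hr => ?_)
  have hr' : 0 < r := hr
  rw [← lintegral_const_mul' _ _ ENNReal.ofReal_ne_top]
  refine lintegral_congr (fun φ => ?_)
  have h1 : Phi (r ^ 2 + ‖τ‖ ^ 2) φ τ
      = WithLp.toLp 2 ((r : ℂ) * Complex.exp ((φ : ℂ) * Complex.I), τ) := by
    unfold Phi
    rw [add_sub_cancel_right, Real.sqrt_sq hr'.le]
  rw [h1, ← mul_assoc]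
  congr 1
  rw [ENNReal.ofReal_mul (by norm_num), mul_comm, ← mul_assoc]
  have : (2⁻¹ : ℝ≥0∞) * ENNReal.ofReal 2 = 1 := by
    rw [show ENNReal.ofReal 2 = 2 by simp]
    exact ENNReal.inv_mul_cancel (by norm_num) (by norm_num)
  rw [this, one_mul]

namespace CL

lemma measurable_snd' : Measurable (fun x : V k => x.snd) :=
  (WithLp.volume_preserving_ofLp ℂ (F k)).measurable.snd

/-- measurability of the angular integral -/
lemma measurable_angular (f : V k → ℝ≥0∞) (hf : Measurable f) :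
    Measurable (fun q : ℝ × F k => ∫⁻ φ in Set.Ioo (-Real.pi) Real.pi, f (Phi q.1 φ q.2)) := by
  have h : Measurable (fun z : (ℝ × F k) × ℝ => f (Phi z.1.1 z.2 z.1.2)) := by
    refine hf.comp ?_
    have : Measurable (fun z : (ℝ × F k) × ℝ => ((z.1.1, z.2, z.1.2) : ℝ × ℝ × F k)) := by
      fun_prop
    exact (measurable_Phi (k := k)).comp this
  exact h.lintegral_prod_right'

end CL

/-- Version with a weight depending only on `(‖x‖^2, x.snd)` which vanishes unless `‖τ‖^2 < X`;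
the `X`-integral is then over the whole line and the order of `X` and `τ` may be exchanged. -/
theorem lintegral_weight_Phi (f : V k → ℝ≥0∞) (hf : Measurable f) (w : ℝ → F k → ℝ≥0∞)
    (hw : Measurable (fun q : ℝ × F k => w q.1 q.2)) (hw0 : ∀ X τ, X ≤ ‖τ‖ ^ 2 → w X τ = 0) :
    ∫⁻ x, w (‖x‖ ^ 2) x.snd * f x =
      ∫⁻ X : ℝ, ∫⁻ τ : F k, (2⁻¹ : ℝ≥0∞) * w X τ *
        ∫⁻ φ in Set.Ioo (-Real.pi) Real.pi, f (Phi X φ τ) := by
  have hm1 : Measurable (fun x : V k => w (‖x‖ ^ 2) x.snd) := by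
    have : Measurable (fun x : V k => ((‖x‖ ^ 2, x.snd) : ℝ × F k)) :=
      (measurable_norm.pow_const 2).prodMk CL.measurable_snd'
    exact hw.comp this
  rw [lintegral_eq_Phi (fun x : V k => w (‖x‖ ^ 2) x.snd * f x) (hm1.mul hf)]
  have hang := CL.measurable_angular f hf
  have hmeas : Measurable (fun q : ℝ × F k => (2⁻¹ : ℝ≥0∞) * w q.1 q.2 *
        ∫⁻ φ in Set.Ioo (-Real.pi) Real.pi, f (Phi q.1 φ q.2)) :=
    (hw.const_mul _).mul hang
  rw [lintegral_lintegral_swap (f := fun X τ => (2⁻¹ : ℝ≥0∞) * w X τ *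
        ∫⁻ φ in Set.Ioo (-Real.pi) Real.pi, f (Phi X φ τ)) hmeas.aemeasurable]
  refine lintegral_congr (fun τ => ?_)
  have h1 : ∫⁻ X in Set.Ioi (‖τ‖ ^ 2), ∫⁻ φ in Set.Ioo (-Real.pi) Real.pi,
      (2⁻¹ : ℝ≥0∞) * (w (‖Phi X φ τ‖ ^ 2) (Phi X φ τ).snd * f (Phi X φ τ))
      = ∫⁻ X in Set.Ioi (‖τ‖ ^ 2), (2⁻¹ : ℝ≥0∞) * w X τ *
        ∫⁻ φ in Set.Ioo (-Real.pi) Real.pi, f (Phi X φ τ) := by
    refine setLIntegral_congr_fun measurableSet_Ioi (fun X hX => ?_)
    have hX' : ‖τ‖ ^ 2 ≤ X := le_of_lt hX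
    have hmφ : Measurable (fun φ : ℝ => f (Phi X φ τ)) := by
      refine hf.comp ?_
      have : Measurable (fun φ : ℝ => ((X, φ, τ) : ℝ × ℝ × F k)) := by fun_prop
      exact (measurable_Phi (k := k)).comp this
    rw [← lintegral_const_mul _ hmφ]
    refine lintegral_congr (fun φ => ?_)
    rw [Phi_norm_sq φ hX', Phi_snd, mul_assoc]
  rw [h1, ← lintegral_indicator measurableSet_Ioi]
  refine lintegral_congr (fun X => ?_)
  by_cases hX : X ∈ Set.Ioi (‖τ‖ ^ 2)
  · rw [Set.indicator_of_mem hX]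
  · rw [Set.indicator_of_notMem hX, hw0 X τ (not_lt.1 hX)]
    simp

/-- rotation invariance of the angular integral -/
theorem lintegral_Phi_add (f : V k → ℝ≥0∞) (hf : Measurable f) (X χ : ℝ) (τ : F k) :
    ∫⁻ φ in Set.Ioo (-Real.pi) Real.pi, f (Phi X (φ + χ) τ) =
      ∫⁻ φ in Set.Ioo (-Real.pi) Real.pi, f (Phi X φ τ) := by
  have hper : Function.Periodic (fun φ : ℝ => f (Phi X φ τ)) (2 * Real.pi) := by
    intro φ
    simp only [Phi_periodic]
  rw [setLIntegral_congr (Ioo_ae_eq_Ioc (a := -Real.pi) (b := Real.pi)),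
    setLIntegral_congr (Ioo_ae_eq_Ioc (a := -Real.pi) (b := Real.pi)),
    CL.lintegral_Ioc_add (fun φ : ℝ => f (Phi X φ τ))]
  have h := CL.lintegral_Ioc_periodic (by positivity : 0 < 2 * Real.pi) _ hper
    (-Real.pi + χ) (-Real.pi)
  have e1 : -Real.pi + χ + 2 * Real.pi = Real.pi + χ := by ring
  have e2 : -Real.pi + 2 * Real.pi = Real.pi := by ring
  rw [e1, e2] at h
  exact h

end Crest.Agent.S0175Aux
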