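import Crest.Agent.S0175Aux.Defs

/-!
# S0175, task T6a: elementary properties of the parametrisation `Phi X φ τ = (sqrt (X - ‖τ‖^2) e^{iφ}, τ)`.
-/

set_option autoImplicit false

namespace Crest.Agent.S0175Aux

open MeasureTheory Crest.AnalysisR.OT
open scoped ENNReal ContDiff

variable {k : ℕ}

lemma measurable_Phi : Measurable (fun q : ℝ × ℝ × F k => Phi q.1 q.2.1 q.2.2) := by
  unfold Phi
  apply (WithLp.measurable_toLp 2 (ℂ × F k)).comp
  apply Measurable.prodMk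
  · apply Measurable.mul
    · apply Complex.measurable_ofReal.comp
      exact (measurable_fst.sub ((measurable_snd.comp measurable_snd).norm.pow_const 2)).sqrt
    · apply Complex.measurable_exp.comp
      exact (Complex.measurable_ofReal.comp (measurable_fst.comp measurable_snd)).mul_const _
  · exact measurable_snd.comp measurable_snd

lemma Phi_snd (X φ : ℝ) (τ : F k) : (Phi X φ τ).snd = τ := by
  rfl

lemma Phi_fst (X φ : ℝ) (τ : F k) :
    (Phi X φ τ).fst = ((Real.sqrt (X - ‖τ‖ ^ 2) : ℝ) : ℂ) * Complex.exp ((φ : ℂ) * Complex.I) := by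
  rfl

lemma Phi_norm_fst {X : ℝ} (φ : ℝ) {τ : F k} (h : ‖τ‖ ^ 2 ≤ X) :
    ‖(Phi X φ τ).fst‖ = Real.sqrt (X - ‖τ‖ ^ 2) := by
  rw [Phi_fst, norm_mul, Complex.norm_exp_ofReal_mul_I, mul_one, Complex.norm_real,
    Real.norm_of_nonneg (Real.sqrt_nonneg _)]

lemma Phi_norm_sq {X : ℝ} (φ : ℝ) {τ : F k} (h : ‖τ‖ ^ 2 ≤ X) : ‖Phi X φ τ‖ ^ 2 = X := by
  rw [WithLp.prod_norm_sq_eq_of_L2, Phi_norm_fst φ h, Phi_snd, Real.sq_sqrt (by linarith)]
  ring

lemma Phi_fst_ne {X : ℝ} (φ : ℝ) {τ : F k} (h : ‖τ‖ ^ 2 < X) : (Phi X φ τ).fst ≠ 0 := by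
  rw [← norm_ne_zero_iff, Phi_norm_fst φ h.le]
  exact (Real.sqrt_pos.2 (by linarith)).ne'

lemma Phi_arg {X φ : ℝ} {τ : F k} (h : ‖τ‖ ^ 2 < X) (hφ : φ ∈ Set.Ioo (-Real.pi) Real.pi) :
    Complex.arg (Phi X φ τ).fst = φ := by
  rw [Phi_fst, Complex.arg_real_mul _ (Real.sqrt_pos.2 (by linarith)), Complex.arg_exp_mul_I,
    toIocMod_eq_self]
  constructor
  · exact hφ.1
  · have := hφ.2
    linarith [Real.pi_pos]

lemma Phi_periodic (X φ : ℝ) (τ : F k) : Phi X (φ + 2 * Real.pi) τ = Phi X φ τ := by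
  unfold Phi
  congr 3
  push_cast
  rw [add_mul, Complex.exp_add, Complex.exp_two_pi_mul_I, mul_one]

lemma rot_Phi (ϑ X φ : ℝ) (τ : F k) : rot ϑ (Phi X φ τ) = Phi X (φ + ϑ) τ := by
  unfold rot
  rw [Phi_fst, Phi_snd]
  unfold Phi
  congr 2
  push_cast
  rw [add_mul, Complex.exp_add, mul_assoc]

end Crest.Agent.S0175Aux
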