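import Mathlib

/-! # S0175 auxiliary: the pointwise inequality (tangent line + algebraic identity) -/

set_option autoImplicit false

namespace Crest.Agent.S0175Aux

namespace Chain

/-- normalised tangent inequality -/
theorem one_sub_le_rpow (q : ℝ) (hq : 0 < q) (u : ℝ) (hu : 0 < u) :
    1 - q * (u - 1) ≤ u ^ (-q) := by
  rw [Real.rpow_def_of_pos hu]
  have h1 : Real.log u * -q + 1 ≤ Real.exp (Real.log u * -q) := Real.add_one_le_exp _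
  have h2 : Real.log u ≤ u - 1 := Real.log_le_sub_one_of_pos hu
  nlinarith

/-- strict normalised tangent inequality -/
theorem one_sub_lt_rpow (q : ℝ) (hq : 0 < q) (u : ℝ) (hu : 0 < u) (hu1 : u ≠ 1) :
    1 - q * (u - 1) < u ^ (-q) := by
  rw [Real.rpow_def_of_pos hu]
  have h1 : Real.log u * -q + 1 ≤ Real.exp (Real.log u * -q) := Real.add_one_le_exp _
  have h2 : Real.log u < u - 1 := Real.log_lt_sub_one_of_pos hu hu1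
  nlinarith

theorem rescale (q : ℝ) (τ t : ℝ) (hτ : 0 < τ) (ht : 0 < t) :
    t ^ (-q) = τ ^ (-q) * (t / τ) ^ (-q) := by
  rw [Real.div_rpow ht.le hτ.le]
  have : τ ^ (-q) ≠ 0 := (Real.rpow_pos_of_pos hτ _).ne'
  field_simp

theorem tangent_rescale (q : ℝ) (τ t : ℝ) (hτ : 0 < τ) :
    τ ^ (-q) - q * τ ^ (-q - 1) * (t - τ) = τ ^ (-q) * (1 - q * (t / τ - 1)) := by
  rw [Real.rpow_sub_one hτ.ne']
  field_simp

theorem tangent (q : ℝ) (hq : 0 < q) (τ t : ℝ) (hτ : 0 < τ) (ht : 0 < t) :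
    τ ^ (-q) - q * τ ^ (-q - 1) * (t - τ) ≤ t ^ (-q) := by
  rw [tangent_rescale q τ t hτ, rescale q τ t hτ ht]
  exact mul_le_mul_of_nonneg_left (one_sub_le_rpow q hq _ (div_pos ht hτ))
    (Real.rpow_pos_of_pos hτ _).le

theorem tangent_lt (q : ℝ) (hq : 0 < q) (τ t : ℝ) (hτ : 0 < τ) (ht : 0 < t) (hne : t ≠ τ) :
    τ ^ (-q) - q * τ ^ (-q - 1) * (t - τ) < t ^ (-q) := by
  rw [tangent_rescale q τ t hτ, rescale q τ t hτ ht]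
  refine mul_lt_mul_of_pos_left (one_sub_lt_rpow q hq _ (div_pos ht hτ) ?_)
    (Real.rpow_pos_of_pos hτ _)
  intro h
  exact hne ((div_eq_one_iff_eq hτ.ne').1 h)

end Chain

/-- tangent line inequality for the convex function `t ↦ t ^ (-s/2)` -/
theorem rpow_tangent (s : ℝ) (hs : 0 < s) (τ t : ℝ) (hτ : 0 < τ) (ht : 0 < t) :
    τ ^ (-s / 2) - s / 2 * τ ^ (-s / 2 - 1) * (t - τ) ≤ t ^ (-s / 2) := by
  have h := Chain.tangent (s / 2) (by positivity) τ t hτ ht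
  have e : -s / 2 = -(s / 2) := by ring
  rw [e]
  exact h

/-- equality case (strict convexity) -/
theorem rpow_tangent_eq (s : ℝ) (hs : 0 < s) (τ t : ℝ) (hτ : 0 < τ) (ht : 0 < t)
    (h : t ^ (-s / 2) ≤ τ ^ (-s / 2) - s / 2 * τ ^ (-s / 2 - 1) * (t - τ)) : t = τ := by
  by_contra hne
  have h' := Chain.tangent_lt (s / 2) (by positivity) τ t hτ ht hne
  have e : -s / 2 = -(s / 2) := by ring
  rw [e] at h
  exact absurd h (not_le.2 h')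

variable {E : Type*} [NormedAddCommGroup E] [InnerProductSpace ℝ E]

/-- the algebraic identity behind the chain -/
theorem chain_identity (a₁ a₂ : ℝ) (h₂ : a₂ ≠ 0) (x y z : E) :
    a₁ * (‖x - y‖ ^ 2 + ‖x - z‖ ^ 2) + a₂ * ‖y - z‖ ^ 2 + a₂ * ‖y + z + (a₁ / a₂) • x‖ ^ 2 =
      (2 * a₁ + a₁ ^ 2 / a₂) * ‖x‖ ^ 2 + (a₁ + 2 * a₂) * (‖y‖ ^ 2 + ‖z‖ ^ 2) := by
  rw [norm_sub_sq_real, norm_sub_sq_real, norm_sub_sq_real, norm_add_sq_real, norm_add_sq_real,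
    norm_smul, inner_add_left, real_inner_smul_right, real_inner_smul_right, mul_pow,
    Real.norm_eq_abs, sq_abs, real_inner_comm x y, real_inner_comm x z]
  field_simp
  ring

namespace Chain

omit [InnerProductSpace ℝ E] in
theorem norm_rpow_neg (s : ℝ) (v : E) : ‖v‖ ^ (-s) = (‖v‖ ^ 2) ^ (-s / 2) := by
  rw [← Real.rpow_natCast, ← Real.rpow_mul (norm_nonneg _)]
  congr 1
  push_cast
  ring

end Chain

/-- the lower bound for the three-point cost with apex `x` -/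
theorem chain_le (s : ℝ) (hs : 0 < s) (τ₁ τ₂ a₁ a₂ : ℝ) (h₁ : 0 < τ₁) (h₂ : 0 < τ₂)
    (ha₁ : a₁ = s / 2 * τ₁ ^ (-s / 2 - 1)) (ha₂ : a₂ = s / 2 * τ₂ ^ (-s / 2 - 1))
    (x y z : E) (hxy : x ≠ y) (hxz : x ≠ z) (hyz : y ≠ z) :
    2 * τ₁ ^ (-s / 2) + τ₂ ^ (-s / 2) + 2 * a₁ * τ₁ + a₂ * τ₂ - (2 * a₁ + a₁ ^ 2 / a₂) * ‖x‖ ^ 2
        - (a₁ + 2 * a₂) * (‖y‖ ^ 2 + ‖z‖ ^ 2)
      ≤ ‖x - y‖ ^ (-s) + ‖x - z‖ ^ (-s) + ‖y - z‖ ^ (-s) := by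
  have p₁ : 0 < ‖x - y‖ ^ 2 := by have := norm_pos_iff.2 (sub_ne_zero.2 hxy); positivity
  have p₂ : 0 < ‖x - z‖ ^ 2 := by have := norm_pos_iff.2 (sub_ne_zero.2 hxz); positivity
  have p₃ : 0 < ‖y - z‖ ^ 2 := by have := norm_pos_iff.2 (sub_ne_zero.2 hyz); positivity
  have t₁ := rpow_tangent s hs τ₁ _ h₁ p₁
  have t₂ := rpow_tangent s hs τ₁ _ h₁ p₂
  have t₃ := rpow_tangent s hs τ₂ _ h₂ p₃
  rw [← ha₁] at t₁ t₂
  rw [← ha₂] at t₃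
  have a₂pos : 0 < a₂ := by rw [ha₂]; have := Real.rpow_pos_of_pos h₂ (-s / 2 - 1); positivity
  have id := chain_identity a₁ a₂ a₂pos.ne' x y z
  have sq : 0 ≤ a₂ * ‖y + z + (a₁ / a₂) • x‖ ^ 2 := by positivity
  rw [Chain.norm_rpow_neg s (x - y), Chain.norm_rpow_neg s (x - z), Chain.norm_rpow_neg s (y - z)]
  linarith

/-- equality case of `chain_le` -/
theorem chain_eq (s : ℝ) (hs : 0 < s) (τ₁ τ₂ a₁ a₂ : ℝ) (h₁ : 0 < τ₁) (h₂ : 0 < τ₂)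
    (ha₁ : a₁ = s / 2 * τ₁ ^ (-s / 2 - 1)) (ha₂ : a₂ = s / 2 * τ₂ ^ (-s / 2 - 1))
    (x y z : E) (hxy : x ≠ y) (hxz : x ≠ z) (hyz : y ≠ z)
    (h : ‖x - y‖ ^ (-s) + ‖x - z‖ ^ (-s) + ‖y - z‖ ^ (-s) ≤
      2 * τ₁ ^ (-s / 2) + τ₂ ^ (-s / 2) + 2 * a₁ * τ₁ + a₂ * τ₂ - (2 * a₁ + a₁ ^ 2 / a₂) * ‖x‖ ^ 2
        - (a₁ + 2 * a₂) * (‖y‖ ^ 2 + ‖z‖ ^ 2)) :
    ‖x - y‖ ^ 2 = τ₁ ∧ ‖x - z‖ ^ 2 = τ₁ ∧ ‖y - z‖ ^ 2 = τ₂ ∧ y + z = -(a₁ / a₂) • x := by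
  have p₁ : 0 < ‖x - y‖ ^ 2 := by have := norm_pos_iff.2 (sub_ne_zero.2 hxy); positivity
  have p₂ : 0 < ‖x - z‖ ^ 2 := by have := norm_pos_iff.2 (sub_ne_zero.2 hxz); positivity
  have p₃ : 0 < ‖y - z‖ ^ 2 := by have := norm_pos_iff.2 (sub_ne_zero.2 hyz); positivity
  have t₁ := rpow_tangent s hs τ₁ _ h₁ p₁
  have t₂ := rpow_tangent s hs τ₁ _ h₁ p₂
  have t₃ := rpow_tangent s hs τ₂ _ h₂ p₃
  have a₂pos : 0 < a₂ := by rw [ha₂]; have := Real.rpow_pos_of_pos h₂ (-s / 2 - 1); positivity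
  have id := chain_identity a₁ a₂ a₂pos.ne' x y z
  have sq : 0 ≤ a₂ * ‖y + z + (a₁ / a₂) • x‖ ^ 2 := by positivity
  rw [Chain.norm_rpow_neg s (x - y), Chain.norm_rpow_neg s (x - z),
    Chain.norm_rpow_neg s (y - z)] at h
  refine ⟨?_, ?_, ?_, ?_⟩
  · apply rpow_tangent_eq s hs τ₁ _ h₁ p₁
    rw [← ha₁] at t₁ t₂ ⊢
    rw [← ha₂] at t₃
    linarith
  · apply rpow_tangent_eq s hs τ₁ _ h₁ p₂
    rw [← ha₁] at t₁ t₂ ⊢
    rw [← ha₂] at t₃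
    linarith
  · apply rpow_tangent_eq s hs τ₂ _ h₂ p₃
    rw [← ha₁] at t₁ t₂
    rw [← ha₂] at t₃ ⊢
    linarith
  · rw [← ha₁] at t₁ t₂
    rw [← ha₂] at t₃
    have hz : a₂ * ‖y + z + (a₁ / a₂) • x‖ ^ 2 ≤ 0 := by linarith
    have hz' : ‖y + z + (a₁ / a₂) • x‖ ^ 2 ≤ 0 := by
      by_contra hcon
      have := mul_pos a₂pos (not_le.1 hcon)
      linarith
    have hz'' : ‖y + z + (a₁ / a₂) • x‖ = 0 := by
      have := sq_nonneg ‖y + z + (a₁ / a₂) • x‖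
      exact pow_eq_zero_iff (two_ne_zero) |>.1 (le_antisymm hz' this)
    have := norm_eq_zero.1 hz''
    rw [neg_smul]
    exact eq_neg_of_add_eq_zero_left this

/-- converse: on the contact configuration the bound is an equality -/
theorem chain_contact (s : ℝ) (hs : 0 < s) (τ₁ τ₂ a₁ a₂ : ℝ) (h₁ : 0 < τ₁) (h₂ : 0 < τ₂)
    (ha₁ : a₁ = s / 2 * τ₁ ^ (-s / 2 - 1)) (ha₂ : a₂ = s / 2 * τ₂ ^ (-s / 2 - 1))
    (x y z : E) (e₁ : ‖x - y‖ ^ 2 = τ₁) (e₂ : ‖x - z‖ ^ 2 = τ₁) (e₃ : ‖y - z‖ ^ 2 = τ₂)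
    (e₄ : y + z = -(a₁ / a₂) • x) :
    ‖x - y‖ ^ (-s) + ‖x - z‖ ^ (-s) + ‖y - z‖ ^ (-s) =
      2 * τ₁ ^ (-s / 2) + τ₂ ^ (-s / 2) + 2 * a₁ * τ₁ + a₂ * τ₂ - (2 * a₁ + a₁ ^ 2 / a₂) * ‖x‖ ^ 2
        - (a₁ + 2 * a₂) * (‖y‖ ^ 2 + ‖z‖ ^ 2) := by
  have a₂pos : 0 < a₂ := by rw [ha₂]; have := Real.rpow_pos_of_pos h₂ (-s / 2 - 1); positivity
  have id := chain_identity a₁ a₂ a₂pos.ne' x y z
  have hz : y + z + (a₁ / a₂) • x = 0 := by rw [e₄, neg_smul]; exact neg_add_cancel _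
  rw [hz, norm_zero, e₁, e₂, e₃] at id
  rw [Chain.norm_rpow_neg s (x - y), Chain.norm_rpow_neg s (x - z), Chain.norm_rpow_neg s (y - z),
    e₁, e₂, e₃]
  linarith

/-- perturbation bound used for the approximating Monge maps:
`(r - η)^(-s) ≤ r^(-s) + s η (r-η)^(-s-1)` -/
theorem rpow_neg_perturb (s : ℝ) (hs : 0 < s) (r r' : ℝ) (hr' : 0 < r') (hrr' : r' ≤ r) :
    r' ^ (-s) ≤ r ^ (-s) + s * (r - r') * r' ^ (-s - 1) := by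
  have h := Chain.tangent s hs r' r hr' (lt_of_lt_of_le hr' hrr')
  linarith

end Crest.Agent.S0175Aux
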