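import Crest.Agent.S0175Aux.Family

/-!
# S0175, task T3a: the key inequality (tangent line of the convex function `u ↦ u^(1-p)` + a
quadratic identity), in an arbitrary real inner product space.
Use `al_rpow`, `be_rpow`: `al^(-p) = lam`, `be^(-p) = t`; `Kc = p (2 al^(1-p) + be^(1-p))`,
`al^(1-p) = al * lam`, `Ac = (p-1)(2 lam + lam^2/t)`, `Bc = (p-1)(lam + 2t)`.
-/

set_option autoImplicit false

namespace Crest.Agent.S0175Aux

open MeasureTheory Crest.AnalysisR.OT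
open scoped ENNReal ContDiff

variable {W : Type*} [NormedAddCommGroup W] [InnerProductSpace ℝ W]
variable {p t : ℝ}

/-- `u₀^(1-p) = u₀ * u₀^(-p)` -/
lemma cr_rpow_one_sub {u₀ : ℝ} (hu₀ : 0 < u₀) (p : ℝ) : u₀ ^ (1 - p) = u₀ * u₀ ^ (-p) := by
  rw [sub_eq_add_neg, Real.rpow_add hu₀, Real.rpow_one]

/-- `u^(1-p) = u₀^(1-p) * exp ((1-p) (log u - log u₀))` -/
lemma cr_rpow_ratio {u u₀ : ℝ} (hu : 0 < u) (hu₀ : 0 < u₀) (p : ℝ) :
    u ^ (1 - p) = u₀ ^ (1 - p) * Real.exp ((1 - p) * (Real.log u - Real.log u₀)) := by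
  rw [Real.rpow_def_of_pos hu, Real.rpow_def_of_pos hu₀, ← Real.exp_add]
  congr 1; ring

/-- the tangent expression, factorised -/
lemma cr_tangent_factor {u u₀ : ℝ} (hu₀ : 0 < u₀) (p : ℝ) :
    u₀ ^ (1 - p) - (p - 1) * u₀ ^ (-p) * (u - u₀) =
      u₀ ^ (1 - p) * (1 + (1 - p) * (u / u₀ - 1)) := by
  rw [cr_rpow_one_sub hu₀]
  field_simp
  ring

/-- tangent line inequality for the convex function `t ↦ t^(1-p)` -/
lemma tangent_le (hp : 1 < p) {u u₀ : ℝ} (hu : 0 < u) (hu₀ : 0 < u₀) :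
    u₀ ^ (1 - p) - (p - 1) * u₀ ^ (-p) * (u - u₀) ≤ u ^ (1 - p) := by
  rw [cr_tangent_factor hu₀, cr_rpow_ratio hu hu₀]
  have hpos : 0 < u₀ ^ (1 - p) := Real.rpow_pos_of_pos hu₀ _
  apply mul_le_mul_of_nonneg_left _ hpos.le
  have h1 : Real.log u - Real.log u₀ ≤ u / u₀ - 1 := by
    rw [← Real.log_div hu.ne' hu₀.ne']
    exact Real.log_le_sub_one_of_pos (div_pos hu hu₀)
  have h2 := Real.add_one_le_exp ((1 - p) * (Real.log u - Real.log u₀))
  nlinarith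

/-- strictness -/
lemma tangent_eq (hp : 1 < p) {u u₀ : ℝ} (hu : 0 < u) (hu₀ : 0 < u₀)
    (h : u₀ ^ (1 - p) - (p - 1) * u₀ ^ (-p) * (u - u₀) = u ^ (1 - p)) : u = u₀ := by
  by_contra hne
  rw [cr_tangent_factor hu₀, cr_rpow_ratio hu hu₀] at h
  have hpos : 0 < u₀ ^ (1 - p) := Real.rpow_pos_of_pos hu₀ _
  have h' := mul_left_cancel₀ hpos.ne' h
  have hr : u / u₀ ≠ 1 := by
    intro h1
    exact hne ((div_eq_one_iff_eq hu₀.ne').mp h1)
  have h1 : Real.log u - Real.log u₀ < u / u₀ - 1 := by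
    rw [← Real.log_div hu.ne' hu₀.ne']
    exact Real.log_lt_sub_one_of_pos (div_pos hu hu₀) hr
  have h2 := Real.add_one_le_exp ((1 - p) * (Real.log u - Real.log u₀))
  nlinarith

lemma quad_identity (l κ : ℝ) (hκ : κ ≠ 0) (a y z : W) :
    -l * (‖a - y‖ ^ 2 + ‖a - z‖ ^ 2) - κ * ‖y - z‖ ^ 2 =
      ‖l • a + κ • (y + z)‖ ^ 2 / κ - (2 * l + l ^ 2 / κ) * ‖a‖ ^ 2
        - (l + 2 * κ) * (‖y‖ ^ 2 + ‖z‖ ^ 2) := by
  rw [@norm_sub_sq_real W, @norm_sub_sq_real W, @norm_sub_sq_real W, @norm_add_sq_real W,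
    norm_smul, norm_smul, inner_smul_left, inner_smul_right, mul_pow, mul_pow,
    @norm_add_sq_real W, inner_add_right]
  simp only [Real.norm_eq_abs, sq_abs, conj_trivial]
  field_simp
  ring

/-- the sum of the three tangent lines -/
lemma cr_tangent_sum (hp : 1 < p) (ht : t ∈ II p) (a y z : W) :
    ((al p t) ^ (1 - p) - (p - 1) * (al p t) ^ (-p) * (‖a - y‖ ^ 2 - al p t)) +
    ((al p t) ^ (1 - p) - (p - 1) * (al p t) ^ (-p) * (‖a - z‖ ^ 2 - al p t)) +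
    ((be p t) ^ (1 - p) - (p - 1) * (be p t) ^ (-p) * (‖y - z‖ ^ 2 - be p t)) =
    Kc p t - Ac p t * ‖a‖ ^ 2 - Bc p * (‖y‖ ^ 2 + ‖z‖ ^ 2)
      + (p - 1) * (‖lam p t • a + t • (y + z)‖ ^ 2 / t) := by
  have htp := t_pos ht
  have hq := quad_identity (lam p t) t htp.ne' a y z
  have e1 : (al p t) ^ (1 - p) = al p t * lam p t := by
    rw [cr_rpow_one_sub (al_pos ht), al_rpow hp ht]
  have e2 : (be p t) ^ (1 - p) = be p t * t := by
    rw [cr_rpow_one_sub (be_pos ht), be_rpow hp ht]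
  have e3 : Bt p = lam p t + 2 * t := (lam_add p t).symm
  unfold Kc Ac Bc
  rw [e1, e2, al_rpow hp ht, be_rpow hp ht, e3]
  linear_combination (p - 1) * hq

/-- **Key inequality.** -/
theorem core_ineq (hp : 1 < p) (ht : t ∈ II p) (a y z : W) (hay : a ≠ y) (haz : a ≠ z)
    (hyz : y ≠ z) :
    Kc p t - Ac p t * ‖a‖ ^ 2 ≤
      (‖a - y‖ ^ 2) ^ (1 - p) + (‖a - z‖ ^ 2) ^ (1 - p) + (‖y - z‖ ^ 2) ^ (1 - p)
        + Bc p * (‖y‖ ^ 2 + ‖z‖ ^ 2) := by
  have htp := t_pos ht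
  have p1 : 0 < ‖a - y‖ ^ 2 := by have := norm_pos_iff.mpr (sub_ne_zero.mpr hay); positivity
  have p2 : 0 < ‖a - z‖ ^ 2 := by have := norm_pos_iff.mpr (sub_ne_zero.mpr haz); positivity
  have p3 : 0 < ‖y - z‖ ^ 2 := by have := norm_pos_iff.mpr (sub_ne_zero.mpr hyz); positivity
  have t1 := tangent_le hp p1 (al_pos ht)
  have t2 := tangent_le hp p2 (al_pos ht)
  have t3 := tangent_le hp p3 (be_pos ht)
  have hs := cr_tangent_sum hp ht a y z
  have hnn : 0 ≤ (p - 1) * (‖lam p t • a + t • (y + z)‖ ^ 2 / t) := by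
    have : 0 < p - 1 := by linarith
    positivity
  linarith

/-- **Equality case.** -/
theorem core_eq_iff (hp : 1 < p) (ht : t ∈ II p) (a y z : W) (hay : a ≠ y) (haz : a ≠ z)
    (hyz : y ≠ z) :
    Kc p t - Ac p t * ‖a‖ ^ 2 =
      (‖a - y‖ ^ 2) ^ (1 - p) + (‖a - z‖ ^ 2) ^ (1 - p) + (‖y - z‖ ^ 2) ^ (1 - p)
        + Bc p * (‖y‖ ^ 2 + ‖z‖ ^ 2) ↔
      ‖a - y‖ ^ 2 = al p t ∧ ‖a - z‖ ^ 2 = al p t ∧ ‖y - z‖ ^ 2 = be p t ∧
        lam p t • a + t • (y + z) = 0 := by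
  have htp := t_pos ht
  have hp1 : 0 < p - 1 := by linarith
  have p1 : 0 < ‖a - y‖ ^ 2 := by have := norm_pos_iff.mpr (sub_ne_zero.mpr hay); positivity
  have p2 : 0 < ‖a - z‖ ^ 2 := by have := norm_pos_iff.mpr (sub_ne_zero.mpr haz); positivity
  have p3 : 0 < ‖y - z‖ ^ 2 := by have := norm_pos_iff.mpr (sub_ne_zero.mpr hyz); positivity
  have t1 := tangent_le hp p1 (al_pos ht)
  have t2 := tangent_le hp p2 (al_pos ht)
  have t3 := tangent_le hp p3 (be_pos ht)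
  have hs := cr_tangent_sum hp ht a y z
  have hnn : 0 ≤ (p - 1) * (‖lam p t • a + t • (y + z)‖ ^ 2 / t) := by positivity
  constructor
  · intro h
    refine ⟨tangent_eq hp p1 (al_pos ht) (le_antisymm t1 (by linarith)),
      tangent_eq hp p2 (al_pos ht) (le_antisymm t2 (by linarith)),
      tangent_eq hp p3 (be_pos ht) (le_antisymm t3 (by linarith)), ?_⟩
    have hz : (p - 1) * (‖lam p t • a + t • (y + z)‖ ^ 2 / t) = 0 :=
      le_antisymm (by linarith) hnn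
    have hz2 : ‖lam p t • a + t • (y + z)‖ ^ 2 / t = 0 := by
      rcases mul_eq_zero.mp hz with h0 | h0
      · exact absurd h0 hp1.ne'
      · exact h0
    have hz3 : ‖lam p t • a + t • (y + z)‖ ^ 2 = 0 := by
      rcases div_eq_zero_iff.mp hz2 with h0 | h0
      · exact h0
      · exact absurd h0 htp.ne'
    exact norm_eq_zero.mp (pow_eq_zero_iff (two_ne_zero)|>.mp hz3)
  · rintro ⟨h1, h2, h3, h4⟩
    rw [h1, h2, h3, h4] at hs
    rw [h1, h2, h3]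
    simp only [sub_self, mul_zero, sub_zero, norm_zero, ne_eq, OfNat.ofNat_ne_zero,
      not_false_eq_true, zero_pow, zero_div, add_zero] at hs
    linarith

end Crest.Agent.S0175Aux
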