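import Mathlib
import Crest.Prelude.Def_MultiMarginal

/-!
# S0175: common definitions

Paper proof: see team notes (rid 130).  `p = s/2+1`, `f(t) = t^(1-p)`, `‖x-y‖^(-s) = f(‖x-y‖^2)`.
Model space `V k = ℂ × ℝ^k` with the L² norm.
-/

set_option autoImplicit false

namespace Crest.Agent.S0175Aux

open MeasureTheory Crest.AnalysisR.OT
open scoped ENNReal ContDiff

/-- The "passive" factor `ℝ^k`. -/
abbrev F (k : ℕ) := EuclideanSpace ℝ (Fin k)
/-- The model space `ℂ × ℝ^k` with the Euclidean norm. -/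
abbrev V (k : ℕ) := WithLp 2 (ℂ × F k)

/-! ### The one-parameter family (functions of the exponent `p` and the level `t`) -/

noncomputable def tstar (p : ℝ) : ℝ := (4 : ℝ) ^ (-p)
noncomputable def Bt (p : ℝ) : ℝ := 1 + 2 * tstar p
/-- normalised slope at `al` : `lam = al^(-p)` -/
noncomputable def lam (p t : ℝ) : ℝ := Bt p - 2 * t
/-- squared length of the two equal sides `|a-y|^2 = |a-z|^2` -/
noncomputable def al (p t : ℝ) : ℝ := (lam p t) ^ (-(1 / p))
/-- squared length of the base `|y-z|^2`; `t = be^(-p)` -/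
noncomputable def be (p t : ℝ) : ℝ := t ^ (-(1 / p))
/-- squared height of the isosceles triangle -/
noncomputable def h2 (p t : ℝ) : ℝ := al p t - be p t / 4
/-- `|a|^2` at level `t` -/
noncomputable def Xf (p t : ℝ) : ℝ := (2 * t / Bt p) ^ 2 * h2 p t
/-- `|y|^2 = |z|^2` at level `t` -/
noncomputable def Yf (p t : ℝ) : ℝ := (lam p t / Bt p) ^ 2 * h2 p t + be p t / 4
/-- midpoint of `y,z` is `-gam • a` -/
noncomputable def gam (p t : ℝ) : ℝ := lam p t / (2 * t)
/-- half of the base length -/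
noncomputable def om (p t : ℝ) : ℝ := Real.sqrt (be p t) / 2
/-- the admissible levels -/
def II (p : ℝ) : Set ℝ := Set.Ioo (tstar p) (Bt p / 2)

/-- constant term of the potential on the inner shell -/
noncomputable def Kc (p t : ℝ) : ℝ := p * (2 * (al p t) ^ (1 - p) + (be p t) ^ (1 - p))
/-- quadratic coefficient of the potential on the inner shell -/
noncomputable def Ac (p t : ℝ) : ℝ := (p - 1) * (2 * lam p t + (lam p t) ^ 2 / t)
/-- quadratic coefficient of the potential on the outer shell (independent of `t`!) -/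
noncomputable def Bc (p : ℝ) : ℝ := (p - 1) * Bt p

/-- level as a function of `|a|^2` -/
noncomputable def tA (p : ℝ) : ℝ → ℝ := Function.invFunOn (Xf p) (II p)
/-- level as a function of `|y|^2` -/
noncomputable def tB (p : ℝ) : ℝ → ℝ := Function.invFunOn (Yf p) (II p)

/-- Jacobian factor: density of `mu_A` in the coordinates `(X, tau)` relative to that of `mu_B`. -/
noncomputable def jac (p : ℝ) (k : ℕ) (t : ℝ) : ℝ :=
  (-(deriv (Yf p) t) / deriv (Xf p) t) * (gam p t) ^ k / 2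

/-! ### Parameters -/

/-- The parameters of the construction: exponent `s`, levels `t₁ < t₂`, normalising constant. -/
structure Par where
  s : ℝ
  t₁ : ℝ
  t₂ : ℝ
  cN : ℝ

namespace Par
noncomputable def p (P : Par) : ℝ := P.s / 2 + 1
noncomputable def X₁ (P : Par) : ℝ := Xf P.p P.t₁
noncomputable def X₂ (P : Par) : ℝ := Xf P.p P.t₂
/-- NB `Y` is decreasing: `Y₂ < Y₁`. -/
noncomputable def Y₁ (P : Par) : ℝ := Yf P.p P.t₁
noncomputable def Y₂ (P : Par) : ℝ := Yf P.p P.t₂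
/-- squared radius of the cut-off in the passive variable -/
noncomputable def dl2 (P : Par) : ℝ := (gam P.p P.t₂) ^ 2 * P.X₁
end Par

/-- What we need from the parameters. -/
structure Good (P : Par) : Prop where
  hs : 0 < P.s
  ht₁ : P.t₁ ∈ II P.p
  ht₂ : P.t₂ ∈ II P.p
  hlt : P.t₁ < P.t₂
  /-- two particles in the inner shell are too expensive -/
  hK : ∀ t ∈ Set.Icc P.t₁ P.t₂, 2 * Kc P.p t < (4 * P.X₂) ^ (-(P.s / 2))
  /-- the height is small (so `1 ≤ be`, `Y < 2`, `X < 1/2 < Y`) -/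
  hh : ∀ t ∈ Set.Icc P.t₁ P.t₂, h2 P.p t ≤ 1 / 2
  hc : 0 < P.cN

/-! ### Sets, maps and densities on `V k` -/

variable {k : ℕ}

/-- inner shell (minus the axis) -/
def Aset (P : Par) (k : ℕ) : Set (V k) := {a | ‖a‖ ^ 2 ∈ Set.Ioo P.X₁ P.X₂ ∧ a.fst ≠ 0}
/-- outer shell -/
def Bset (P : Par) (k : ℕ) : Set (V k) := {y | ‖y‖ ^ 2 ∈ Set.Ioo P.Y₂ P.Y₁}

/-- `a ↦ -g a + w * (i a_P / |a_P|)` -/
noncomputable def tri (g w : ℝ) (a : V k) : V k :=
  WithLp.toLp 2 (a.fst * (((-g : ℝ) : ℂ) + ((w / ‖a.fst‖ : ℝ) : ℂ) * Complex.I), (-g) • a.snd)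

open scoped Classical in
/-- `S₊` -/
noncomputable def Sp (P : Par) (a : V k) : V k :=
  if a ∈ Aset P k then tri (gam P.p (tA P.p (‖a‖ ^ 2))) (om P.p (tA P.p (‖a‖ ^ 2))) a else a

open scoped Classical in
/-- `S₋` -/
noncomputable def Sm (P : Par) (a : V k) : V k :=
  if a ∈ Aset P k then tri (gam P.p (tA P.p (‖a‖ ^ 2))) (-(om P.p (tA P.p (‖a‖ ^ 2)))) a else a

/-- the formula for the left inverse of `S₊` at level `t` -/
noncomputable def qtri (p t : ℝ) (y : V k) : V k :=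
  WithLp.toLp 2
    (((Real.sqrt (Xf p t - ‖(gam p t)⁻¹ • y.snd‖ ^ 2) : ℝ) : ℂ) * y.fst /
        (((-(gam p t) * Real.sqrt (Xf p t - ‖(gam p t)⁻¹ • y.snd‖ ^ 2) : ℝ) : ℂ)
          + ((om p t : ℝ) : ℂ) * Complex.I),
      (-(gam p t)⁻¹) • y.snd)

open scoped Classical in
/-- left inverse of `S₊` -/
noncomputable def Qp (P : Par) (y : V k) : V k :=
  if y ∈ Bset P k then qtri P.p (tB P.p (‖y‖ ^ 2)) y else y

/-- radial profile (in the variable `|y|^2`), positive exactly on `(Y₂, Y₁)` -/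
noncomputable def n0 (P : Par) (y : ℝ) : ℝ :=
  Real.smoothTransition (y - P.Y₂) * Real.smoothTransition (P.Y₁ - y)
/-- profile in the passive variable, positive exactly on `‖τ‖^2 < dl2` -/
noncomputable def H0 (P : Par) (τ : F k) : ℝ := Real.smoothTransition (P.dl2 - ‖τ‖ ^ 2)

/-- square root of the (normalised) density on the outer shell -/
noncomputable def rB (P : Par) (y : V k) : ℝ := P.cN * (n0 P (‖y‖ ^ 2) * H0 P y.snd)

open scoped Classical in
/-- square root of the (normalised) density on the inner shell -/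
noncomputable def rA (P : Par) (a : V k) : ℝ :=
  if ‖a‖ ^ 2 ∈ Set.Ioo P.X₁ P.X₂ then
    P.cN * (n0 P (Yf P.p (tA P.p (‖a‖ ^ 2))) * Real.sqrt (jac P.p k (tA P.p (‖a‖ ^ 2))) *
      H0 P ((gam P.p (tA P.p (‖a‖ ^ 2))) • a.snd))
  else 0

noncomputable def rhoA (P : Par) (a : V k) : ℝ := (rA P a) ^ 2
noncomputable def rhoB (P : Par) (a : V k) : ℝ := (rB P a) ^ 2
/-- the density -/
noncomputable def rho (P : Par) (x : V k) : ℝ := (rA P x + rB P x) ^ 2

noncomputable def muA (P : Par) (k : ℕ) : Measure (V k) := measOfDensity (rhoA P (k := k))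
noncomputable def muB (P : Par) (k : ℕ) : Measure (V k) := measOfDensity (rhoB P (k := k))

/-! ### Potentials (all `ℝ≥0∞`-valued): `g₁+g₂+g₃ ≤ c + v₁+v₂+v₃` -/

open scoped Classical in
noncomputable def gfun (P : Par) (x : V k) : ℝ≥0∞ :=
  if x ∈ Aset P k then
    ENNReal.ofReal (Kc P.p (tA P.p (‖x‖ ^ 2)) - Ac P.p (tA P.p (‖x‖ ^ 2)) * ‖x‖ ^ 2) else 0

open scoped Classical in
noncomputable def vfun (P : Par) (x : V k) : ℝ≥0∞ :=
  if x ∈ Bset P k then ENNReal.ofReal (Bc P.p * ‖x‖ ^ 2) else 0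

open scoped Classical in
noncomputable def psiA (P : Par) (x : V k) : ℝ≥0∞ :=
  if x ∈ Aset P k then ENNReal.ofReal (2 * (gam P.p (tA P.p (‖x‖ ^ 2))) ^ 2 * ‖x.snd‖ ^ 2) else 0

open scoped Classical in
noncomputable def psiB (P : Par) (x : V k) : ℝ≥0∞ :=
  if x ∈ Bset P k then ENNReal.ofReal (‖x.snd‖ ^ 2) else 0

/-! ### Coordinates `(X, φ, τ)` : `X = ‖x‖^2`, `φ = arg x.fst`, `τ = x.snd` -/

noncomputable def Phi (X φ : ℝ) (τ : F k) : V k :=
  WithLp.toLp 2 (((Real.sqrt (X - ‖τ‖ ^ 2) : ℝ) : ℂ) * Complex.exp ((φ : ℂ) * Complex.I), τ)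

/-! ### The angle-doubling maps (`2N` double sectors of width `π/N`) -/

/-- fractional position of the angle inside its double sector -/
noncomputable def frac (N : ℕ) (y : V k) : ℝ := Int.fract (Complex.arg y.fst / (Real.pi / N))

/-- the rotation angle -/
noncomputable def thet (N : ℕ) (y : V k) : ℝ :=
  (Real.pi / N) * (if frac N y < 1 / 2 then frac N y else frac N y - 1)

/-- rotate the `ℂ`-factor -/
noncomputable def rot (ϑ : ℝ) (y : V k) : V k :=
  WithLp.toLp 2 (y.fst * Complex.exp ((ϑ : ℂ) * Complex.I), y.snd)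

noncomputable def Dmap (N : ℕ) (y : V k) : V k := rot (thet N y) y

def Bp (P : Par) (N : ℕ) (k : ℕ) : Set (V k) := {y | y ∈ Bset P k ∧ frac N y < 1 / 2}
def Bpp (P : Par) (N : ℕ) (k : ℕ) : Set (V k) := {y | y ∈ Bset P k ∧ 1 / 2 ≤ frac N y}

/-- The statement of S0175 on a general finite-dimensional inner product space. -/
def Goal (E : Type) [NormedAddCommGroup E] [InnerProductSpace ℝ E] [MeasurableSpace E]
    [BorelSpace E] [FiniteDimensional ℝ E] (s : ℝ) : Prop :=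
  ∃ ρ : E → ℝ, (∀ x, 0 ≤ ρ x) ∧ ContDiff ℝ ∞ ρ ∧ HasCompactSupport ρ ∧
      ContDiff ℝ ∞ (fun x => Real.sqrt (ρ x)) ∧ ∫ x, ρ x = 1 ∧
      ∃ π₀ : Measure (E × E × E),
        IsCoupling₃ (measOfDensity ρ) π₀ ∧ ∫⁻ p, tripleCost s p ∂π₀ < ⊤ ∧
        (∀ π : Measure (E × E × E), IsCoupling₃ (measOfDensity ρ) π →
          ∫⁻ p, tripleCost s p ∂π₀ ≤ ∫⁻ p, tripleCost s p ∂π) ∧
        (∀ T₂ T₃ : E → E, Measurable T₂ → Measurable T₃ →
          (measOfDensity ρ).map T₂ = measOfDensity ρ → (measOfDensity ρ).map T₃ = measOfDensity ρ →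
          ∫⁻ p, tripleCost s p ∂π₀ < ∫⁻ x, tripleCost s (x, T₂ x, T₃ x) ∂(measOfDensity ρ)) ∧
        (∀ ε : ℝ≥0∞, 0 < ε → ∃ T₂ T₃ : E → E, Measurable T₂ ∧ Measurable T₃ ∧
          (measOfDensity ρ).map T₂ = measOfDensity ρ ∧ (measOfDensity ρ).map T₃ = measOfDensity ρ ∧
          ∫⁻ x, tripleCost s (x, T₂ x, T₃ x) ∂(measOfDensity ρ) < ∫⁻ p, tripleCost s p ∂π₀ + ε)

end Crest.Agent.S0175Aux
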