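import Crest.Agent.S0175Aux.Defs

/-!
# S0175, task T1a: the family `t ↦ (lam, al, be, h2, Xf, Yf, gam, om)`: positivity and algebraic identities.

Everything is for `1 < p` and `t ∈ II p = (4^(-p), Bt p / 2)`.
At `t = tstar p`: `lam = 1`, `al = 1`, `be = 4`, `h2 = 0`; for `t > tstar p`: `lam < 1`, `al > 1`, `be < 4`.
-/

set_option autoImplicit false

namespace Crest.Agent.S0175Aux

open MeasureTheory Crest.AnalysisR.OT
open scoped ENNReal ContDiff

variable {p t : ℝ}

lemma tstar_pos (p : ℝ) : 0 < tstar p := by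
  unfold tstar; positivity
lemma Bt_pos (p : ℝ) : 0 < Bt p := by
  have := tstar_pos p
  unfold Bt; positivity
lemma lam_add (p t : ℝ) : lam p t + 2 * t = Bt p := by
  unfold lam; ring
lemma t_pos (ht : t ∈ II p) : 0 < t := lt_trans (tstar_pos p) ht.1
lemma lam_pos (ht : t ∈ II p) : 0 < lam p t := by
  have := ht.2
  unfold lam; linarith
lemma lam_lt_one (ht : t ∈ II p) : lam p t < 1 := by
  have := ht.1
  unfold lam Bt; linarith
lemma al_pos (ht : t ∈ II p) : 0 < al p t := Real.rpow_pos_of_pos (lam_pos ht) _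
lemma be_pos (ht : t ∈ II p) : 0 < be p t := Real.rpow_pos_of_pos (t_pos ht) _
lemma al_rpow (hp : 1 < p) (ht : t ∈ II p) : (al p t) ^ (-p) = lam p t := by
  unfold al
  rw [← Real.rpow_mul (lam_pos ht).le]
  have : -(1 / p) * -p = 1 := by
    have hp0 : p ≠ 0 := by positivity
    field_simp
  rw [this, Real.rpow_one]
lemma be_rpow (hp : 1 < p) (ht : t ∈ II p) : (be p t) ^ (-p) = t := by
  unfold be
  rw [← Real.rpow_mul (t_pos ht).le]
  have : -(1 / p) * -p = 1 := by
    have hp0 : p ≠ 0 := by positivity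
    field_simp
  rw [this, Real.rpow_one]
lemma one_lt_al (hp : 1 < p) (ht : t ∈ II p) : 1 < al p t := by
  unfold al
  apply Real.one_lt_rpow_of_pos_of_lt_one_of_neg (lam_pos ht) (lam_lt_one ht)
  have : 0 < 1 / p := by positivity
  linarith
lemma be_lt_four (hp : 1 < p) (ht : t ∈ II p) : be p t < 4 := by
  have hneg : -(1 / p) < 0 := by
    have : 0 < 1 / p := by positivity
    linarith
  have h := Real.rpow_lt_rpow_of_neg (tstar_pos p) ht.1 hneg
  have e : (tstar p) ^ (-(1 / p)) = 4 := by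
    unfold tstar
    rw [← Real.rpow_mul (by norm_num)]
    have : -p * -(1 / p) = 1 := by
      have hp0 : p ≠ 0 := by positivity
      field_simp
    rw [this, Real.rpow_one]
  rw [e] at h
  exact h
lemma h2_pos (hp : 1 < p) (ht : t ∈ II p) : 0 < h2 p t := by
  have h1 := one_lt_al hp ht
  have h2' := be_lt_four hp ht
  unfold h2; linarith
lemma gam_pos (ht : t ∈ II p) : 0 < gam p t := by
  have h1 := lam_pos ht
  have h2' := t_pos ht
  unfold gam; positivity
lemma om_pos (ht : t ∈ II p) : 0 < om p t := by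
  have h1 := Real.sqrt_pos.mpr (be_pos ht)
  unfold om; positivity
lemma om_sq (ht : t ∈ II p) : (om p t) ^ 2 = be p t / 4 := by
  unfold om
  rw [div_pow, Real.sq_sqrt (be_pos ht).le]
  norm_num
lemma Xf_pos (hp : 1 < p) (ht : t ∈ II p) : 0 < Xf p t := by
  have h1 := h2_pos hp ht
  have h2' := t_pos ht
  have h3 := Bt_pos p
  unfold Xf; positivity
lemma Yf_pos (hp : 1 < p) (ht : t ∈ II p) : 0 < Yf p t := by
  have h1 := h2_pos hp ht
  have h2' := lam_pos ht
  have h3 := Bt_pos p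
  have h4 := be_pos ht
  unfold Yf; positivity
/-- `(1+gam)^2 |a|^2 = h^2` -/
lemma Xf_mul (ht : t ∈ II p) : Xf p t * (1 + gam p t) ^ 2 = h2 p t := by
  have h0 := (t_pos ht).ne'
  have hB : Bt p = lam p t + 2 * t := (lam_add p t).symm
  have hB0 : lam p t + 2 * t ≠ 0 := by rw [← hB]; exact (Bt_pos p).ne'
  unfold Xf gam
  rw [hB]
  field_simp
  ring
/-- `|y|^2 = gam^2 |a|^2 + om^2` -/
lemma Yf_eq (ht : t ∈ II p) : Yf p t = (gam p t) ^ 2 * Xf p t + (om p t) ^ 2 := by
  have h0 := (t_pos ht).ne'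
  have hB0 := (Bt_pos p).ne'
  rw [om_sq ht]
  unfold Yf Xf gam
  field_simp
lemma Xf_le_h2 (hp : 1 < p) (ht : t ∈ II p) : Xf p t ≤ h2 p t := by
  have h1 := h2_pos hp ht
  have h0 := t_pos ht
  have hB := Bt_pos p
  have h2' : 2 * t / Bt p ≤ 1 := by
    rw [div_le_one hB]; have := ht.2; linarith
  have h3 : 0 ≤ 2 * t / Bt p := by positivity
  have h4 : (2 * t / Bt p) ^ 2 ≤ 1 := by nlinarith
  unfold Xf
  nlinarith
lemma FamA.lam_div_sq_le (ht : t ∈ II p) : (lam p t / Bt p) ^ 2 ≤ 1 := by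
  have h0 := t_pos ht
  have hB := Bt_pos p
  have hl := lam_pos ht
  have h2' : lam p t / Bt p ≤ 1 := by
    rw [div_le_one hB]; have := lam_add p t; linarith
  have h3 : 0 ≤ lam p t / Bt p := by positivity
  nlinarith
lemma Yf_lt (hp : 1 < p) (ht : t ∈ II p) : Yf p t < h2 p t + 1 := by
  have h1 := h2_pos hp ht
  have h2' := FamA.lam_div_sq_le ht
  have h3 := be_lt_four hp ht
  unfold Yf
  nlinarith
lemma lt_Yf (hp : 1 < p) (ht : t ∈ II p) : 1 - h2 p t < Yf p t := by
  have h1 := h2_pos hp ht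
  have h3 := one_lt_al hp ht
  have h4 : 0 ≤ (lam p t / Bt p) ^ 2 * h2 p t := by positivity
  have h5 : be p t / 4 = al p t - h2 p t := by unfold h2; ring
  unfold Yf
  rw [h5]
  linarith


end Crest.Agent.S0175Aux
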