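import Crest.Agent.S0175Aux.FamA

/-!
# S0175, task T1b: smoothness, signs of derivatives, monotonicity of the family.

Hints: `d al/dt = 2 al/(p lam)`, `d be/dt = - be/(p t)`, so `h2' = 2 al/(p lam) + be/(4 p t) > 0`,
`Xf' = (8 t/Bt^2) h2 + (2t/Bt)^2 h2' > 0`,
`Yf' = -(Bt * be/2 + 2 lam (2p-1) h2)/(p Bt^2) < 0`.
-/

set_option autoImplicit false

namespace Crest.Agent.S0175Aux

open MeasureTheory Crest.AnalysisR.OT
open scoped ENNReal ContDiff

variable {p t : ℝ}

namespace FamB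

lemma contDiffAt_lam (p t : ℝ) : ContDiffAt ℝ ∞ (lam p) t := by
  unfold lam
  fun_prop

lemma contDiffAt_h2 (hal : ContDiffAt ℝ ∞ (al p) t) (hbe : ContDiffAt ℝ ∞ (be p) t) :
    ContDiffAt ℝ ∞ (h2 p) t := by
  have : h2 p = fun t => al p t - be p t / 4 := rfl
  rw [this]
  exact hal.sub (hbe.div_const 4)

lemma contDiffAt_deriv {f : ℝ → ℝ} (hf : ContDiffAt ℝ ∞ f t) : ContDiffAt ℝ ∞ (deriv f) t := by
  have h1 : ContDiffAt ℝ ∞ (fderiv ℝ f) t := hf.fderiv_right (m := ∞) (by simp)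
  have h2 : deriv f = fun x => fderiv ℝ f x 1 := by
    funext x; exact (fderiv_apply_one_eq_deriv).symm
  rw [h2]
  exact h1.clm_apply contDiffAt_const

lemma hasDerivAt_lam (p t : ℝ) : HasDerivAt (lam p) (-2) t := by
  unfold lam
  have := ((hasDerivAt_id t).const_mul (2:ℝ)).const_sub (Bt p)
  simpa using this

lemma hasDerivAt_al (hp : 1 < p) (ht : t ∈ II p) :
    HasDerivAt (al p) (2 * al p t / (p * lam p t)) t := by
  have hl := lam_pos ht
  have h := (hasDerivAt_lam p t).rpow_const (p := -(1 / p)) (Or.inl hl.ne')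
  have e : (-2 : ℝ) * (-(1 / p)) * lam p t ^ (-(1 / p) - 1) = 2 * al p t / (p * lam p t) := by
    rw [Real.rpow_sub_one hl.ne']
    unfold al
    have hp0 : p ≠ 0 := by positivity
    field_simp
  rw [e] at h
  exact h

lemma hasDerivAt_be (hp : 1 < p) (ht : t ∈ II p) :
    HasDerivAt (be p) (-(be p t / (p * t))) t := by
  have h0 := t_pos ht
  have h := (hasDerivAt_id t).rpow_const (p := -(1 / p)) (Or.inl h0.ne')
  have e : (1 : ℝ) * (-(1 / p)) * id t ^ (-(1 / p) - 1) = -(be p t / (p * t)) := by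
    simp only [id]
    rw [Real.rpow_sub_one h0.ne']
    unfold be
    have hp0 : p ≠ 0 := by positivity
    field_simp
  rw [e] at h
  exact h

/-- the derivative of `h2` -/
noncomputable def dh2 (p t : ℝ) : ℝ := 2 * al p t / (p * lam p t) + be p t / (4 * p * t)

lemma dh2_pos (hp : 1 < p) (ht : t ∈ II p) : 0 < dh2 p t := by
  have h0 := t_pos ht
  have hl := lam_pos ht
  have ha := al_pos ht
  have hb := be_pos ht
  unfold dh2
  positivity

lemma hasDerivAt_h2 (hp : 1 < p) (ht : t ∈ II p) : HasDerivAt (h2 p) (dh2 p t) t := by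
  have h := (hasDerivAt_al hp ht).sub ((hasDerivAt_be hp ht).div_const 4)
  have e : 2 * al p t / (p * lam p t) - -(be p t / (p * t)) / 4 = dh2 p t := by
    unfold dh2
    have h0 := (t_pos ht).ne'
    have hp0 : p ≠ 0 := by positivity
    have hl := (lam_pos ht).ne'
    field_simp
    ring
  rw [e] at h
  exact h

lemma hasDerivAt_Xf (hp : 1 < p) (ht : t ∈ II p) :
    HasDerivAt (Xf p) (8 * t / (Bt p) ^ 2 * h2 p t + (2 * t / Bt p) ^ 2 * dh2 p t) t := by
  have hB := (Bt_pos p).ne'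
  have h1 : HasDerivAt (fun t : ℝ => (2 * t / Bt p) ^ 2) (8 * t / (Bt p) ^ 2) t := by
    have := ((((hasDerivAt_id' t).const_mul (2:ℝ)).div_const (Bt p)).fun_pow 2)
    refine this.congr_deriv ?_
    simp only [Nat.cast_ofNat, Nat.add_one_sub_one, pow_one]
    field_simp
    ring
  exact h1.mul (hasDerivAt_h2 hp ht)

lemma hasDerivAt_Yf (hp : 1 < p) (ht : t ∈ II p) :
    HasDerivAt (Yf p)
      (-((Bt p * be p t / 2 + 2 * lam p t * (2 * p - 1) * h2 p t) / (p * (Bt p) ^ 2))) t := by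
  have hB := (Bt_pos p).ne'
  have h0 := (t_pos ht).ne'
  have hl := (lam_pos ht).ne'
  have hp0 : p ≠ 0 := by positivity
  have h1 : HasDerivAt (fun t : ℝ => (lam p t / Bt p) ^ 2) (-4 * lam p t / (Bt p) ^ 2) t := by
    have := (((hasDerivAt_lam p t).div_const (Bt p)).fun_pow 2)
    refine this.congr_deriv ?_
    simp only [Nat.cast_ofNat, Nat.add_one_sub_one, pow_one]
    field_simp
    ring
  have h := (h1.mul (hasDerivAt_h2 hp ht)).add ((hasDerivAt_be hp ht).div_const 4)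
  refine h.congr_deriv ?_
  have hBt : Bt p = lam p t + 2 * t := (lam_add p t).symm
  unfold dh2 h2
  rw [hBt]
  have hs : lam p t + 2 * t ≠ 0 := by rw [← hBt]; exact hB
  field_simp
  ring

end FamB

open FamB

lemma contDiffAt_al (hp : 1 < p) (ht : t ∈ II p) : ContDiffAt ℝ ∞ (al p) t := by
  unfold al
  exact (contDiffAt_lam p t).rpow_const_of_ne (lam_pos ht).ne'
lemma contDiffAt_be (hp : 1 < p) (ht : t ∈ II p) : ContDiffAt ℝ ∞ (be p) t := by
  unfold be
  exact contDiffAt_id.rpow_const_of_ne (t_pos ht).ne'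
lemma contDiffAt_Xf (hp : 1 < p) (ht : t ∈ II p) : ContDiffAt ℝ ∞ (Xf p) t := by
  have h := contDiffAt_h2 (contDiffAt_al hp ht) (contDiffAt_be hp ht)
  have : Xf p = fun t => (2 * t / Bt p) ^ 2 * h2 p t := rfl
  rw [this]
  exact (((contDiffAt_const.mul contDiffAt_id).div_const _).pow 2).mul h
lemma contDiffAt_Yf (hp : 1 < p) (ht : t ∈ II p) : ContDiffAt ℝ ∞ (Yf p) t := by
  have h := contDiffAt_h2 (contDiffAt_al hp ht) (contDiffAt_be hp ht)
  have : Yf p = fun t => (lam p t / Bt p) ^ 2 * h2 p t + be p t / 4 := rfl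
  rw [this]
  exact ((((contDiffAt_lam p t).div_const _).pow 2).mul h).add ((contDiffAt_be hp ht).div_const 4)
lemma contDiffAt_gam (ht : t ∈ II p) : ContDiffAt ℝ ∞ (gam p) t := by
  have : gam p = fun t => lam p t / (2 * t) := rfl
  rw [this]
  exact (contDiffAt_lam p t).div (contDiffAt_const.mul contDiffAt_id)
    (by have := t_pos ht; positivity)
lemma contDiffAt_om (hp : 1 < p) (ht : t ∈ II p) : ContDiffAt ℝ ∞ (om p) t := by
  have : om p = fun t => Real.sqrt (be p t) / 2 := rfl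
  rw [this]
  exact ((contDiffAt_be hp ht).sqrt (be_pos ht).ne').div_const 2
lemma contDiffAt_Kc (hp : 1 < p) (ht : t ∈ II p) : ContDiffAt ℝ ∞ (Kc p) t := by
  have : Kc p = fun t => p * (2 * (al p t) ^ (1 - p) + (be p t) ^ (1 - p)) := rfl
  rw [this]
  exact contDiffAt_const.mul
    ((contDiffAt_const.mul ((contDiffAt_al hp ht).rpow_const_of_ne (al_pos ht).ne')).add
      ((contDiffAt_be hp ht).rpow_const_of_ne (be_pos ht).ne'))
lemma contDiffAt_Ac (hp : 1 < p) (ht : t ∈ II p) : ContDiffAt ℝ ∞ (Ac p) t := by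
  have : Ac p = fun t => (p - 1) * (2 * lam p t + (lam p t) ^ 2 / t) := rfl
  rw [this]
  exact contDiffAt_const.mul
    ((contDiffAt_const.mul (contDiffAt_lam p t)).add
      (((contDiffAt_lam p t).pow 2).div contDiffAt_id (t_pos ht).ne'))
lemma contDiffAt_deriv_Xf (hp : 1 < p) (ht : t ∈ II p) : ContDiffAt ℝ ∞ (deriv (Xf p)) t :=
  contDiffAt_deriv (contDiffAt_Xf hp ht)
lemma contDiffAt_deriv_Yf (hp : 1 < p) (ht : t ∈ II p) : ContDiffAt ℝ ∞ (deriv (Yf p)) t :=
  contDiffAt_deriv (contDiffAt_Yf hp ht)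

lemma deriv_Xf_pos (hp : 1 < p) (ht : t ∈ II p) : 0 < deriv (Xf p) t := by
  rw [(hasDerivAt_Xf hp ht).deriv]
  have h0 := t_pos ht
  have hB := Bt_pos p
  have hh := h2_pos hp ht
  have hd := dh2_pos hp ht
  positivity
lemma deriv_Yf_neg (hp : 1 < p) (ht : t ∈ II p) : deriv (Yf p) t < 0 := by
  rw [(hasDerivAt_Yf hp ht).deriv]
  have hB := Bt_pos p
  have hh := h2_pos hp ht
  have hb := be_pos ht
  have hl := lam_pos ht
  have hp2 : 0 < 2 * p - 1 := by linarith
  have : 0 < (Bt p * be p t / 2 + 2 * lam p t * (2 * p - 1) * h2 p t) / (p * (Bt p) ^ 2) := by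
    positivity
  linarith

lemma strictMonoOn_Xf (hp : 1 < p) : StrictMonoOn (Xf p) (II p) := by
  apply strictMonoOn_of_deriv_pos (convex_Ioo _ _)
  · intro t ht
    exact (contDiffAt_Xf hp ht).continuousAt.continuousWithinAt
  · intro t ht
    rw [interior_Ioo] at ht
    exact deriv_Xf_pos hp ht
lemma strictAntiOn_Yf (hp : 1 < p) : StrictAntiOn (Yf p) (II p) := by
  apply strictAntiOn_of_deriv_neg (convex_Ioo _ _)
  · intro t ht
    exact (contDiffAt_Yf hp ht).continuousAt.continuousWithinAt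
  · intro t ht
    rw [interior_Ioo] at ht
    exact deriv_Yf_neg hp ht
lemma strictMonoOn_h2 (hp : 1 < p) : StrictMonoOn (h2 p) (II p) := by
  apply strictMonoOn_of_deriv_pos (convex_Ioo _ _)
  · intro t ht
    exact (hasDerivAt_h2 hp ht).continuousAt.continuousWithinAt
  · intro t ht
    rw [interior_Ioo] at ht
    rw [(hasDerivAt_h2 hp ht).deriv]
    exact dh2_pos hp ht
lemma strictAntiOn_gam : StrictAntiOn (gam p) (II p) := by
  intro a ha b hb hab
  have h0a := t_pos ha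
  have h0b := t_pos hb
  have hB := Bt_pos p
  unfold gam lam
  rw [div_lt_div_iff₀ (by positivity) (by positivity)]
  nlinarith

lemma jac_pos (hp : 1 < p) (k : ℕ) (ht : t ∈ II p) : 0 < jac p k t := by
  unfold jac
  have h1 := deriv_Xf_pos hp ht
  have h2 := deriv_Yf_neg hp ht
  have h3 := gam_pos ht
  have h4 : 0 < -(deriv (Yf p) t) := by linarith
  positivity
lemma contDiffAt_jac (hp : 1 < p) (k : ℕ) (ht : t ∈ II p) : ContDiffAt ℝ ∞ (jac p k) t := by
  have : jac p k = fun t => (-(deriv (Yf p) t) / deriv (Xf p) t) * (gam p t) ^ k / 2 := rfl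
  rw [this]
  exact ((((contDiffAt_deriv_Yf hp ht).neg).div (contDiffAt_deriv_Xf hp ht)
    (deriv_Xf_pos hp ht).ne').mul ((contDiffAt_gam ht).pow k)).div_const 2


end Crest.Agent.S0175Aux
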