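import Crest.Agent.S0175Aux.FamB

/-!
# S0175, task T1c: existence of good parameters and consequences of `Good`.
-/

set_option autoImplicit false

namespace Crest.Agent.S0175Aux

open MeasureTheory Crest.AnalysisR.OT
open scoped ENNReal ContDiff

variable {p t : ℝ}

/-- `Kc ≤ 3p` as soon as `1 ≤ be`. -/
lemma Kc_le (hp : 1 < p) (ht : t ∈ II p) (hb : 1 ≤ be p t) : Kc p t ≤ 3 * p := by
  have h1 : (al p t) ^ (1 - p) ≤ 1 :=
    Real.rpow_le_one_of_one_le_of_nonpos (one_lt_al hp ht).le (by linarith)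
  have h2 : (be p t) ^ (1 - p) ≤ 1 :=
    Real.rpow_le_one_of_one_le_of_nonpos hb (by linarith)
  unfold Kc
  nlinarith

namespace FamC

lemma lam_tstar (p : ℝ) : lam p (tstar p) = 1 := by
  unfold lam Bt; ring

lemma h2_tstar (hp : 1 < p) : h2 p (tstar p) = 0 := by
  have e : (tstar p) ^ (-(1 / p)) = 4 := by
    unfold tstar
    rw [← Real.rpow_mul (by norm_num)]
    have : -p * -(1 / p) = 1 := by
      have hp0 : p ≠ 0 := by positivity
      field_simp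
    rw [this, Real.rpow_one]
  unfold h2 al be
  rw [lam_tstar, e, Real.one_rpow]
  norm_num

lemma continuousAt_h2_tstar (p : ℝ) : ContinuousAt (h2 p) (tstar p) := by
  have h1 : ContinuousAt (fun t => (lam p t) ^ (-(1 / p))) (tstar p) := by
    apply ContinuousAt.rpow_const
    · unfold lam; fun_prop
    · left; rw [lam_tstar]; norm_num
  have h2' : ContinuousAt (fun t : ℝ => t ^ (-(1 / p))) (tstar p) := by
    apply ContinuousAt.rpow_const continuousAt_id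
    left; exact (tstar_pos p).ne'
  exact h1.sub (h2'.div_const 4)

lemma two_lt_be (hp : 1 < p) (ht : t ∈ II p) (hh : h2 p t ≤ 1 / 2) : 2 < be p t := by
  have h1 := one_lt_al hp ht
  unfold h2 at hh
  linarith

end FamC

open FamC

/-- `h2 → 0` at the left end point. -/
lemma exists_h2_lt (hp : 1 < p) {ε : ℝ} (hε : 0 < ε) : ∃ t ∈ II p, h2 p t < ε := by
  have hc := continuousAt_h2_tstar p
  rw [Metric.continuousAt_iff] at hc
  obtain ⟨δ, hδ, h⟩ := hc ε hε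
  refine ⟨tstar p + min δ (1 / 2) / 2, ⟨?_, ?_⟩, ?_⟩
  · have : 0 < min δ (1 / 2) := lt_min hδ (by norm_num)
    linarith
  · have : min δ (1 / 2) ≤ 1 / 2 := min_le_right _ _
    unfold Bt
    linarith
  · have hm : 0 < min δ (1 / 2) := lt_min hδ (by norm_num)
    have hm' : min δ (1 / 2) ≤ δ := min_le_left _ _
    have := h (x := tstar p + min δ (1 / 2) / 2) (by
      rw [Real.dist_eq]
      have : tstar p + min δ (1 / 2) / 2 - tstar p = min δ (1 / 2) / 2 := by ring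
      rw [this, abs_of_pos (by linarith)]
      linarith)
    rw [h2_tstar hp, Real.dist_eq, sub_zero] at this
    exact lt_of_le_of_lt (le_abs_self _) this

/-- Good parameters exist. (Take `t₂` with `h2 p t₂` tiny, `t₁` between `tstar p` and `t₂`; use
`Xf ≤ h2`, monotonicity of `h2`, `Kc ≤ 3p`.) -/
theorem exists_good (s : ℝ) (hs : 0 < s) :
    ∃ t₁ t₂ : ℝ, ∀ cN : ℝ, 0 < cN → Good ⟨s, t₁, t₂, cN⟩ := by
  set p : ℝ := s / 2 + 1 with hpdef
  have hp : 1 < p := by rw [hpdef]; linarith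
  have hc0 : 0 < (6 * p) ^ (-(2 / s)) := by positivity
  obtain ⟨t₂, ht₂, hlt₂⟩ := exists_h2_lt hp (ε := min (1 / 2) ((6 * p) ^ (-(2 / s)) / 8))
    (lt_min (by norm_num) (by positivity))
  have hh₂ : h2 p t₂ ≤ 1 / 2 := (lt_of_lt_of_le hlt₂ (min_le_left _ _)).le
  have hh₂' : h2 p t₂ < (6 * p) ^ (-(2 / s)) / 8 := lt_of_lt_of_le hlt₂ (min_le_right _ _)
  have ht₁ : (tstar p + t₂) / 2 ∈ II p := by
    constructor
    · have := ht₂.1; linarith
    · have := ht₂.1; have := ht₂.2; linarith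
  have hlt : (tstar p + t₂) / 2 < t₂ := by have := ht₂.1; linarith
  have hmem : ∀ t ∈ Set.Icc ((tstar p + t₂) / 2) t₂, t ∈ II p := fun t ht =>
    ⟨lt_of_lt_of_le ht₁.1 ht.1, lt_of_le_of_lt ht.2 ht₂.2⟩
  have hhle : ∀ t ∈ Set.Icc ((tstar p + t₂) / 2) t₂, h2 p t ≤ h2 p t₂ := fun t ht =>
    (strictMonoOn_h2 hp).monotoneOn (hmem t ht) ht₂ ht.2
  refine ⟨(tstar p + t₂) / 2, t₂, fun cN hcN => ⟨hs, ht₁, ht₂, hlt, ?_, ?_, hcN⟩⟩
  · intro t ht
    change 2 * Kc p t < (4 * Xf p t₂) ^ (-(s / 2))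
    have htII := hmem t ht
    have hK : Kc p t ≤ 3 * p :=
      Kc_le hp htII (by have := two_lt_be hp htII ((hhle t ht).trans hh₂); linarith)
    have hX0 := Xf_pos hp ht₂
    have hX : 4 * Xf p t₂ < (6 * p) ^ (-(2 / s)) := by
      have := Xf_le_h2 hp ht₂
      linarith
    have h1 := Real.rpow_lt_rpow_of_neg (z := -(s / 2)) (by positivity : 0 < 4 * Xf p t₂) hX
      (by linarith)
    have e : ((6 * p) ^ (-(2 / s))) ^ (-(s / 2)) = 6 * p := by
      rw [← Real.rpow_mul (by positivity)]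
      have : -(2 / s) * -(s / 2) = 1 := by
        field_simp
      rw [this, Real.rpow_one]
    rw [e] at h1
    linarith
  · intro t ht
    exact (hhle t ht).trans hh₂

/-! consequences of `Good` -/

variable {P : Par}

lemma Good.hp (hG : Good P) : 1 < P.p := by
  have := hG.hs
  unfold Par.p; linarith
lemma Good.mem_II (hG : Good P) (ht : t ∈ Set.Icc P.t₁ P.t₂) : t ∈ II P.p :=
  ⟨lt_of_lt_of_le hG.ht₁.1 ht.1, lt_of_le_of_lt ht.2 hG.ht₂.2⟩
lemma Good.X₁_pos (hG : Good P) : 0 < P.X₁ := Xf_pos hG.hp hG.ht₁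
lemma Good.X_lt (hG : Good P) : P.X₁ < P.X₂ := strictMonoOn_Xf hG.hp hG.ht₁ hG.ht₂ hG.hlt
lemma Good.Y_lt (hG : Good P) : P.Y₂ < P.Y₁ := strictAntiOn_Yf hG.hp hG.ht₁ hG.ht₂ hG.hlt
lemma Good.X₂_le (hG : Good P) : P.X₂ ≤ 1 / 2 :=
  (Xf_le_h2 hG.hp hG.ht₂).trans (hG.hh _ ⟨hG.hlt.le, le_rfl⟩)
lemma Good.lt_Y₂ (hG : Good P) : 1 / 2 < P.Y₂ := by
  have h1 := lt_Yf hG.hp hG.ht₂
  have h2' := hG.hh _ ⟨hG.hlt.le, le_rfl⟩
  unfold Par.Y₂
  linarith
lemma Good.Y₁_lt (hG : Good P) : P.Y₁ < 2 := by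
  have h1 := Yf_lt hG.hp hG.ht₁
  have h2' := hG.hh _ ⟨le_rfl, hG.hlt.le⟩
  unfold Par.Y₁
  linarith
lemma Good.two_le_be (hG : Good P) (ht : t ∈ Set.Icc P.t₁ P.t₂) : 2 ≤ be P.p t :=
  (two_lt_be hG.hp (hG.mem_II ht) (hG.hh t ht)).le
lemma Good.dl2_pos (hG : Good P) : 0 < P.dl2 := by
  have h1 := gam_pos hG.ht₂
  have h2' := hG.X₁_pos
  unfold Par.dl2
  positivity
/-- on the support of `rhoB` the `ℂ`-component does not vanish -/
lemma Good.dl2_lt_Y₂ (hG : Good P) : P.dl2 < P.Y₂ := by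
  have h1 := gam_pos hG.ht₂
  have h2' := hG.X_lt
  have h3 := om_pos hG.ht₂
  have h4 : P.Y₂ = (gam P.p P.t₂) ^ 2 * P.X₂ + (om P.p P.t₂) ^ 2 := Yf_eq hG.ht₂
  rw [h4]
  unfold Par.dl2
  have h5 : (gam P.p P.t₂) ^ 2 * P.X₁ < (gam P.p P.t₂) ^ 2 * P.X₂ :=
    mul_lt_mul_of_pos_left h2' (by positivity)
  have h6 : 0 < (om P.p P.t₂) ^ 2 := by positivity
  linarith
/-- on the support of `rhoA` the `ℂ`-component does not vanish -/
lemma Good.dl2_le (hG : Good P) (ht : t ∈ Set.Icc P.t₁ P.t₂) :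
    P.dl2 ≤ (gam P.p t) ^ 2 * P.X₁ := by
  have h1 := gam_pos hG.ht₂
  have h2' : gam P.p P.t₂ ≤ gam P.p t :=
    (strictAntiOn_gam (p := P.p)).antitoneOn (hG.mem_II ht) hG.ht₂ ht.2
  have h3 := hG.X₁_pos
  unfold Par.dl2
  have h4 : (gam P.p P.t₂) ^ 2 ≤ (gam P.p t) ^ 2 := by
    apply pow_le_pow_left₀ h1.le h2'
  exact mul_le_mul_of_nonneg_right h4 h3.le


end Crest.Agent.S0175Aux
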