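import Crest.Agent.S0175Aux.GeoMaps2
import Crest.Agent.S0175Aux.Core

/-!
# S0175, task T4c: equality of the dual inequality on the plan, the moment identity, boundedness of the potentials.

For `a ∈ Aset P k` put `t = tA P.p (‖a‖^2) ∈ (t₁,t₂)` (`tA_mem`), so `Xf t = ‖a‖^2` (`Xf_tA`).  Then
`Sp a = -gam a + w`, `Sm a = -gam a - w`, `w = om * (i a.fst/|a.fst|, 0)`, `w ⟂ a`, `|w| = om`.
`eq_on` = `core_ennreal_eq'` + `config`.
-/

set_option autoImplicit false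

namespace Crest.Agent.S0175Aux

open MeasureTheory Crest.AnalysisR.OT
open scoped ENNReal ContDiff

variable {k : ℕ} {P : Par}

namespace H4c

lemma tA_mem_Icc (hG : Good P) {a : V k} (ha : a ∈ Aset P k) :
    tA P.p (‖a‖ ^ 2) ∈ Set.Icc P.t₁ P.t₂ :=
  Set.Ioo_subset_Icc_self (tA_mem hG ha.1)

lemma tA_mem_II (hG : Good P) {a : V k} (ha : a ∈ Aset P k) : tA P.p (‖a‖ ^ 2) ∈ II P.p :=
  hG.mem_II (tA_mem_Icc hG ha)

lemma snd_sq_le (x : V k) : ‖x.snd‖ ^ 2 ≤ ‖x‖ ^ 2 := by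
  rw [WithLp.prod_norm_sq_eq_of_L2]
  have : 0 ≤ ‖x.fst‖ ^ 2 := by positivity
  linarith

end H4c

open H4c

lemma eq_on (hG : Good P) {a : V k} (ha : a ∈ Aset P k) :
    tripleCost P.s (a, Sp P a, Sm P a) + vfun P (Sp P a) + vfun P (Sm P a) = gfun P a := by
  obtain ⟨h1, h2, h3, h4⟩ := config hG ha
  simp only [gfun, vfun, if_pos ha, if_pos (Sp_mem hG ha), if_pos (Sm_mem hG ha)]
  exact core_ennreal_eq' hG (tA_mem_II hG ha) a (Sp P a) (Sm P a) h1 h2 h3 h4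

lemma psi_on (hG : Good P) {a : V k} (ha : a ∈ Aset P k) :
    psiB P (Sp P a) + psiB P (Sm P a) = psiA P a := by
  simp only [psiA, psiB, if_pos ha, if_pos (Sp_mem hG ha), if_pos (Sm_mem hG ha)]
  rw [← ENNReal.ofReal_add (by positivity) (by positivity)]
  congr 1
  have e1 : (Sp P a).snd = (-(gam P.p (tA P.p (‖a‖ ^ 2)))) • a.snd := by
    simp only [Sp, if_pos ha, tri]
    rfl
  have e2 : (Sm P a).snd = (-(gam P.p (tA P.p (‖a‖ ^ 2)))) • a.snd := by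
    simp only [Sm, if_pos ha, tri]
    rfl
  rw [e1, e2, norm_smul, mul_pow, Real.norm_eq_abs, sq_abs]
  ring

lemma gfun_bdd (hG : Good P) : ∃ C : ℝ≥0∞, C ≠ ⊤ ∧ ∀ x : V k, gfun P x ≤ C := by
  refine ⟨ENNReal.ofReal (3 * P.p), ENNReal.ofReal_ne_top, fun x => ?_⟩
  by_cases hx : x ∈ Aset P k
  · simp only [gfun, if_pos hx]
    apply ENNReal.ofReal_le_ofReal
    have ht := tA_mem_II hG hx
    have hK := Kc_le hG.hp ht (by linarith [hG.two_le_be (tA_mem_Icc hG hx)])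
    have hA : 0 ≤ Ac P.p (tA P.p (‖x‖ ^ 2)) := by
      unfold Ac
      have h1 := lam_pos ht
      have h2 := t_pos ht
      have h3 := hG.hp
      have : 0 ≤ P.p - 1 := by linarith
      positivity
    have : 0 ≤ Ac P.p (tA P.p (‖x‖ ^ 2)) * ‖x‖ ^ 2 := by positivity
    linarith
  · simp only [gfun, if_neg hx]
    exact zero_le

lemma vfun_bdd (hG : Good P) : ∃ C : ℝ≥0∞, C ≠ ⊤ ∧ ∀ x : V k, vfun P x ≤ C := by
  refine ⟨ENNReal.ofReal (Bc P.p * P.Y₁), ENNReal.ofReal_ne_top, fun x => ?_⟩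
  by_cases hx : x ∈ Bset P k
  · simp only [vfun, if_pos hx]
    apply ENNReal.ofReal_le_ofReal
    have hB : 0 ≤ Bc P.p := by
      unfold Bc
      have h1 := Bt_pos P.p
      have h3 := hG.hp
      have : 0 ≤ P.p - 1 := by linarith
      positivity
    exact mul_le_mul_of_nonneg_left hx.2.le hB
  · simp only [vfun, if_neg hx]
    exact zero_le

lemma psiA_bdd (hG : Good P) : ∃ C : ℝ≥0∞, C ≠ ⊤ ∧ ∀ x : V k, psiA P x ≤ C := by
  refine ⟨ENNReal.ofReal (2 * (gam P.p P.t₁) ^ 2 * P.X₂), ENNReal.ofReal_ne_top, fun x => ?_⟩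
  by_cases hx : x ∈ Aset P k
  · simp only [psiA, if_pos hx]
    apply ENNReal.ofReal_le_ofReal
    have ht := tA_mem_II hG hx
    have h1 : gam P.p (tA P.p (‖x‖ ^ 2)) ≤ gam P.p P.t₁ :=
      (strictAntiOn_gam.antitoneOn) hG.ht₁ ht (tA_mem_Icc hG hx).1
    have h0 := gam_pos ht
    have h2 : ‖x.snd‖ ^ 2 ≤ P.X₂ := (snd_sq_le x).trans hx.1.2.le
    have h3 : (gam P.p (tA P.p (‖x‖ ^ 2))) ^ 2 ≤ (gam P.p P.t₁) ^ 2 :=
      pow_le_pow_left₀ h0.le h1 2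
    have h4 : 0 ≤ ‖x.snd‖ ^ 2 := by positivity
    have h5 : 0 ≤ (gam P.p P.t₁) ^ 2 := by positivity
    nlinarith
  · simp only [psiA, if_neg hx]
    exact zero_le

lemma psiB_bdd (hG : Good P) : ∃ C : ℝ≥0∞, C ≠ ⊤ ∧ ∀ x : V k, psiB P x ≤ C := by
  refine ⟨ENNReal.ofReal P.Y₁, ENNReal.ofReal_ne_top, fun x => ?_⟩
  by_cases hx : x ∈ Bset P k
  · simp only [psiB, if_pos hx]
    apply ENNReal.ofReal_le_ofReal
    exact (snd_sq_le x).trans hx.2.le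
  · simp only [psiB, if_neg hx]
    exact zero_le

end Crest.Agent.S0175Aux
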