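import Crest.Agent.S0175Aux.GeoMaps1

/-!
# S0175, task T4b: `Qp` is a left inverse of `Sp` on `Aset`; `Sm` is injective on `Aset`.

For `a ∈ Aset P k` put `t = tA P.p (‖a‖^2) ∈ (t₁,t₂)` (`tA_mem`), so `Xf t = ‖a‖^2` (`Xf_tA`).  Then
`Sp a = -gam a + w`, `Sm a = -gam a - w`, `w = om * (i a.fst/|a.fst|, 0)`, `w ⟂ a`, `|w| = om`.
`tB (‖Sp a‖^2) = tB (Yf t) = t` (`Sp_norm_sq`, `tB_Yf`).
-/

set_option autoImplicit false

namespace Crest.Agent.S0175Aux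

open MeasureTheory Crest.AnalysisR.OT
open scoped ENNReal ContDiff

variable {k : ℕ} {P : Par}

namespace GeoMaps2

lemma ext_V {x y : V k} (h1 : x.fst = y.fst) (h2 : x.snd = y.snd) : x = y := by
  apply WithLp.ofLp_injective
  exact Prod.ext h1 h2

lemma mem_II_of_Aset (hG : Good P) {a : V k} (ha : a ∈ Aset P k) :
    tA P.p (‖a‖ ^ 2) ∈ II P.p :=
  hG.mem_II (Set.Ioo_subset_Icc_self (tA_mem hG ha.1))

lemma mult_ne_zero {g w : ℝ} (hw : w ≠ 0) : ((g : ℝ) : ℂ) + ((w : ℝ) : ℂ) * Complex.I ≠ 0 := by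
  intro h
  have := congrArg Complex.im h
  simp at this
  exact hw this

end GeoMaps2

open GeoMaps2

lemma Qp_Sp (hG : Good P) {a : V k} (ha : a ∈ Aset P k) : Qp P (Sp P a) = a := by
  have htII := mem_II_of_Aset hG ha
  have hX : Xf P.p (tA P.p (‖a‖ ^ 2)) = ‖a‖ ^ 2 := Xf_tA hG ha.1
  have hmem := Sp_mem hG ha
  have hn := Sp_norm_sq hG ha
  have hg := gam_pos htII
  have ho := om_pos htII
  have hr : 0 < ‖a.fst‖ := norm_pos_iff.mpr ha.2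
  unfold Qp
  rw [if_pos hmem, hn, tB_Yf hG.hp htII]
  have hS : Sp P a = tri (gam P.p (tA P.p (‖a‖ ^ 2))) (om P.p (tA P.p (‖a‖ ^ 2))) a := by
    unfold Sp; rw [if_pos ha]
  rw [hS]
  set t := tA P.p (‖a‖ ^ 2) with htdef
  set g := gam P.p t with hgdef
  set w := om P.p t with hwdef
  have hsnd : (tri g w a).snd = (-g) • a.snd := rfl
  have hfst : (tri g w a).fst =
      a.fst * (((-g : ℝ) : ℂ) + ((w / ‖a.fst‖ : ℝ) : ℂ) * Complex.I) := rfl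
  have h1 : g⁻¹ • (tri g w a).snd = - a.snd := by
    rw [hsnd, smul_smul]
    have : g⁻¹ * -g = -1 := by field_simp
    rw [this]; simp
  have h2 : Real.sqrt (Xf P.p t - ‖g⁻¹ • (tri g w a).snd‖ ^ 2) = ‖a.fst‖ := by
    rw [h1, norm_neg, hX, WithLp.prod_norm_sq_eq_of_L2]
    have : ‖a.fst‖ ^ 2 + ‖a.snd‖ ^ 2 - ‖a.snd‖ ^ 2 = ‖a.fst‖ ^ 2 := by ring
    rw [this, Real.sqrt_sq hr.le]
  apply ext_V
  · change ((Real.sqrt (Xf P.p t - ‖g⁻¹ • (tri g w a).snd‖ ^ 2) : ℝ) : ℂ) * (tri g w a).fst /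
        (((-g * Real.sqrt (Xf P.p t - ‖g⁻¹ • (tri g w a).snd‖ ^ 2) : ℝ) : ℂ)
          + ((w : ℝ) : ℂ) * Complex.I) = a.fst
    rw [h2, hfst]
    have hne : (((-g * ‖a.fst‖ : ℝ) : ℂ) + ((w : ℝ) : ℂ) * Complex.I) ≠ 0 := mult_ne_zero ho.ne'
    rw [div_eq_iff hne]
    have hrc : ((‖a.fst‖ : ℝ) : ℂ) ≠ 0 := by exact_mod_cast hr.ne'
    push_cast
    field_simp
  · change (-g⁻¹) • (tri g w a).snd = a.snd
    rw [hsnd, smul_smul]
    have : -g⁻¹ * -g = 1 := by field_simp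
    rw [this, one_smul]

lemma Sm_injOn (hG : Good P) : Set.InjOn (Sm P) (Aset P k) := by
  intro a ha b hb hab
  have hta := mem_II_of_Aset hG ha
  have htb := mem_II_of_Aset hG hb
  have hna := Sm_norm_sq hG ha
  have hnb := Sm_norm_sq hG hb
  have hY : Yf P.p (tA P.p (‖a‖ ^ 2)) = Yf P.p (tA P.p (‖b‖ ^ 2)) := by
    rw [← hna, ← hnb, hab]
  have ht : tA P.p (‖a‖ ^ 2) = tA P.p (‖b‖ ^ 2) := (strictAntiOn_Yf hG.hp).injOn hta htb hY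
  have hnorm : ‖a‖ ^ 2 = ‖b‖ ^ 2 := by
    rw [← Xf_tA hG ha.1, ← Xf_tA hG hb.1, ht]
  have hSa : Sm P a = tri (gam P.p (tA P.p (‖a‖ ^ 2))) (-(om P.p (tA P.p (‖a‖ ^ 2)))) a := by
    unfold Sm; rw [if_pos ha]
  have hSb : Sm P b = tri (gam P.p (tA P.p (‖a‖ ^ 2))) (-(om P.p (tA P.p (‖a‖ ^ 2)))) b := by
    unfold Sm; rw [if_pos hb, ← ht]
  rw [hSa, hSb] at hab
  have hg := gam_pos hta
  have ho := om_pos hta
  set g := gam P.p (tA P.p (‖a‖ ^ 2)) with hgdef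
  set w := om P.p (tA P.p (‖a‖ ^ 2)) with hwdef
  have hsnd : (-g) • a.snd = (-g) • b.snd := congrArg WithLp.snd hab
  have hsnd' : a.snd = b.snd := smul_right_injective _ (neg_ne_zero.mpr hg.ne') hsnd
  have hra : 0 < ‖a.fst‖ := norm_pos_iff.mpr ha.2
  have hrb : 0 < ‖b.fst‖ := norm_pos_iff.mpr hb.2
  have hr : ‖a.fst‖ = ‖b.fst‖ := by
    rw [WithLp.prod_norm_sq_eq_of_L2, WithLp.prod_norm_sq_eq_of_L2, hsnd'] at hnorm
    have : ‖a.fst‖ ^ 2 = ‖b.fst‖ ^ 2 := by linarith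
    exact (pow_left_inj₀ hra.le hrb.le (by norm_num)).mp this
  have hfst : a.fst * (((-g : ℝ) : ℂ) + ((-w / ‖a.fst‖ : ℝ) : ℂ) * Complex.I) =
      b.fst * (((-g : ℝ) : ℂ) + ((-w / ‖b.fst‖ : ℝ) : ℂ) * Complex.I) := congrArg WithLp.fst hab
  rw [← hr] at hfst
  have hne : (((-g : ℝ) : ℂ) + ((-w / ‖a.fst‖ : ℝ) : ℂ) * Complex.I) ≠ 0 :=
    mult_ne_zero (div_ne_zero (neg_ne_zero.mpr ho.ne') hra.ne')
  exact ext_V (mul_right_cancel₀ hne hfst) hsnd'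


end Crest.Agent.S0175Aux
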