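import Crest.Agent.S0175Aux.Inverse
import Crest.Agent.S0175Aux.Meas
import Crest.Agent.S0175Aux.Inv

/-!
# S0175, task T9a: regularity of `rA`.

`rA`: at a point with `‖a‖^2 ∈ Icc X₁ X₂` the function
coincides near `a` with the smooth expression (which vanishes for `‖a‖^2 ∉ Ioo X₁ X₂` close to the
interval because `n0 (Yf t) = 0` for `t ∉ Ioo t₁ t₂`; `tA` is smooth at the end points too:
`contDiffAt_tA'`; `sqrt ∘ jac` is smooth since `jac > 0`); elsewhere `rA = 0` locally.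
-/

set_option autoImplicit false

namespace Crest.Agent.S0175Aux

open MeasureTheory Crest.AnalysisR.OT
open scoped ENNReal ContDiff

variable {k : ℕ} {P : Par}

namespace RegA

lemma n0_nonneg (P : Par) (y : ℝ) : 0 ≤ n0 P y :=
  mul_nonneg (Real.smoothTransition.nonneg _) (Real.smoothTransition.nonneg _)

lemma H0_nonneg (P : Par) (τ : F k) : 0 ≤ H0 P τ := Real.smoothTransition.nonneg _

lemma contDiff_n0 (P : Par) : ContDiff ℝ ∞ (n0 P) := by
  unfold n0
  exact (Real.smoothTransition.contDiff.comp (contDiff_id.sub contDiff_const)).mul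
    (Real.smoothTransition.contDiff.comp (contDiff_const.sub contDiff_id))

lemma contDiff_H0 (P : Par) : ContDiff ℝ ∞ (H0 P : F k → ℝ) := by
  unfold H0
  exact Real.smoothTransition.contDiff.comp (contDiff_const.sub (contDiff_norm_sq ℝ))

lemma n0_eq_zero_of_le {y : ℝ} (h : y ≤ P.Y₂) : n0 P y = 0 := by
  unfold n0
  rw [Real.smoothTransition.zero_of_nonpos (by linarith), zero_mul]

lemma n0_eq_zero_of_ge {y : ℝ} (h : P.Y₁ ≤ y) : n0 P y = 0 := by
  unfold n0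
  rw [Real.smoothTransition.zero_of_nonpos (x := P.Y₁ - y) (by linarith), mul_zero]

/-- the smooth expression -/
noncomputable def G (P : Par) (a : V k) : ℝ :=
  P.cN * (n0 P (Yf P.p (tA P.p (‖a‖ ^ 2))) * Real.sqrt (jac P.p k (tA P.p (‖a‖ ^ 2))) *
      H0 P ((gam P.p (tA P.p (‖a‖ ^ 2))) • a.snd))

lemma contDiff_snd : ContDiff ℝ ∞ (fun a : V k => a.snd) :=
  (WithLp.sndL 2 ℝ ℂ (F k)).contDiff

lemma contDiffAt_G (hG : Good P) {a : V k} {t : ℝ} (ht : t ∈ II P.p) (ha : ‖a‖ ^ 2 = Xf P.p t) :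
    ContDiffAt ℝ ∞ (G P : V k → ℝ) a := by
  have hp := hG.hp
  have h1 : ContDiffAt ℝ ∞ (fun a : V k => tA P.p (‖a‖ ^ 2)) a := by
    have : ContDiffAt ℝ ∞ (tA P.p) (‖a‖ ^ 2) := by rw [ha]; exact contDiffAt_tA hp ht
    exact this.comp a (contDiff_norm_sq ℝ).contDiffAt
  have hval : tA P.p (‖a‖ ^ 2) = t := by rw [ha]; exact tA_Xf hp ht
  have h2 : ContDiffAt ℝ ∞ (fun a : V k => Yf P.p (tA P.p (‖a‖ ^ 2))) a := by
    have : ContDiffAt ℝ ∞ (Yf P.p) (tA P.p (‖a‖ ^ 2)) := by rw [hval]; exact contDiffAt_Yf hp ht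
    exact this.comp a h1
  have h3 : ContDiffAt ℝ ∞ (fun a : V k => jac P.p k (tA P.p (‖a‖ ^ 2))) a := by
    have : ContDiffAt ℝ ∞ (jac P.p k) (tA P.p (‖a‖ ^ 2)) := by
      rw [hval]; exact contDiffAt_jac hp k ht
    exact this.comp a h1
  have h4 : ContDiffAt ℝ ∞ (fun a : V k => gam P.p (tA P.p (‖a‖ ^ 2))) a := by
    have : ContDiffAt ℝ ∞ (gam P.p) (tA P.p (‖a‖ ^ 2)) := by rw [hval]; exact contDiffAt_gam ht
    exact this.comp a h1
  have h5 : ContDiffAt ℝ ∞ (fun a : V k => Real.sqrt (jac P.p k (tA P.p (‖a‖ ^ 2)))) a := by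
    refine h3.sqrt ?_
    rw [hval]; exact (jac_pos hp k ht).ne'
  have h6 : ContDiffAt ℝ ∞ (fun a : V k => n0 P (Yf P.p (tA P.p (‖a‖ ^ 2)))) a :=
    (contDiff_n0 P).contDiffAt.comp a h2
  have h7 : ContDiffAt ℝ ∞ (fun a : V k => H0 P ((gam P.p (tA P.p (‖a‖ ^ 2))) • a.snd)) a :=
    (contDiff_H0 P).contDiffAt.comp a (h4.smul contDiff_snd.contDiffAt)
  exact contDiffAt_const.mul ((h6.mul h5).mul h7)

lemma isOpen_image (hG : Good P) : IsOpen (Xf P.p '' II P.p) := by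
  have hp := hG.hp
  refine image_Ioo_isOpen (Xf P.p) (tstar P.p) (Bt P.p / 2) ?_ ?_
  · intro t ht
    exact (contDiffAt_Xf hp ht).contDiffWithinAt
  · intro t ht
    exact (deriv_Xf_pos hp ht).ne'

lemma rA_eq_G (hG : Good P) {a : V k} {t : ℝ} (ht : t ∈ II P.p) (ha : ‖a‖ ^ 2 = Xf P.p t) :
    rA P a = G P a := by
  have hp := hG.hp
  have hval : tA P.p (‖a‖ ^ 2) = t := by rw [ha]; exact tA_Xf hp ht
  have ht₁ : P.t₁ ∈ II P.p := hG.ht₁
  have ht₂ : P.t₂ ∈ II P.p := hG.ht₂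
  unfold rA G
  split_ifs with h
  · rfl
  · rw [hval]
    have : n0 P (Yf P.p t) = 0 := by
      rcases le_or_gt t P.t₁ with h1 | h1
      · apply n0_eq_zero_of_ge
        exact (strictAntiOn_Yf hp).antitoneOn ht ht₁ h1
      · rcases le_or_gt P.t₂ t with h2 | h2
        · apply n0_eq_zero_of_le
          exact (strictAntiOn_Yf hp).antitoneOn ht₂ ht h2
        · exfalso
          apply h
          rw [ha]
          exact ⟨strictMonoOn_Xf hp ht₁ ht h1, strictMonoOn_Xf hp ht ht₂ h2⟩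
    rw [this]; ring

end RegA

open RegA

lemma rA_nonneg (hG : Good P) (x : V k) : 0 ≤ rA P x := by
  unfold rA
  split_ifs
  · exact mul_nonneg hG.hc.le (mul_nonneg (mul_nonneg (n0_nonneg _ _) (Real.sqrt_nonneg _))
      (H0_nonneg _ _))
  · exact le_rfl

lemma rA_ne_zero (hG : Good P) {x : V k} (h : rA P x ≠ 0) : x ∈ Aset P k := by
  unfold rA at h
  split_ifs at h with hx
  · refine ⟨hx, ?_⟩
    intro hfst
    set t := tA P.p (‖x‖ ^ 2) with ht
    have htm : t ∈ Set.Ioo P.t₁ P.t₂ := tA_mem hG hx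
    have htI : t ∈ Set.Icc P.t₁ P.t₂ := Set.Ioo_subset_Icc_self htm
    have hH : H0 P ((gam P.p t) • x.snd) ≠ 0 := by
      intro h0; apply h; rw [h0]; ring
    have hlt : 0 < P.dl2 - ‖(gam P.p t) • x.snd‖ ^ 2 := by
      by_contra hcon
      exact hH (Real.smoothTransition.zero_of_nonpos (not_lt.mp hcon))
    have hg : 0 < gam P.p t := gam_pos (hG.mem_II htI)
    have hle := hG.dl2_le htI
    have hn : ‖x‖ ^ 2 = ‖x.fst‖ ^ 2 + ‖x.snd‖ ^ 2 := WithLp.prod_norm_sq_eq_of_L2 x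
    rw [hfst, norm_zero] at hn
    rw [norm_smul, mul_pow, Real.norm_eq_abs, sq_abs] at hlt
    have h1 : (gam P.p t) ^ 2 * ‖x.snd‖ ^ 2 < (gam P.p t) ^ 2 * P.X₁ := by linarith
    have h2 : ‖x.snd‖ ^ 2 < P.X₁ := lt_of_mul_lt_mul_left h1 (by positivity)
    have h3 := hx.1
    rw [hn] at h3
    linarith
  · exact absurd rfl h

lemma contDiff_rA (hG : Good P) : ContDiff ℝ ∞ (rA P : V k → ℝ) := by
  rw [contDiff_iff_contDiffAt]
  intro a
  by_cases ha : ‖a‖ ^ 2 ∈ Xf P.p '' II P.p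
  · obtain ⟨t, ht, hta⟩ := ha
    have hU : IsOpen {b : V k | ‖b‖ ^ 2 ∈ Xf P.p '' II P.p} :=
      (isOpen_image hG).preimage (continuous_norm.pow 2)
    have hev : (rA P : V k → ℝ) =ᶠ[nhds a] G P := by
      filter_upwards [hU.mem_nhds (show a ∈ {b : V k | ‖b‖ ^ 2 ∈ Xf P.p '' II P.p} from
        ⟨t, ht, hta⟩)] with b hb
      obtain ⟨t', ht', hb'⟩ := hb
      exact rA_eq_G hG ht' hb'.symm
    exact (contDiffAt_G hG ht hta.symm).congr_of_eventuallyEq hev
  · have hC : IsClosed {b : V k | ‖b‖ ^ 2 ∈ Set.Icc P.X₁ P.X₂} :=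
      isClosed_Icc.preimage (continuous_norm.pow 2)
    have hna : a ∈ {b : V k | ‖b‖ ^ 2 ∈ Set.Icc P.X₁ P.X₂}ᶜ := by
      intro hmem
      apply ha
      obtain ⟨h1, h2⟩ := tA_mem' hG hmem
      exact ⟨_, hG.mem_II h1, h2⟩
    have hev : (rA P : V k → ℝ) =ᶠ[nhds a] fun _ => 0 := by
      filter_upwards [hC.isOpen_compl.mem_nhds hna] with b hb
      unfold rA
      rw [if_neg]
      intro hb'
      exact hb (Set.Ioo_subset_Icc_self hb')
    exact contDiffAt_const.congr_of_eventuallyEq hev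

lemma hasCompactSupport_rA (hG : Good P) : HasCompactSupport (rA P : V k → ℝ) := by
  refine HasCompactSupport.intro (isCompact_closedBall (0 : V k) (Real.sqrt P.X₂)) ?_
  intro x hx
  unfold rA
  rw [if_neg]
  intro hx'
  apply hx
  rw [mem_closedBall_zero_iff]
  apply Real.le_sqrt_of_sq_le
  exact hx'.2.le

end Crest.Agent.S0175Aux
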